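import Vale.Agent.P359.Sound2

namespace Vale.Agent.P359

open Finset

noncomputable def cre (a : ℕ) : Module.End ℝ Fock where
  toFun x := fun S => if a ∈ S then sg a S * x (S.erase a) else 0
  map_add' x y := by
    funext S; by_cases h : a ∈ S <;> simp [h, mul_add]
  map_smul' c x := by
    funext S; by_cases h : a ∈ S <;> simp [h]; ring

lemma cre_apply (a : ℕ) (x : Fock) (S : Finset ℕ) :
    cre a x S = if a ∈ S then sg a S * x (S.erase a) else 0 := rfl

lemma sg_sq (a : ℕ) (S : Finset ℕ) : sg a S * sg a S = 1 := by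
  unfold sg; rw [← mul_pow]; norm_num

lemma sg_swap {a b : ℕ} {S : Finset ℕ} (hab : a ≠ b) (ha : a ∉ S) (hb : b ∉ S) :
    sg a S * sg b (insert a S) = -(sg b S * sg a (insert b S)) := by
  rcases lt_or_gt_of_ne hab with h | h
  · rw [sg_insert_lt ha h, sg_insert_ge (by omega : ¬ b < a)]; ring
  · rw [sg_insert_lt hb h, sg_insert_ge (by omega : ¬ a < b)]; ring

lemma ann_ann (a b : ℕ) : ann a * ann b = -(ann b * ann a) := by
  apply LinearMap.ext; intro x; funext S
  simp only [Module.End.mul_apply, LinearMap.neg_apply, Pi.neg_apply, ann_app, mem_insert]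
  by_cases hab : a = b
  · subst hab; by_cases h : a ∈ S <;> simp [h]
  by_cases ha : a ∈ S
  · simp [ha]
  by_cases hb : b ∈ S
  · simp [hb]
  rw [if_neg ha, if_neg hb, if_neg (by simp [Ne.symm hab, hb]), if_neg (by simp [hab, ha]),
    insert_comm b a, ← mul_assoc, sg_swap hab ha hb]
  ring

lemma ann_cre (a b : ℕ) : ann a * cre b = (if a = b then 1 else 0) - cre b * ann a := by
  apply LinearMap.ext; intro x; funext S
  simp only [Module.End.mul_apply, LinearMap.sub_apply, Pi.sub_apply, ann_app, cre_apply,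
    mem_insert, mem_erase]
  by_cases hab : a = b
  · subst hab
    by_cases h : a ∈ S
    · have e : sg a (S.erase a) = sg a S := by
        conv_rhs => rw [← insert_erase h]
        rw [sg_insert_ge (lt_irrefl a)]
      simp [h, insert_erase h, e, ← mul_assoc, sg_sq]
    · simp [h, sg_insert_ge (lt_irrefl a), erase_insert h, ← mul_assoc, sg_sq]
  rw [if_neg hab]
  by_cases ha : a ∈ S
  · simp [ha, hab]
  by_cases hb : b ∈ S
  · obtain ⟨T, hT, rfl⟩ : ∃ T, b ∉ T ∧ S = insert b T := ⟨S.erase b, by simp, (insert_erase hb).symm⟩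
    have haT : a ∉ T := fun h => ha (mem_insert_of_mem h)
    rw [if_neg ha, if_pos (Or.inr hb), if_pos hb, if_neg (by simp [ha]), erase_insert hT,
      insert_comm a b, erase_insert (by simp [Ne.symm hab, hT]), sg_insert_ge (lt_irrefl b),
      sg_insert_ge (lt_irrefl b)]
    have h1 := sg_swap hab haT hT
    have h2 := sg_sq a T
    have h3 := sg_sq b T
    have h4 : sg a (insert b T) * sg b (insert a T) = -(sg b T * sg a T) := by
      rcases lt_or_gt_of_ne hab with h | h
      · rw [sg_insert_lt haT h, sg_insert_ge (by omega : ¬ b < a)]; ring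
      · rw [sg_insert_lt hT h, sg_insert_ge (by omega : ¬ a < b)]; ring
    simp only [LinearMap.zero_apply, Pi.zero_apply]
    rw [← mul_assoc, h4]; ring
  · simp [ha, hb, Ne.symm hab]

lemma ip_comm (Q : ℕ) (x y : Fock) : ip Q x y = ip Q y x :=
  sum_congr rfl fun _ _ => mul_comm _ _

lemma ip_add_left (Q : ℕ) (x y z : Fock) : ip Q (x + y) z = ip Q x z + ip Q y z := by
  simp [ip, add_mul, sum_add_distrib]

lemma ip_add_right (Q : ℕ) (x y z : Fock) : ip Q z (x + y) = ip Q z x + ip Q z y := by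
  simp [ip, mul_add, sum_add_distrib]

lemma ip_sub_left (Q : ℕ) (x y z : Fock) : ip Q (x - y) z = ip Q x z - ip Q y z := by
  simp [ip, sub_mul, sum_sub_distrib]

lemma ip_sub_right (Q : ℕ) (x y z : Fock) : ip Q z (x - y) = ip Q z x - ip Q z y := by
  simp [ip, mul_sub, sum_sub_distrib]

lemma ip_smul_left (Q : ℕ) (c : ℝ) (x z : Fock) : ip Q (c • x) z = c * ip Q x z := by
  simp [ip, mul_sum, mul_assoc]

lemma ip_smul_right (Q : ℕ) (c : ℝ) (x z : Fock) : ip Q z (c • x) = c * ip Q z x := by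
  rw [ip_comm, ip_smul_left, ip_comm]

lemma ip_zero_left (Q : ℕ) (z : Fock) : ip Q 0 z = 0 := by simp [ip]

lemma ip_zero_right (Q : ℕ) (z : Fock) : ip Q z 0 = 0 := by simp [ip]

lemma ip_sum_left {ι : Type*} (Q : ℕ) (s : Finset ι) (x : ι → Fock) (z : Fock) :
    ip Q (∑ i ∈ s, x i) z = ∑ i ∈ s, ip Q (x i) z := by
  simp only [ip, Finset.sum_apply, sum_mul]
  exact sum_comm

lemma ip_sum_right {ι : Type*} (Q : ℕ) (s : Finset ι) (x : ι → Fock) (z : Fock) :
    ip Q z (∑ i ∈ s, x i) = ∑ i ∈ s, ip Q z (x i) := by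
  rw [ip_comm, ip_sum_left]; simp only [ip_comm Q z]

lemma ip_nonneg (Q : ℕ) (x : Fock) : 0 ≤ ip Q x x := sum_nonneg fun _ _ => mul_self_nonneg _

lemma ip_cre {Q a : ℕ} (ha : a ≤ Q) (x y : Fock) : ip Q (cre a x) y = ip Q x (ann a y) := by
  have h : a ∈ range (Q + 1) := mem_range.2 (by omega)
  have hn : a ∉ (range (Q + 1)).erase a := by simp
  unfold ip
  rw [← insert_erase h, sum_powerset_insert hn, sum_powerset_insert hn]
  have e : ∀ T ∈ ((range (Q + 1)).erase a).powerset, a ∉ T := fun T hT h' => hn (mem_powerset.1 hT h')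
  rw [sum_eq_zero (s := ((range (Q + 1)).erase a).powerset) (f := fun T => cre a x T * y T),
    sum_eq_zero (s := ((range (Q + 1)).erase a).powerset)
      (f := fun T => x (insert a T) * ann a y (insert a T)), zero_add, add_zero]
  · apply sum_congr rfl
    intro T hT
    rw [cre_apply, ann_app, if_pos (by simp), if_neg (e T hT), erase_insert (e T hT),
      sg_insert_ge (lt_irrefl a)]
    ring
  · intro T _; rw [ann_app, if_pos (by simp), mul_zero]
  · intro T hT; rw [cre_apply, if_neg (e T hT), zero_mul]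

lemma ip_ann_le {Q a : ℕ} (ha : a ≤ Q) (x : Fock) : ip Q (ann a x) (ann a x) ≤ ip Q x x := by
  have h1 : ip Q (ann a x) (ann a x) = ip Q x x - ip Q (cre a x) (cre a x) := by
    rw [← ip_cre ha, ip_cre ha x (cre a x), ← Module.End.mul_apply (ann a), ann_cre, if_pos rfl,
      LinearMap.sub_apply, ip_sub_right, ip_comm Q (cre a _)]
    simp
  have := ip_nonneg Q (cre a x)
  linarith

lemma supp_ann {Q : ℕ} (a : ℕ) {x : Fock} (hx : Supp Q x) : Supp Q (ann a x) := by
  intro S hS
  rw [ann_app, hx (insert a S) (fun h => hS ((subset_insert a S).trans h))]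
  simp

lemma supp_cre {Q a : ℕ} (ha : a ≤ Q) {x : Fock} (hx : Supp Q x) : Supp Q (cre a x) := by
  intro S hS
  rw [cre_apply, hx (S.erase a)]
  · simp
  · intro h
    apply hS
    intro i hi
    by_cases hia : i = a
    · exact mem_range.2 (by omega)
    · exact h (mem_erase.2 ⟨hia, hi⟩)

lemma supp_smul {Q : ℕ} (c : ℝ) {x : Fock} (hx : Supp Q x) : Supp Q (c • x) := by
  intro S hS; simp [hx S hS]

lemma supp_sum {Q : ℕ} {ι : Type*} (s : Finset ι) (x : ι → Fock) (hx : ∀ i ∈ s, Supp Q (x i)) :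
    Supp Q (∑ i ∈ s, x i) := by
  intro S hS
  rw [Finset.sum_apply]
  exact sum_eq_zero fun i hi => hx i hi S hS

lemma choose_succ_real (n k : ℕ) :
    (n.choose (k + 1) : ℝ) * (k + 1) = n.choose k * ((n : ℝ) - k) := by
  by_cases h : k ≤ n
  · have := congrArg (Nat.cast : ℕ → ℝ) (Nat.choose_succ_right_eq n k)
    push_cast [Nat.cast_sub h] at this
    exact this
  · rw [Nat.choose_eq_zero_of_lt (by omega), Nat.choose_eq_zero_of_lt (by omega)]; simp

lemma wt_nonneg (Q a : ℕ) : 0 ≤ wt Q a := Real.sqrt_nonneg _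

lemma wt_sq (Q a : ℕ) : wt Q a ^ 2 = (Q.choose a : ℝ) / (Q : ℝ) ^ a :=
  Real.sq_sqrt (by positivity)

lemma wt_zero (Q : ℕ) : wt Q 0 = 1 := by simp [wt]

lemma wt_one {Q : ℕ} (hQ : 0 < Q) : wt Q 1 = 1 := by
  have : (Q : ℝ) ≠ 0 := by positivity
  simp [wt, this]

lemma wt_gt {Q a : ℕ} (h : Q < a) : wt Q a = 0 := by simp [wt, Nat.choose_eq_zero_of_lt h]

noncomputable def lam (Q a : ℕ) : ℝ := Real.sqrt (((a : ℝ) + 1) * ((Q : ℝ) - a) / Q)

lemma lam_nonneg (Q a : ℕ) : 0 ≤ lam Q a := Real.sqrt_nonneg _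

lemma lam_sq {Q a : ℕ} (h : a < Q) : lam Q a ^ 2 = ((a : ℝ) + 1) * ((Q : ℝ) - a) / Q := by
  have : (a : ℝ) < Q := by exact_mod_cast h
  have : 0 < (Q : ℝ) - a := by linarith
  exact Real.sq_sqrt (by positivity)

lemma wt_lam {Q a : ℕ} (h : a < Q) : wt Q a * lam Q a = ((a : ℝ) + 1) * wt Q (a + 1) := by
  have hQ : (Q : ℝ) ≠ 0 := by have : 0 < Q := by omega
                              positivity
  apply (pow_left_inj₀ (mul_nonneg (wt_nonneg _ _) (lam_nonneg _ _))
    (mul_nonneg (by positivity) (wt_nonneg _ _)) two_ne_zero).1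
  rw [mul_pow, mul_pow, wt_sq, wt_sq, lam_sq h, pow_succ (Q : ℝ) a]
  have := choose_succ_real Q a
  field_simp
  linear_combination -this

lemma wt_lam' {Q a : ℕ} (h : a < Q) : wt Q (a + 1) * lam Q a = (1 - (a : ℝ) / Q) * wt Q a := by
  have hQ : (0 : ℝ) < Q := by have : 0 < Q := by omega
                              positivity
  have h1 : (a : ℝ) < Q := by exact_mod_cast h
  have h2 : 0 ≤ 1 - (a : ℝ) / Q := by rw [sub_nonneg, div_le_one hQ]; exact h1.le
  apply (pow_left_inj₀ (mul_nonneg (wt_nonneg _ _) (lam_nonneg _ _))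
    (mul_nonneg h2 (wt_nonneg _ _)) two_ne_zero).1
  rw [mul_pow, mul_pow, wt_sq, wt_sq, lam_sq h, pow_succ (Q : ℝ) a]
  have := choose_succ_real Q a
  field_simp
  linear_combination ((Q : ℝ) - a) * this

end Vale.Agent.P359
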