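import Vale.Agent.P359.Alg1

namespace Vale.Agent.P359

open Finset

abbrev Op := Module.End ℝ Fock

lemma ring_cm {A : Type*} [Ring A] (X Y J : A) :
    X * Y * J - J * (X * Y) = X * (Y * J - J * Y) + (X * J - J * X) * Y := by noncomm_ring

lemma ring_ann {A : Type*} [Ring A] (a b c d : A) (h1 : a * b = d - b * a)
    (h2 : c * a = -(a * c)) : a * (b * c) - b * c * a = d * c := by
  rw [← mul_assoc, h1, mul_assoc b c, h2]; noncomm_ring

lemma ring_pair {A : Type*} [Ring A] (a b c : A) (h1 : a * b = -(b * a))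
    (h2 : a * c = -(c * a)) : a * (b * c) = b * c * a := by
  rw [← mul_assoc, h1, neg_mul, mul_assoc, h2]; noncomm_ring

lemma ring_cre {A : Type*} [Ring A] (x y c d : A) (p q r t : Prop) [Decidable p] [Decidable q]
    [Decidable r] [Decidable t]
    (a0 : x * c = (if p then 1 else 0) - c * x) (a1 : x * d = (if q then 1 else 0) - d * x)
    (b0 : y * c = (if r then 1 else 0) - c * y) (b1 : y * d = (if t then 1 else 0) - d * y) :
    y * x * (c * d) = c * d * (y * x) +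
      (if p then ((if t then 1 else 0) - d * y) else 0) -
      (if r then ((if q then 1 else 0) - d * x) else 0) +
      (if q then c * y else 0) - (if t then c * x else 0) := by
  have e : y * x * (c * d) = y * (x * c) * d := by simp only [mul_assoc]
  have e2 : y * (c * x) * d = (y * c) * (x * d) := by simp only [mul_assoc]
  have e3 : c * y * (d * x) = c * (y * d) * x := by simp only [mul_assoc]
  have e4 : y * (if p then (1 : A) else 0) * d = if p then y * d else 0 := by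
    split_ifs <;> simp
  rw [e, a0, mul_sub, sub_mul, e4, e2, b0, a1, sub_mul, mul_sub (c * y), e3, b1]
  split_ifs <;> noncomm_ring

noncomputable def jp (Q : ℕ) : Op := ∑ a ∈ range Q, lam Q a • (cre a * ann (a + 1))

noncomputable def jm (Q : ℕ) : Op := ∑ a ∈ range Q, lam Q a • (cre (a + 1) * ann a)

def cm (X Y : Op) : Op := X * Y - Y * X

lemma cm_mul (X Y J : Op) : cm (X * Y) J = X * cm Y J + cm X J * Y := by
  exact ring_cm X Y J

lemma cm_smul (c : ℝ) (X J : Op) : cm (c • X) J = c • cm X J := by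
  unfold cm; rw [smul_mul_assoc, mul_smul_comm, smul_sub]

lemma cm_sum {ι : Type*} (s : Finset ι) (X : ι → Op) (J : Op) :
    cm (∑ i ∈ s, X i) J = ∑ i ∈ s, cm (X i) J := by
  unfold cm; rw [sum_mul, mul_sum, sum_sub_distrib]

lemma cm_sum_right {ι : Type*} (s : Finset ι) (X : ι → Op) (c : ι → ℝ) (J : Op) :
    cm J (∑ i ∈ s, c i • X i) = ∑ i ∈ s, c i • cm J (X i) := by
  unfold cm
  simp only [sum_mul, mul_sum, smul_sub, sum_sub_distrib, smul_mul_assoc, mul_smul_comm]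

lemma cm_ann (a b c : ℕ) : cm (ann a) (cre b * ann c) = if a = b then ann c else 0 := by
  refine (ring_ann _ _ _ _ (ann_cre a b) (ann_ann c a)).trans ?_
  split_ifs <;> simp

lemma cm_hc_jp (Q a : ℕ) : cm (hc Q a) (jp Q) = ((a : ℝ) + 1) • hc Q (a + 1) := by
  rw [hc, cm_smul, jp, cm_sum_right]
  simp only [cm_ann, smul_ite, smul_zero, sum_ite_eq, mem_range]
  split_ifs with h
  · rw [hc, smul_smul, smul_smul, wt_lam h]
  · rw [hc, wt_gt (by omega : Q < a + 1)]; simp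

lemma cm_hc_jm_zero (Q : ℕ) : cm (hc Q 0) (jm Q) = 0 := by
  rw [hc, cm_smul, jm, cm_sum_right]
  simp [cm_ann]

lemma cm_hc_jm {Q : ℕ} (hQ : 0 < Q) (a : ℕ) :
    cm (hc Q (a + 1)) (jm Q) = (1 - (a : ℝ) / Q) • hc Q a := by
  rw [hc, cm_smul, jm, cm_sum_right]
  simp only [cm_ann, smul_ite, smul_zero, Nat.add_right_cancel_iff, sum_ite_eq, mem_range]
  split_ifs with h
  · rw [hc, smul_smul, smul_smul, wt_lam' h]
  · rw [hc]
    rcases (not_lt.1 h).eq_or_lt with h' | h'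
    · have : (Q : ℝ) ≠ 0 := by positivity
      rw [← h', div_self this]; simp
    · rw [wt_gt h']; simp

lemma cm_hA_jp (Q m : ℕ) : cm (hA Q m) (jp Q) = ((m : ℝ) + 1) • hA Q (m + 1) := by
  unfold hA
  rw [cm_sum]
  simp only [cm_smul, cm_mul, cm_hc_jp, smul_add, sum_add_distrib, mul_smul_comm, smul_mul_assoc,
    smul_smul, smul_sum]
  have h1 := Nat.sum_antidiagonal_succ (n := m + 1)
    (f := fun p : ℕ × ℕ => ((((p.2 : ℝ) - p.1 + 1) / 2) * p.1) • (hc Q p.2 * hc Q p.1))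
  have h2 := Nat.sum_antidiagonal_succ' (n := m + 1)
    (f := fun p : ℕ × ℕ => ((((p.2 : ℝ) - p.1 - 1) / 2) * p.2) • (hc Q p.2 * hc Q p.1))
  simp only [Nat.cast_zero, mul_zero, zero_smul, zero_add] at h1 h2
  have e1 : ∑ p ∈ antidiagonal (m + 1), (((p.2 : ℝ) - p.1) / 2 * (p.1 + 1)) •
      (hc Q p.2 * hc Q (p.1 + 1)) = _ := Eq.trans (sum_congr rfl fun p _ => by
        congr 1; push_cast; ring) h1.symm
  have e2 : ∑ p ∈ antidiagonal (m + 1), (((p.2 : ℝ) - p.1) / 2 * (p.2 + 1)) •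
      (hc Q (p.2 + 1) * hc Q p.1) = _ := Eq.trans (sum_congr rfl fun p _ => by
        congr 1; push_cast; ring) h2.symm
  rw [e1, e2, ← sum_add_distrib]
  apply sum_congr rfl
  intro p hp
  have : (p.1 : ℝ) + p.2 = m + 2 := by exact_mod_cast mem_antidiagonal.1 hp
  rw [← add_smul]
  congr 1
  have e : (m : ℝ) = p.1 + p.2 - 2 := by linarith
  rw [e]; ring

lemma cm_hA_jm_gen {Q : ℕ} (hQ : 0 < Q) (m : ℕ) : cm (hA Q m) (jm Q) =
    ∑ p ∈ antidiagonal m, ((2 - ((m : ℝ) + 1) / Q) * (((p.2 : ℝ) - p.1) / 2)) •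
      (hc Q p.2 * hc Q p.1) := by
  unfold hA
  rw [cm_sum]
  simp only [cm_smul, cm_mul, smul_add, sum_add_distrib]
  rw [Nat.sum_antidiagonal_succ, Nat.sum_antidiagonal_succ']
  simp only [cm_hc_jm_zero, cm_hc_jm hQ, mul_zero, zero_mul, smul_zero, zero_add, mul_smul_comm,
    smul_mul_assoc, smul_smul]
  rw [← sum_add_distrib]
  apply sum_congr rfl
  intro p hp
  have : (p.1 : ℝ) + p.2 = m := by exact_mod_cast mem_antidiagonal.1 hp
  rw [← add_smul]
  congr 1
  rw [← this]; push_cast; ring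

lemma cm_hA_jm_zero {Q : ℕ} (hQ : 0 < Q) : cm (hA Q 0) (jm Q) = 0 := by
  rw [cm_hA_jm_gen hQ]; simp

lemma cm_hA_jm {Q : ℕ} (hQ : 0 < Q) (m : ℕ) :
    cm (hA Q (m + 1)) (jm Q) = (2 - ((m : ℝ) + 2) / Q) • hA Q m := by
  rw [cm_hA_jm_gen hQ, hA, smul_sum]
  apply sum_congr rfl
  intro p _
  rw [smul_smul]; congr 2; push_cast; ring

lemma hc_hc (Q a b : ℕ) : hc Q a * hc Q b = -(hc Q b * hc Q a) := by
  simp only [hc, smul_mul_assoc, mul_smul_comm, smul_smul]
  rw [ann_ann, mul_comm]; simp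

lemma hc_pair (Q a i j : ℕ) : hc Q a * (hc Q j * hc Q i) = hc Q j * hc Q i * hc Q a := by
  exact ring_pair _ _ _ (hc_hc Q a j) (hc_hc Q a i)

lemma hc_hA (Q a m : ℕ) : hc Q a * hA Q m = hA Q m * hc Q a := by
  unfold hA
  simp only [mul_sum, sum_mul, mul_smul_comm, smul_mul_assoc, hc_pair]

lemma hA_hA (Q m n : ℕ) : hA Q m * hA Q n = hA Q n * hA Q m := by
  rw [hA.eq_1 Q m]
  simp only [mul_sum, sum_mul, mul_smul_comm, smul_mul_assoc]
  apply sum_congr rfl
  intro p _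
  rw [mul_assoc, hc_hA, ← mul_assoc, hc_hA, mul_assoc]

lemma hA_big {Q m : ℕ} (h : 2 * Q - 1 ≤ m) : hA Q m = 0 := by
  apply sum_eq_zero
  intro p hp
  have := mem_antidiagonal.1 hp
  rcases lt_trichotomy p.1 p.2 with h1 | h1 | h1
  · rw [hc, wt_gt (by omega : Q < p.2)]; simp
  · rw [h1]; simp
  · rw [hc.eq_1 Q p.1, wt_gt (by omega : Q < p.1)]; simp

lemma hA_zero {Q : ℕ} (hQ : 0 < Q) : hA Q 0 = ann 1 * ann 0 := by
  have h0 : hc Q 0 = ann 0 := by rw [hc, wt_zero, one_smul]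
  have h1 : hc Q 1 = ann 1 := by rw [hc, wt_one hQ, one_smul]
  rw [hA, Nat.sum_antidiagonal_succ]
  simp only [zero_add, Finset.Nat.antidiagonal_zero, sum_singleton, h0, h1]
  rw [ann_ann 0 1, smul_neg, ← neg_smul, ← add_smul]
  norm_num

lemma hc_cre {Q : ℕ} (i b : ℕ) (hb : wt Q b = 1) :
    hc Q i * cre b = (if i = b then 1 else 0) - cre b * hc Q i := by
  rw [hc, smul_mul_assoc, ann_cre, mul_smul_comm, smul_sub]
  split_ifs with h
  · rw [h, hb, one_smul]
  · rw [smul_zero]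

lemma pair_cre {Q : ℕ} (hQ : 0 < Q) (i j : ℕ) :
    hc Q j * hc Q i * (cre 0 * cre 1) = cre 0 * cre 1 * (hc Q j * hc Q i) +
      (if i = 0 then ((if j = 1 then 1 else 0) - cre 1 * hc Q j) else 0) -
      (if j = 0 then ((if i = 1 then 1 else 0) - cre 1 * hc Q i) else 0) +
      (if i = 1 then cre 0 * hc Q j else 0) - (if j = 1 then cre 0 * hc Q i else 0) := by
  exact ring_cre _ _ _ _ _ _ _ _ (hc_cre i 0 (wt_zero Q)) (hc_cre i 1 (wt_one hQ))
    (hc_cre j 0 (wt_zero Q)) (hc_cre j 1 (wt_one hQ))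

lemma sum_ad_fst (n k : ℕ) (f : ℕ × ℕ → Op) :
    ∑ p ∈ antidiagonal n, (if p.1 = k then f p else 0) = if k ≤ n then f (k, n - k) else 0 := by
  split_ifs with h
  · rw [sum_eq_single (k, n - k)]
    · simp
    · intro p hp hne
      have := mem_antidiagonal.1 hp
      rw [if_neg]
      intro h1
      exact hne (Prod.ext h1 (by simp; omega))
    · intro h1; exact absurd (HasAntidiagonal.mem_antidiagonal.2 (by simp; omega)) h1
  · apply sum_eq_zero
    intro p hp
    have := mem_antidiagonal.1 hp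
    rw [if_neg (by omega)]

lemma sum_ad_snd (n k : ℕ) (f : ℕ × ℕ → Op) :
    ∑ p ∈ antidiagonal n, (if p.2 = k then f p else 0) = if k ≤ n then f (n - k, k) else 0 := by
  rw [← Nat.sum_antidiagonal_swap]
  exact sum_ad_fst n k (fun p => f p.swap)

lemma hA_cre {Q : ℕ} (hQ : 0 < Q) (M : ℕ) :
    hA Q M * (cre 0 * cre 1) = cre 0 * cre 1 * hA Q M + (if M = 0 then 1 else 0) -
      ((M : ℝ) + 1) • (cre 1 * hc Q (M + 1)) + ((M : ℝ) - 1) • (cre 0 * hc Q M) := by
  unfold hA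
  simp only [sum_mul, smul_mul_assoc, pair_cre hQ, smul_add, smul_sub, sum_add_distrib,
    sum_sub_distrib, smul_ite, smul_zero, mul_sum, mul_smul_comm]
  rw [sum_ad_fst, sum_ad_snd, sum_ad_fst, sum_ad_snd]
  simp only [zero_le, if_true, Nat.sub_zero, Nat.le_add_left, Nat.add_sub_cancel,
    Nat.add_eq_right]
  push_cast
  split_ifs with h
  · subst h; module
  · module

end Vale.Agent.P359
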