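import Vale.Agent.P359.Sound3
import Vale.Agent.P359.C1
import Vale.Agent.P359.C2
import Vale.Agent.P359.C3
import Vale.Agent.P359.C4
import Vale.Agent.P359.C5
import Vale.Agent.P359.C6
import Vale.Agent.P359.C7

namespace Vale.Agent.P359

open Finset

lemma chkN_all (N : ℕ) (hN : N < 14) : ∀ D < 64, chk grps N D = true := by
  interval_cases N
  exacts [chkN_0, chkN_1, chkN_2, chkN_3, chkN_4, chkN_5, chkN_6, chkN_7, chkN_8, chkN_9,
    chkN_10, chkN_11, chkN_12, chkN_13]

theorem grps_nonneg (z : Fock) :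
    0 ≤ (grps.map fun g => ∑ R ∈ (range 9).powerset, gForm g z R).sum := by
  apply local_sound
  · intro g hg
    simp only [grps, List.mem_append, List.mem_map, List.mem_range] at hg
    rcases hg with ⟨m, hm, rfl⟩ | ⟨m, hm, rfl⟩ | ⟨m, hm, rfl⟩
    · simp only [g2]; omega
    · simp only [g3]; omega
    · simp only [g4]; omega
  · exact chkN_all

end Vale.Agent.P359
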