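import Mathlib

namespace Vale.Agent.P359

def ins (a : ℕ) : List ℕ → ℤ × List ℕ
  | [] => (1, [a])
  | b :: l => bif Nat.blt a b then (1, a :: b :: l) else
      bif Nat.beq a b then (0, []) else (-(ins a l).1, b :: (ins a l).2)

def isZ : ℤ → Bool
  | Int.ofNat n => Nat.beq n 0
  | Int.negSucc _ => false

def isPos : ℤ → Bool
  | Int.ofNat n => Nat.blt 0 n
  | Int.negSucc _ => false

def app : List ℕ → ℤ → List ℕ → ℤ × List ℕ
  | [], c, R => (c, R)
  | a :: w, c, R => bif isZ (ins a R).1 then (0, []) else app w (c * (ins a R).1) (ins a R).2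

def eqL : List ℕ → List ℕ → Bool
  | [], [] => true
  | a :: l, b :: m => Nat.beq a b && eqL l m
  | _, _ => false

def addL : List ℤ → List ℤ → List ℤ
  | [], v => v
  | u, [] => u
  | a :: u, b :: v => (a + b) :: addL u v

def smulL (c : ℤ) : List ℤ → List ℤ
  | [] => []
  | a :: u => (c * a) :: smulL c u

def addM : List (List ℤ) → List (List ℤ) → List (List ℤ)
  | [], v => v
  | u, [] => u
  | a :: u, b :: v => addL a b :: addM u v

def outer : List ℤ → List ℤ → List (List ℤ)
  | [], _ => []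
  | a :: v, U => (bif isZ a then [] else smulL a U) :: outer v U

def lin : List ℤ → List (List ℤ) → List ℤ
  | c :: cs, v :: vs => addL (smulL c v) (lin cs vs)
  | _, _ => []

def unitAt : List (List ℕ) → List ℕ → ℤ → List ℤ
  | [], _, _ => []
  | t :: σ, s, c => bif eqL t s then [c] else 0 :: unitAt σ s c

def elemL : List (List ℕ) → List ℕ → Bool
  | [], _ => false
  | t :: σ, s => eqL t s || elemL σ s

abbrev Words := List (ℤ × List ℕ)

def res : Words → List ℕ → List (ℤ × List ℕ)
  | [], _ => []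
  | p :: ws, R => bif isZ (app p.2 p.1 R).1 then res ws R else app p.2 p.1 R :: res ws R

def vecOf (σ : List (List ℕ)) : List (ℤ × List ℕ) → List ℤ
  | [] => []
  | p :: l => addL (unitAt σ p.2 p.1) (vecOf σ l)

def okOf (σ : List (List ℕ)) : List (ℤ × List ℕ) → Bool
  | [] => true
  | p :: l => elemL σ p.2 && okOf σ l

def contrib (w : ℤ) (vs : List (List ℤ)) : List (List ℤ) → List (List ℤ) → List (List ℤ)
  | v :: vs', r :: M => addM (outer v (smulL w (lin r vs))) (contrib w vs vs' M)
  | _, _ => []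

def fac : ℕ → ℕ
  | 0 => 1
  | n + 1 => (n + 1) * fac n

def wR : List ℕ → ℕ
  | [] => 1
  | a :: l => fac a * wR l

def gen : ℕ → ℕ → ℕ → ℕ → List (List ℕ)
  | 0, _, k, d => bif Nat.beq k 0 && Nat.beq d 0 then [[]] else []
  | n + 1, lo, k, d =>
      bif Nat.beq k 0 then (bif Nat.beq d 0 then [[]] else []) else
      bif Nat.blt (n + 1) k || Nat.blt d (k * lo) || Nat.blt (k * (lo + n)) d then [] else
        (gen n (lo + 1) (k - 1) (d - lo)).map (fun l => lo :: l) ++ gen n (lo + 1) k d

structure Grp where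
  k : ℕ
  d : ℕ
  labs : List Words
  mat : List (List ℤ)

def grpM (σ : List (List ℕ)) (g : Grp) : List (List ℕ) → List (List ℤ)
  | [] => []
  | R :: Rs => addM (contrib (wR R : ℕ) (g.labs.map fun ws => vecOf σ (res ws R))
      (g.labs.map fun ws => vecOf σ (res ws R)) g.mat) (grpM σ g Rs)

def grpOk (σ : List (List ℕ)) (g : Grp) : List (List ℕ) → Bool
  | [] => true
  | R :: Rs => g.labs.all (fun ws => okOf σ (res ws R)) && grpOk σ g Rs

def rsOf (N D : ℕ) (g : Grp) : List (List ℕ) :=
  bif Nat.ble g.k N && Nat.ble g.d D then gen 9 0 (N - g.k) (D - g.d) else []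

def blockM (N D : ℕ) (σ : List (List ℕ)) : List Grp → List (List ℤ)
  | [] => []
  | g :: gs => addM (grpM σ g (rsOf N D g)) (blockM N D σ gs)

def blockOk (N D : ℕ) (σ : List (List ℕ)) : List Grp → Bool
  | [] => true
  | g :: gs => grpOk σ g (rsOf N D g) && blockOk N D σ gs

def hd : List ℤ → ℤ
  | [] => 0
  | a :: _ => a

def zeroL : List ℤ → Bool
  | [] => true
  | a :: l => isZ a && zeroL l

def psd : ℕ → List (List ℤ) → Bool
  | _, [] => true
  | 0, _ :: _ => false
  | f + 1, r :: M =>
      bif isZ (hd r) then zeroL (addL r.tail (M.map hd)) && psd f (M.map List.tail)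
      else isPos (hd r) && psd f (addM (M.map fun t => smulL (4 * hd r) t.tail)
        (outer (smulL (-1) (addL r.tail (M.map hd))) (addL r.tail (M.map hd))))

def chk (gs : List Grp) (N D : ℕ) : Bool :=
  blockOk N D (gen 9 0 N D) gs && psd 20 (blockM N D (gen 9 0 N D) gs)

def wA (m : ℕ) : Words :=
  (List.range ((m + 2) / 2)).map fun i => (((m + 1 - 2 * i : ℕ) : ℤ), [m + 1 - i, i])

def w3 (m a : ℕ) : Words := (wA m).map fun p => (p.1, a :: p.2)

def w4 (m n : ℕ) : Words := (wA n).flatMap fun q => (wA m).map fun p => (q.1 * p.1, q.2 ++ p.2)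

def lab3 (s : ℕ) : List ℕ := (List.range 8).filter fun m => Nat.ble m s && Nat.ble (s - m) 8

def lab4 (s : ℕ) : List ℕ := (List.range 8).filter fun m => Nat.ble m (s - m) && Nat.ble (s - m) 7

end Vale.Agent.P359
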