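import Mathlib

namespace Vale.Agent.P359

open scoped InnerProductSpace

/-- `U_Q ⊗ U_Q`, in the orthonormal basis `e_a ⊗ e_b`, where
`e_a = sqrt (Q choose a) u^(Q-a) v^a`. -/
abbrev Pair (Q : ℕ) := EuclideanSpace ℂ (Fin (Q + 1) × Fin (Q + 1))

/-- Matrix of the lowering operator `J_- = v d/du` of `U_Q`:
`J_- e_b = sqrt ((b+1)(Q-b)) e_(b+1)`. -/
noncomputable def lowerM (Q : ℕ) (a b : Fin (Q + 1)) : ℂ :=
  if (a : ℕ) = (b : ℕ) + 1 then (Real.sqrt ((((b : ℕ) : ℝ) + 1) * ((Q : ℝ) - ((b : ℕ) : ℝ))) : ℝ) else 0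

/-- The total lowering operator `J_- ⊗ 1 + 1 ⊗ J_-` on `U_Q ⊗ U_Q`. -/
noncomputable def lowerPair (Q : ℕ) (f : Pair Q) : Pair Q :=
  WithLp.toLp 2 fun p =>
    (∑ c, lowerM Q p.1 c * f (c, p.2)) + ∑ c, lowerM Q p.2 c * f (p.1, c)

/-- The highest weight vector `e_0 ⊗ e_1 - e_1 ⊗ e_0` of total spin `Q - 1`. -/
noncomputable def highest (Q : ℕ) : Pair Q :=
  WithLp.toLp 2 fun p =>
    if (p.1 : ℕ) = 0 ∧ (p.2 : ℕ) = 1 then 1 else if (p.1 : ℕ) = 1 ∧ (p.2 : ℕ) = 0 then -1 else 0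

/-- The irreducible component of total spin `Q - 1` in `U_Q ⊗ U_Q`. -/
noncomputable def spinComp (Q : ℕ) : Submodule ℂ (Pair Q) :=
  Submodule.span ℂ (Set.range fun m : ℕ => (lowerPair Q)^[m] (highest Q))

/-- Orthogonal projection onto a subspace of a finite-dimensional Hilbert space. -/
noncomputable def orthProj {E : Type} [NormedAddCommGroup E] [InnerProductSpace ℂ E]
    [FiniteDimensional ℂ E] (K : Submodule ℂ E) (v : E) : E := K.starProjection v

/-- Real part of the inner product. -/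
noncomputable def reIp {E : Type} [NormedAddCommGroup E] [InnerProductSpace ℂ E] (ψ φ : E) : ℝ :=
  (⟪ψ, φ⟫_ℂ).re

/-- `Re ⟨ψ, (I - P_L) ψ⟩`, where `P_L` is the orthogonal projection onto the span of `L`. -/
noncomputable def defect {E : Type} [NormedAddCommGroup E] [InnerProductSpace ℂ E] (L ψ : E) : ℝ :=
  reIp ψ (ψ - (ℂ ∙ L).starProjection ψ)

/-- Matrix entries of the orthogonal projection onto the spin `Q - 1` component. -/
noncomputable def projM (Q : ℕ) (p q : Fin (Q + 1) × Fin (Q + 1)) : ℂ :=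
  orthProj (spinComp Q) (EuclideanSpace.single q 1) p

/-- `U_Q^{⊗ N}` in the product orthonormal basis. -/
abbrev Tens (N Q : ℕ) := EuclideanSpace ℂ (Fin N → Fin (Q + 1))

/-- The projection `P^(1)_{ij}` acting on the tensor factors `i`, `j`. -/
noncomputable def projAt {N Q : ℕ} (i j : Fin N) (ψ : Tens N Q) : Tens N Q :=
  WithLp.toLp 2 fun k =>
    ∑ a, ∑ b, projM Q (k i, k j) (a, b) * ψ (Function.update (Function.update k i a) j b)

/-- The Hamiltonian `H_{N,Q} = ∑_{i<j} P^(1)_{ij}`. -/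
noncomputable def ham {N Q : ℕ} (ψ : Tens N Q) : Tens N Q :=
  ∑ i : Fin N, ∑ j : Fin N, if i < j then projAt i j ψ else 0

/-- Membership in the fermionic space `⋀^N U_Q`. -/
def Antisym {N Q : ℕ} (ψ : Tens N Q) : Prop :=
  ∀ (σ : Equiv.Perm (Fin N)) (k : Fin N → Fin (Q + 1)),
    ψ (k ∘ σ) = ((Equiv.Perm.sign σ : ℤ) : ℂ) * ψ k

/-- The polynomial `∏_{i<j} (u_i v_j - u_j v_i)^3`, with `u_i = X (inl i)`, `v_i = X (inr i)`. -/
noncomputable def laughlinPoly (N : ℕ) : MvPolynomial (Fin N ⊕ Fin N) ℂ :=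
  ∏ i : Fin N, ∏ j : Fin N,
    if i < j then
      (MvPolynomial.X (Sum.inl i) * MvPolynomial.X (Sum.inr j) -
        MvPolynomial.X (Sum.inl j) * MvPolynomial.X (Sum.inr i)) ^ 3
    else 1

/-- The exponent of the monomial `∏_i u_i^(Q - k_i) v_i^(k_i)`. -/
noncomputable def expo {N Q : ℕ} (k : Fin N → Fin (Q + 1)) : (Fin N ⊕ Fin N) →₀ ℕ :=
  Finsupp.equivFunOnFinite.symm (Sum.elim (fun i => Q - (k i : ℕ)) (fun i => (k i : ℕ)))

/-- The Laughlin vector, in the orthonormal basis, at flux `Q = 3 (N - 1)`. -/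
noncomputable def laughlin (N : ℕ) : Tens N (3 * (N - 1)) :=
  WithLp.toLp 2 fun k =>
    MvPolynomial.coeff (expo k) (laughlinPoly N) /
      ∏ i, ((Real.sqrt (Nat.choose (3 * (N - 1)) (k i : ℕ)) : ℝ) : ℂ)

end Vale.Agent.P359
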