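import Vale.Agent.P359.FockDefs

namespace Vale.Agent.P359

open Finset

lemma ann_apply (a : ℕ) (x : Fock) (S : Finset ℕ) :
    ann a x S = if a ∈ S then 0 else sg a S * x (insert a S) := rfl

lemma sg_mul_self (a : ℕ) (S : Finset ℕ) : sg a S * sg a S = 1 := by
  unfold sg
  rw [← mul_pow]; simp

lemma sg_insert (a b : ℕ) (S : Finset ℕ) (hb : b ∉ S) :
    sg a (insert b S) = (if b < a then -1 else 1) * sg a S := by
  unfold sg
  rw [filter_insert]
  split_ifs with h
  · rw [card_insert_of_notMem (by simp [hb]), pow_succ]; ring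
  · ring

lemma ann_ann_swap (a b : ℕ) (x : Fock) : ann a (ann b x) = - ann b (ann a x) := by
  funext S
  simp only [ann_apply, Pi.neg_apply, mem_insert]
  by_cases hab : a = b
  · subst hab
    by_cases ha : a ∈ S <;> simp [ha]
  by_cases ha : a ∈ S
  · by_cases hb : b ∈ S <;> simp [ha, hb]
  by_cases hb : b ∈ S
  · simp [ha, hb]
  have hba : ¬ b = a := fun h => hab h.symm
  simp only [ha, hb, hab, hba, or_self, if_false]
  rw [sg_insert b a S ha, sg_insert a b S hb, insert_comm b a S]
  rcases lt_or_gt_of_ne hab with h | h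
  · simp [h, h.not_gt]; ring
  · simp [h, h.not_gt]; ring

/-- The antisymmetric wave function of a Fock vector. -/
noncomputable def th : (n : ℕ) → (Fin n → ℕ) → (Fock →ₗ[ℝ] ℝ)
  | 0, _ => LinearMap.proj ∅
  | n + 1, k => (th n (Fin.tail k)).comp (ann (k 0))

lemma th_zero (k : Fin 0 → ℕ) (x : Fock) : th 0 k x = x ∅ := rfl

lemma th_succ (n : ℕ) (k : Fin (n + 1) → ℕ) (x : Fock) :
    th (n + 1) k x = th n (Fin.tail k) (ann (k 0) x) := rfl

lemma th_cons (n : ℕ) (a : ℕ) (k : Fin n → ℕ) (x : Fock) :
    th (n + 1) (Fin.cons a k) x = th n k (ann a x) := by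
  rw [th_succ]; simp

lemma th_adj (n : ℕ) : ∀ (i : Fin n) (k : Fin (n + 1) → ℕ) (x : Fock),
    th (n + 1) (k ∘ Equiv.swap i.castSucc i.succ) x = - th (n + 1) k x := by
  induction n with
  | zero => intro i; exact i.elim0
  | succ n ih =>
    intro i k x
    refine Fin.cases ?_ (fun j => ?_) i
    · rw [th_succ, th_succ, th_succ (n + 1) k, th_succ n (Fin.tail k), ann_ann_swap, map_neg]
      have h1 : Fin.tail (Fin.tail (k ∘ Equiv.swap (0 : Fin (n + 1)).castSucc (0 : Fin (n + 1)).succ))
          = Fin.tail (Fin.tail k) := by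
        funext t
        simp only [Fin.tail, Function.comp]
        rw [Equiv.swap_apply_of_ne_of_ne]
        · exact Fin.succ_ne_zero _
        · intro h; exact Fin.succ_ne_zero _ (Fin.succ_injective _ h)
      rw [h1]
      simp [Fin.tail]
    · rw [th_succ, th_succ (n + 1) k, ← ih j]
      have h1 : Fin.tail (k ∘ Equiv.swap j.succ.castSucc j.succ.succ)
          = Fin.tail k ∘ Equiv.swap j.castSucc j.succ := by
        funext t
        simp only [Fin.tail, Function.comp]
        rw [← Fin.succ_castSucc, (Fin.succ_injective _).swap_apply]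
      have h2 : (k ∘ Equiv.swap j.succ.castSucc j.succ.succ) 0 = k 0 := by
        simp only [Function.comp]
        rw [Equiv.swap_apply_of_ne_of_ne]
        · rw [← Fin.succ_castSucc]; exact (Fin.succ_ne_zero _).symm
        · exact (Fin.succ_ne_zero _).symm
      rw [h1, h2]

lemma th_perm (n : ℕ) (σ : Equiv.Perm (Fin n)) (k : Fin n → ℕ) (x : Fock) :
    th n (k ∘ σ) x = ((Equiv.Perm.sign σ : ℤ) : ℝ) * th n k x := by
  cases n with
  | zero => simp [th_zero, Subsingleton.elim σ 1]
  | succ n =>
    have hmem : σ ∈ Submonoid.closure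
        (Set.range fun i : Fin n => Equiv.swap i.castSucc i.succ) := by
      rw [Equiv.Perm.mclosure_swap_castSucc_succ]; trivial
    induction hmem using Submonoid.closure_induction generalizing k with
    | mem τ hτ =>
      obtain ⟨i, rfl⟩ := hτ
      rw [th_adj, Equiv.Perm.sign_swap (Fin.castSucc_lt_succ (i := i)).ne]
      simp
    | one => simp
    | mul a b _ _ ha hb =>
      have : k ∘ ⇑(a * b) = (k ∘ a) ∘ b := by funext t; simp
      rw [this, hb, ha, Equiv.Perm.sign_mul]
      push_cast; ring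

lemma th_strictMono (n : ℕ) : ∀ (k : Fin n → ℕ) (x : Fock), StrictMono k →
    th n k x = x (univ.image k) := by
  induction n with
  | zero => intro k x _; simp [th_zero]
  | succ n ih =>
    intro k x hk
    have htail : StrictMono (Fin.tail k) := fun a b hab => hk (Fin.succ_lt_succ_iff.mpr hab)
    rw [th_succ, ih _ _ htail, ann_apply]
    have hlt : ∀ b ∈ univ.image (Fin.tail k), k 0 < b := by
      intro b hb
      obtain ⟨t, -, rfl⟩ := mem_image.mp hb
      exact hk (Fin.succ_pos t)
    have hnot : k 0 ∉ univ.image (Fin.tail k) := fun h => lt_irrefl _ (hlt _ h)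
    have hsg : sg (k 0) (univ.image (Fin.tail k)) = 1 := by
      unfold sg
      rw [filter_eq_empty_iff.mpr (fun b hb => (hlt b hb).not_gt)]; simp
    rw [if_neg hnot, hsg, one_mul]
    congr 1
    ext b
    simp only [mem_insert, mem_image, mem_univ, true_and, Fin.exists_fin_succ, Fin.tail]
    exact or_congr_left eq_comm

lemma sum_ann (Q n : ℕ) (x y : Fock) :
    ∑ a ∈ range (Q + 1), ∑ S ∈ powersetCard n (range (Q + 1)), ann a x S * ann a y S
      = (n + 1) * ∑ T ∈ powersetCard (n + 1) (range (Q + 1)), x T * y T := by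
  have h1 : ∀ a ∈ range (Q + 1),
      ∑ S ∈ powersetCard n (range (Q + 1)), ann a x S * ann a y S
        = ∑ T ∈ powersetCard (n + 1) (range (Q + 1)), if a ∈ T then x T * y T else 0 := by
    intro a ha
    have h2 : ∀ S, ann a x S * ann a y S
        = if a ∉ S then x (insert a S) * y (insert a S) else 0 := by
      intro S
      simp only [ann_apply]
      by_cases h : a ∈ S
      · simp [h]
      · simp only [h, if_false, not_false_eq_true, if_true]
        calc sg a S * x (insert a S) * (sg a S * y (insert a S))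
            = (sg a S * sg a S) * (x (insert a S) * y (insert a S)) := by ring
          _ = _ := by rw [sg_mul_self, one_mul]
    simp_rw [h2]
    rw [← sum_filter, ← sum_filter]
    refine sum_bij' (fun S _ => insert a S) (fun T _ => T.erase a) ?_ ?_ ?_ ?_ ?_
    · intro S hS
      simp only [mem_filter, mem_powersetCard] at hS ⊢
      refine ⟨⟨insert_subset ha hS.1.1, ?_⟩, mem_insert_self _ _⟩
      rw [card_insert_of_notMem hS.2, hS.1.2]
    · intro T hT
      simp only [mem_filter, mem_powersetCard] at hT ⊢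
      refine ⟨⟨(erase_subset _ _).trans hT.1.1, ?_⟩, notMem_erase _ _⟩
      rw [card_erase_of_mem hT.2, hT.1.2]; rfl
    · intro S hS
      simp only [mem_filter] at hS
      exact erase_insert hS.2
    · intro T hT
      simp only [mem_filter] at hT
      exact insert_erase hT.2
    · intro S _; rfl
  rw [sum_congr rfl h1, sum_comm, mul_sum]
  refine sum_congr rfl fun T hT => ?_
  rw [mem_powersetCard] at hT
  rw [← sum_filter, sum_const, filter_mem_eq_inter, inter_eq_right.mpr hT.1, hT.2]
  simp

lemma sum_th (Q n : ℕ) : ∀ x y : Fock,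
    ∑ k : Fin n → Fin (Q + 1), th n (fun i => (k i : ℕ)) x * th n (fun i => (k i : ℕ)) y
      = (n.factorial : ℝ) * ∑ S ∈ powersetCard n (range (Q + 1)), x S * y S := by
  induction n with
  | zero => intro x y; simp [th_zero]
  | succ n ih =>
    intro x y
    rw [← (Fin.consEquiv (fun _ : Fin (n + 1) => Fin (Q + 1))).sum_comp, Fintype.sum_prod_type]
    have h1 : ∀ (a : Fin (Q + 1)) (r : Fin n → Fin (Q + 1)) (z : Fock),
        th (n + 1) (fun i => ((Fin.consEquiv (fun _ : Fin (n + 1) => Fin (Q + 1)) (a, r) i : Fin (Q + 1)) : ℕ)) z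
          = th n (fun i => (r i : ℕ)) (ann a z) := by
      intro a r z
      rw [th_succ]; rfl
    simp_rw [h1, ih]
    rw [← mul_sum, Fin.sum_univ_eq_sum_range
      (fun a => ∑ S ∈ powersetCard n (range (Q + 1)), ann a x S * ann a y S) (Q + 1), sum_ann,
      Nat.factorial_succ]
    push_cast; ring

/-- Vectors supported on sets of `n` orbitals. -/
def NP (n : ℕ) (x : Fock) : Prop := ∀ S : Finset ℕ, S.card ≠ n → x S = 0

lemma NP.ann {n : ℕ} {x : Fock} (h : NP (n + 1) x) (a : ℕ) : NP n (ann a x) := by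
  intro S hS
  rw [ann_apply]
  split_ifs with ha
  · rfl
  · rw [h _ (by rw [card_insert_of_notMem ha]; omega), mul_zero]

lemma NP.hA {n : ℕ} {x : Fock} (h : NP (n + 2) x) (Q m : ℕ) : NP n (hA Q m x) := by
  intro S hS
  unfold Vale.Agent.P359.hA hc
  simp only [LinearMap.coe_sum, Finset.sum_apply, LinearMap.smul_apply, Module.End.mul_apply,
    map_smul, Pi.smul_apply, smul_eq_mul]
  refine sum_eq_zero fun p _ => ?_
  rw [(h.ann p.1).ann p.2 S hS]; simp

lemma ip_of_NP {Q n : ℕ} {x : Fock} (h : NP n x) (y : Fock) :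
    ip Q x y = ∑ S ∈ powersetCard n (range (Q + 1)), x S * y S := by
  unfold ip
  symm
  refine sum_subset (fun S hS => mem_powerset.mpr (mem_powersetCard.mp hS).1) fun S hS hS' => ?_
  rw [h S (fun hc => hS' (mem_powersetCard.mpr ⟨mem_powerset.mp hS, hc⟩)), zero_mul]

/-- Real antisymmetric functions. -/
def RAnti {N Q : ℕ} (f : (Fin N → Fin (Q + 1)) → ℝ) : Prop :=
  ∀ (σ : Equiv.Perm (Fin N)) (k : Fin N → Fin (Q + 1)),
    f (k ∘ σ) = ((Equiv.Perm.sign σ : ℤ) : ℝ) * f k

lemma RAnti.zero_of_not_inj {N Q : ℕ} {f : (Fin N → Fin (Q + 1)) → ℝ} (hf : RAnti f)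
    (k : Fin N → Fin (Q + 1)) (hk : ¬ Function.Injective k) : f k = 0 := by
  unfold Function.Injective at hk
  push Not at hk
  obtain ⟨a, b, hab, hne⟩ := hk
  have h1 := hf (Equiv.swap a b) k
  have h2 : k ∘ Equiv.swap a b = k := by
    funext t
    simp only [Function.comp]
    rw [Equiv.swap_apply_def]
    split_ifs with h3 h4
    · rw [h3, hab]
    · rw [h4, hab]
    · rfl
  rw [h2, Equiv.Perm.sign_swap hne] at h1
  simp at h1
  linarith

lemma RAnti.ext {N Q : ℕ} {f g : (Fin N → Fin (Q + 1)) → ℝ} (hf : RAnti f) (hg : RAnti g)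
    (h : ∀ k, StrictMono k → f k = g k) : f = g := by
  funext k
  by_cases hk : Function.Injective k
  · have hs : StrictMono (k ∘ Tuple.sort k) :=
      (Tuple.monotone_sort k).strictMono_of_injective (hk.comp (Tuple.sort k).injective)
    have h1 := h _ hs
    rw [hf, hg] at h1
    refine mul_left_cancel₀ ?_ h1
    rcases Int.units_eq_one_or (Equiv.Perm.sign (Tuple.sort k)) with h2 | h2 <;> simp [h2]
  · rw [hf.zero_of_not_inj k hk, hg.zero_of_not_inj k hk]

lemma rAnti_th (N Q : ℕ) (x : Fock) :
    RAnti (fun k : Fin N → Fin (Q + 1) => th N (fun i => (k i : ℕ)) x) := by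
  intro σ k
  exact th_perm N σ (fun i => (k i : ℕ)) x

lemma exists_fock {N Q : ℕ} {f : (Fin N → Fin (Q + 1)) → ℝ} (hf : RAnti f) :
    ∃ x : Fock, Supp Q x ∧ NP N x ∧ ∀ k, th N (fun i => (k i : ℕ)) x = f k := by
  classical
  let x : Fock := fun S => ∑ k : Fin N → Fin (Q + 1),
    if StrictMono k ∧ univ.image (fun i => (k i : ℕ)) = S then f k else 0
  refine ⟨x, ?_, ?_, ?_⟩
  · intro S hS
    refine sum_eq_zero fun k _ => if_neg ?_
    rintro ⟨-, rfl⟩
    apply hS
    intro b hb
    obtain ⟨t, -, rfl⟩ := mem_image.mp hb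
    exact mem_range.mpr (k t).2
  · intro S hS
    refine sum_eq_zero fun k _ => if_neg ?_
    rintro ⟨hk, rfl⟩
    apply hS
    have hinj : Function.Injective (fun i => (k i : ℕ)) := Fin.val_injective.comp hk.injective
    rw [card_image_of_injective _ hinj]
    simp
  · have := (rAnti_th N Q x).ext hf ?_
    · intro k; exact congrFun this k
    intro k hk
    have hk' : StrictMono (fun i => (k i : ℕ)) := fun a b hab => hk hab
    rw [th_strictMono N _ x hk']
    change (∑ k' : Fin N → Fin (Q + 1), _) = _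
    rw [Fintype.sum_eq_single k]
    · simp [hk]
    · intro k' hne
      refine if_neg ?_
      rintro ⟨h1, h2⟩
      apply hne
      have h1' : StrictMono (fun i => (k' i : ℕ)) := fun a b hab => h1 hab
      have h3 : (fun i => (k' i : ℕ)) = fun i => (k i : ℕ) := by
        refine (StrictMono.range_inj h1' hk').mp ?_
        rw [← Set.image_univ, ← Set.image_univ, ← coe_univ, ← coe_image, ← coe_image, h2]
      funext i
      exact Fin.ext (congrFun h3 i)

end Vale.Agent.P359
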