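import Vale.Agent.P359.FA

namespace Vale.Agent.P359

open Finset

/-- `sqrt (Q choose a)`. -/
noncomputable def sc (Q a : ℕ) : ℝ := Real.sqrt (Q.choose a)

/-- The pair state of total spin `Q - 1` with `m` lowerings. -/
noncomputable def phi (Q m a b : ℕ) : ℝ :=
  if a + b = m + 1 then ((b : ℝ) - a) * sc Q a * sc Q b else 0

lemma sc_sq (Q a : ℕ) : sc Q a * sc Q a = Q.choose a := Real.mul_self_sqrt (Nat.cast_nonneg _)

lemma sc_zero {Q a : ℕ} (h : Q < a) : sc Q a = 0 := by
  unfold sc; rw [Nat.choose_eq_zero_of_lt h]; simp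

lemma sc_pos {Q : ℕ} (a : Fin (Q + 1)) : 0 < sc Q a := by
  unfold sc
  exact Real.sqrt_pos.mpr (Nat.cast_pos.mpr (Nat.choose_pos (Nat.lt_succ_iff.mp a.2)))

lemma sum_anti (Q s : ℕ) (g : ℕ → ℕ → ℝ) (h1 : ∀ a b, Q < a → g a b = 0)
    (h2 : ∀ a b, Q < b → g a b = 0) :
    ∑ a : Fin (Q + 1), ∑ b : Fin (Q + 1), (if (a : ℕ) + b = s then g a b else 0)
      = ∑ p ∈ antidiagonal s, g p.1 p.2 := by
  rw [Fin.sum_univ_eq_sum_range
    (fun a => ∑ b : Fin (Q + 1), (if a + b = s then g a b else 0)) (Q + 1)]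
  have h3 : ∀ a, ∑ b : Fin (Q + 1), (if a + b = s then g a b else 0)
      = ∑ b ∈ range (Q + 1), (if a + b = s then g a b else 0) := fun a =>
    Fin.sum_univ_eq_sum_range (fun b => if a + b = s then g a b else 0) (Q + 1)
  simp_rw [h3]
  rw [← sum_product', ← sum_filter]
  refine sum_subset ?_ ?_
  · intro p hp
    exact HasAntidiagonal.mem_antidiagonal.mpr (mem_filter.mp hp).2
  · intro p hp hp'
    rw [HasAntidiagonal.mem_antidiagonal] at hp
    simp only [mem_filter, mem_product, mem_range, hp, and_true, not_and_or, not_lt] at hp'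
    rcases hp' with h | h
    · exact h1 _ _ h
    · exact h2 _ _ h

lemma wt_mul {Q : ℕ} (hQ : 0 < Q) (a b : ℕ) :
    Real.sqrt ((Q : ℝ) ^ (a + b)) * (wt Q b * wt Q a) = sc Q a * sc Q b := by
  unfold wt sc
  have hq : (0 : ℝ) < Q := Nat.cast_pos.mpr hQ
  rw [← Real.sqrt_mul (by positivity), ← Real.sqrt_mul (by positivity),
    ← Real.sqrt_mul (by positivity)]
  congr 1
  field_simp
  ring

/-- Pair contraction of a wave function. -/
noncomputable def cr {n Q : ℕ} (m : ℕ) (f : (Fin (n + 2) → Fin (Q + 1)) → ℝ)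
    (r : Fin n → Fin (Q + 1)) : ℝ :=
  ∑ a : Fin (Q + 1), ∑ b : Fin (Q + 1), phi Q m a b * f (Fin.cons a (Fin.cons b r))

lemma th_cons2 {n Q : ℕ} (a b : Fin (Q + 1)) (r : Fin n → Fin (Q + 1)) (x : Fock) :
    th (n + 2) (fun i => ((Fin.cons a (Fin.cons b r : Fin (n + 1) → Fin (Q + 1)) :
      Fin (n + 2) → Fin (Q + 1)) i : ℕ)) x = th n (fun i => (r i : ℕ)) (ann b (ann a x)) := by
  rw [th_succ, th_succ]; rfl

lemma cr_th {n Q : ℕ} (hQ : 0 < Q) (m : ℕ) (x : Fock) (r : Fin n → Fin (Q + 1)) :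
    cr m (fun k : Fin (n + 2) → Fin (Q + 1) => th (n + 2) (fun i => (k i : ℕ)) x) r
      = 2 * Real.sqrt ((Q : ℝ) ^ (m + 1)) * th n (fun i => (r i : ℕ)) (hA Q m x) := by
  unfold cr
  simp_rw [th_cons2]
  have h := sum_anti Q (m + 1)
    (fun a b => ((b : ℝ) - a) * sc Q a * sc Q b * th n (fun i => (r i : ℕ)) (ann b (ann a x)))
    (fun a b h => by simp [sc_zero h]) (fun a b h => by simp [sc_zero h])
  have h0 : ∀ a b : Fin (Q + 1), phi Q m a b * th n (fun i => (r i : ℕ)) (ann b (ann a x))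
      = if (a : ℕ) + b = m + 1 then
        (((b : ℕ) : ℝ) - (a : ℕ)) * sc Q a * sc Q b * th n (fun i => (r i : ℕ)) (ann b (ann a x))
        else 0 := by
    intro a b; unfold phi; split_ifs <;> simp
  simp_rw [h0]
  rw [h]
  unfold hA hc
  simp only [LinearMap.coe_sum, Finset.sum_apply, LinearMap.smul_apply, Module.End.mul_apply,
    map_smul, map_sum, smul_eq_mul]
  rw [mul_sum]
  refine sum_congr rfl fun p hp => ?_
  rw [HasAntidiagonal.mem_antidiagonal] at hp
  have h5 := wt_mul hQ p.1 p.2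
  rw [hp] at h5
  linear_combination (-((p.2 : ℝ) - p.1) * th n (fun i => (r i : ℕ)) (ann p.2 (ann p.1 x))) * h5

/-- The pair energy of a real wave function. -/
noncomputable def en {n Q : ℕ} (f : (Fin (n + 2) → Fin (Q + 1)) → ℝ) : ℝ :=
  ∑ m ∈ range (2 * Q - 1), (∑ r : Fin n → Fin (Q + 1), cr m f r ^ 2) /
    (2 * Q * ((2 * Q - 2).choose m : ℝ))

lemma core {n Q : ℕ} (hQ : 0 < Q) {δ : ℝ}
    (hgap : ∀ x : Fock, Supp Q x →
      (∀ y : Fock, Supp Q y → (∀ m, hA Q m y = 0) → ip Q x y = 0) → δ * ip Q x x ≤ form Q x)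
    {f : (Fin (n + 2) → Fin (Q + 1)) → ℝ} (hf : RAnti f)
    (horth : ∀ g : (Fin (n + 2) → Fin (Q + 1)) → ℝ, RAnti g → (∀ m r, cr m g r = 0) →
      ∑ k, f k * g k = 0) :
    δ * ∑ k, f k ^ 2 ≤ ((n + 2) * (n + 1) / 2 : ℝ) * en f := by
  obtain ⟨x, hS, hN, hx⟩ := exists_fock hf
  have hfx : f = fun k : Fin (n + 2) → Fin (Q + 1) => th (n + 2) (fun i => (k i : ℕ)) x :=
    funext fun k => (hx k).symm
  have hfac : (0 : ℝ) < (n + 2).factorial := Nat.cast_pos.mpr (Nat.factorial_pos _)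
  have hq : (0 : ℝ) < Q := Nat.cast_pos.mpr hQ
  have h1 := hgap x hS (by
    intro y _ hy
    have h2 := horth _ (rAnti_th (n + 2) Q y) (fun m r => by rw [cr_th hQ, hy m]; simp)
    rw [hfx, sum_th, ← ip_of_NP hN] at h2
    exact (mul_eq_zero.mp h2).resolve_left hfac.ne')
  have h3 : ∑ k, f k ^ 2 = (n + 2).factorial * ip Q x x := by
    rw [ip_of_NP hN, ← sum_th]
    refine sum_congr rfl fun k _ => ?_
    rw [hx, sq]
  have h4 : ((n + 2) * (n + 1) / 2 : ℝ) * en f = (n + 2).factorial * form Q x := by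
    unfold en form
    rw [mul_sum, mul_sum]
    refine sum_congr rfl fun m hm => ?_
    have hc : (0 : ℝ) < (2 * Q - 2).choose m :=
      Nat.cast_pos.mpr (Nat.choose_pos (by rw [mem_range] at hm; omega))
    have h5 : ∑ r : Fin n → Fin (Q + 1), cr m f r ^ 2
        = 4 * (Q : ℝ) ^ (m + 1) * (n.factorial * ip Q (hA Q m x) (hA Q m x)) := by
      rw [ip_of_NP (hN.hA Q m), ← sum_th, mul_sum]
      refine sum_congr rfl fun r _ => ?_
      rw [hfx, cr_th hQ, mul_pow, mul_pow, Real.sq_sqrt (by positivity)]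
      ring
    rw [h5, Nat.factorial_succ, Nat.factorial_succ]
    unfold nu
    push_cast
    field_simp
    ring
  rw [h3, h4]
  nlinarith [mul_le_mul_of_nonneg_left h1 hfac.le]

lemma coeff_theta (p : Polynomial ℝ) (a : ℕ) :
    (Polynomial.X * Polynomial.derivative p).coeff a = a * p.coeff a := by
  cases a with
  | zero => simp
  | succ a => rw [Polynomial.coeff_X_mul, Polynomial.coeff_derivative]; push_cast; ring

lemma phi_norm {Q : ℕ} (hQ : 2 ≤ Q) (m : ℕ) :
    ∑ a : Fin (Q + 1), ∑ b : Fin (Q + 1), phi Q m a b ^ 2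
      = 2 * Q * ((2 * Q - 2).choose m : ℝ) := by
  obtain ⟨q, rfl⟩ : ∃ q, Q = q + 2 := ⟨Q - 2, by omega⟩
  have h0 : ∀ a b : Fin (q + 2 + 1), phi (q + 2) m a b ^ 2
      = if (a : ℕ) + b = m + 1 then
        (((b : ℕ) : ℝ) - (a : ℕ)) ^ 2 * ((q + 2).choose a : ℝ) * ((q + 2).choose b : ℝ) else 0 := by
    intro a b; unfold phi
    split_ifs
    · rw [← sc_sq, ← sc_sq]; ring
    · simp
  simp_rw [h0]
  rw [sum_anti (q + 2) (m + 1)
    (fun a b => ((b : ℝ) - a) ^ 2 * ((q + 2).choose a : ℝ) * ((q + 2).choose b : ℝ))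
    (fun a b h => by simp [Nat.choose_eq_zero_of_lt h])
    (fun a b h => by simp [Nat.choose_eq_zero_of_lt h])]
  set A : Polynomial ℝ := (1 + Polynomial.X) ^ (q + 2) with hA
  set B : Polynomial ℝ := Polynomial.X * Polynomial.derivative A with hB
  set D : Polynomial ℝ := Polynomial.X * Polynomial.derivative B with hD
  have cA : ∀ a, A.coeff a = ((q + 2).choose a : ℝ) := fun a => by
    rw [hA, Polynomial.coeff_one_add_X_pow]
  have cB : ∀ a, B.coeff a = a * ((q + 2).choose a : ℝ) := fun a => by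
    rw [hB, coeff_theta, cA]
  have cD : ∀ a, D.coeff a = a * (a * ((q + 2).choose a : ℝ)) := fun a => by
    rw [hD, coeff_theta, cB]
  have hid : D * A + A * D - (B * B + B * B)
      = Polynomial.C (2 * ((q : ℝ) + 2)) * (Polynomial.X * (1 + Polynomial.X) ^ (2 * q + 2)) := by
    have eB : B = Polynomial.C ((q : ℝ) + 2) * (Polynomial.X * (1 + Polynomial.X) ^ (q + 1)) := by
      rw [hB, hA, Polynomial.derivative_pow]
      simp only [Nat.add_succ_sub_one, map_add, Polynomial.derivative_one,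
        Polynomial.derivative_X, map_natCast, Nat.cast_add, map_ofNat, Nat.cast_ofNat]
      ring
    have eD : D = Polynomial.C ((q : ℝ) + 2) * (Polynomial.X * ((1 + Polynomial.X) ^ (q + 1)
        + Polynomial.X * (Polynomial.C ((q : ℝ) + 1) * (1 + Polynomial.X) ^ q))) := by
      rw [hD, eB]
      simp only [Polynomial.derivative_mul, Polynomial.derivative_pow, Polynomial.derivative_C,
        Nat.add_succ_sub_one, map_add, Polynomial.derivative_one,
        Polynomial.derivative_X, map_natCast, Nat.cast_add, map_ofNat, Nat.cast_ofNat, map_one,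
        Nat.cast_one, add_zero, Polynomial.derivative_natCast, Polynomial.derivative_ofNat]
      ring
    rw [eD, eB, hA]
    simp only [map_add, map_mul, map_natCast, map_ofNat, map_one]
    ring
  have h1 := congrArg (fun p => Polynomial.coeff p (m + 1)) hid
  simp only [Polynomial.coeff_sub, Polynomial.coeff_add, Polynomial.coeff_C_mul,
    Polynomial.coeff_X_mul, Polynomial.coeff_one_add_X_pow] at h1
  simp only [Polynomial.coeff_mul, cA, cB, cD] at h1
  rw [← sum_add_distrib, ← sum_add_distrib, ← sum_sub_distrib] at h1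
  have h2 : 2 * (q + 2) - 2 = 2 * q + 2 := by omega
  rw [h2]
  push_cast
  rw [← h1]
  refine sum_congr rfl fun p _ => ?_
  ring

end Vale.Agent.P359
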