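import Vale.Agent.P359.FB
import Vale.Agent.P359.Defs

namespace Vale.Agent.P359

open Finset
open scoped InnerProductSpace

/-- The pair state as a vector. -/
noncomputable def phiV (Q m : ℕ) : Pair Q := WithLp.toLp 2 fun p => ((phi Q m p.1 p.2 : ℝ) : ℂ)

lemma lowerPair_smul (Q : ℕ) (c : ℂ) (f : Pair Q) :
    lowerPair Q (c • f) = c • lowerPair Q f := by
  ext p
  simp only [lowerPair, PiLp.smul_apply, smul_eq_mul, mul_add, mul_sum]
  congr 1 <;> refine sum_congr rfl fun x _ => by ring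

lemma lower_sum (Q : ℕ) (a : Fin (Q + 1)) (g : ℕ → ℝ) :
    ∑ c : Fin (Q + 1), lowerM Q a c * ((sc Q c * g c : ℝ) : ℂ)
      = (((a : ℕ) * sc Q a * g ((a : ℕ) - 1) : ℝ) : ℂ) := by
  obtain ⟨a, ha⟩ := a
  cases a with
  | zero => simp [lowerM]
  | succ a =>
    rw [Fintype.sum_eq_single (⟨a, by omega⟩ : Fin (Q + 1))]
    · simp only [lowerM, if_true, Nat.add_sub_cancel]
      rw [← Complex.ofReal_mul, ← mul_assoc]
      congr 2
      have h1 : ((Q.choose (a + 1) : ℝ)) * (a + 1) = Q.choose a * ((Q : ℝ) - a) := by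
        have := Nat.choose_succ_right_eq Q a
        have h2 : a ≤ Q := by omega
        rw [← Nat.cast_sub h2]
        exact_mod_cast this
      have hQa : (0 : ℝ) ≤ (Q : ℝ) - a := by
        have : (a : ℝ) ≤ Q := by exact_mod_cast (by omega : a ≤ Q)
        linarith
      unfold sc
      rw [← Real.sqrt_mul (by positivity)]
      have h3 : ((a : ℝ) + 1) * ((Q : ℝ) - a) * (Q.choose a : ℝ)
          = ((a : ℝ) + 1) ^ 2 * (Q.choose (a + 1) : ℝ) := by
        linear_combination (-((a : ℝ) + 1)) * h1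
      rw [h3, Real.sqrt_mul (by positivity), Real.sqrt_sq (by positivity)]
      push_cast; ring
    · intro c hc
      have : ¬ (a + 1 = (c : ℕ) + 1) := by
        intro h; apply hc; apply Fin.ext; simp only; omega
      simp only [lowerM, this, if_false, zero_mul]

lemma lower_phi (Q m : ℕ) : lowerPair Q (phiV Q m) = ((m : ℂ) + 1) • phiV Q (m + 1) := by
  ext p
  obtain ⟨a, b⟩ := p
  simp only [lowerPair, phiV, PiLp.smul_apply, smul_eq_mul]
  have h1 := lower_sum Q a (fun c => if c + b = m + 1 then (((b : ℕ) : ℝ) - c) * sc Q b else 0)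
  have h2 := lower_sum Q b (fun c => if a + c = m + 1 then ((c : ℝ) - (a : ℕ)) * sc Q a else 0)
  have e1 : ∀ c : Fin (Q + 1), phi Q m c b
      = sc Q c * (if (c : ℕ) + b = m + 1 then (((b : ℕ) : ℝ) - (c : ℕ)) * sc Q b else 0) := by
    intro c; unfold phi; split_ifs <;> ring
  have e2 : ∀ c : Fin (Q + 1), phi Q m a c
      = sc Q c * (if (a : ℕ) + c = m + 1 then (((c : ℕ) : ℝ) - (a : ℕ)) * sc Q a else 0) := by
    intro c; unfold phi; split_ifs <;> ring
  simp_rw [e1, e2]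
  rw [h1, h2]
  have e3 : ((m : ℂ) + 1) = (((m : ℝ) + 1 : ℝ) : ℂ) := by push_cast; ring
  rw [e3, ← Complex.ofReal_add, ← Complex.ofReal_mul]
  congr 1
  unfold phi
  generalize sc Q a = sa
  generalize sc Q b = sb
  generalize (a : ℕ) = a
  generalize (b : ℕ) = b
  by_cases h : a + b = m + 1 + 1
  · have hm : (m : ℝ) = a + b - 2 := by
      have : ((a + b : ℕ) : ℝ) = ((m + 1 + 1 : ℕ) : ℝ) := by rw [h]
      push_cast at this; linarith
    rw [if_pos h, hm]
    cases a with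
    | zero =>
      cases b with
      | zero => omega
      | succ b =>
        rw [if_pos (by omega : 0 + (b + 1 - 1) = m + 1)]
        simp; ring
    | succ a =>
      cases b with
      | zero =>
        rw [if_pos (by omega : a + 1 - 1 + 0 = m + 1)]
        simp; ring
      | succ b =>
        rw [if_pos (by omega : a + 1 - 1 + (b + 1) = m + 1),
          if_pos (by omega : a + 1 + (b + 1 - 1) = m + 1)]
        simp; ring
  · rw [if_neg h]
    cases a with
    | zero =>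
      cases b with
      | zero => simp
      | succ b =>
        rw [if_neg (by omega : ¬ 0 + (b + 1 - 1) = m + 1)]
        simp
    | succ a =>
      cases b with
      | zero =>
        rw [if_neg (by omega : ¬ a + 1 - 1 + 0 = m + 1)]
        simp
      | succ b =>
        rw [if_neg (by omega : ¬ a + 1 - 1 + (b + 1) = m + 1),
          if_neg (by omega : ¬ a + 1 + (b + 1 - 1) = m + 1)]
        simp

lemma phi_zero (Q : ℕ) : phiV Q 0 = ((Real.sqrt Q : ℝ) : ℂ) • highest Q := by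
  ext p
  obtain ⟨a, b⟩ := p
  simp only [phiV, highest, PiLp.smul_apply, smul_eq_mul, phi]
  generalize (a : ℕ) = a
  generalize (b : ℕ) = b
  by_cases h1 : a = 0 ∧ b = 1
  · obtain ⟨rfl, rfl⟩ := h1; simp [sc]
  by_cases h2 : a = 1 ∧ b = 0
  · obtain ⟨rfl, rfl⟩ := h2; simp [sc]
  rw [if_neg h1, if_neg h2, if_neg (by omega)]; simp

lemma phi_mem (Q m : ℕ) : phiV Q m ∈ spinComp Q := by
  have h : ∃ c : ℂ, phiV Q m = c • (lowerPair Q)^[m] (highest Q) := by
    induction m with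
    | zero => exact ⟨_, phi_zero Q⟩
    | succ m ih =>
      obtain ⟨c, hc⟩ := ih
      refine ⟨((m : ℂ) + 1)⁻¹ * c, ?_⟩
      have hm : ((m : ℂ) + 1) ≠ 0 := by exact_mod_cast Nat.succ_ne_zero m
      rw [Function.iterate_succ_apply', mul_smul, ← lowerPair_smul, ← hc, lower_phi, smul_smul,
        inv_mul_cancel₀ hm, one_smul]
  obtain ⟨c, hc⟩ := h
  rw [hc]
  exact Submodule.smul_mem _ _ (Submodule.subset_span ⟨m, rfl⟩)

lemma inner_phiV (Q m : ℕ) (f : Pair Q) :
    ⟪phiV Q m, f⟫_ℂ = ∑ a : Fin (Q + 1), ∑ b : Fin (Q + 1), ((phi Q m a b : ℝ) : ℂ) * f (a, b) := by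
  rw [PiLp.inner_apply, Fintype.sum_prod_type]
  refine sum_congr rfl fun a _ => sum_congr rfl fun b _ => ?_
  simp [phiV, mul_comm]

lemma inner_phi_phi {Q : ℕ} (hQ : 2 ≤ Q) (m l : ℕ) :
    ⟪phiV Q m, phiV Q l⟫_ℂ
      = if m = l then ((2 * Q * ((2 * Q - 2).choose m : ℝ) : ℝ) : ℂ) else 0 := by
  rw [inner_phiV]
  split_ifs with h
  · subst h
    rw [← phi_norm hQ]
    push_cast
    refine sum_congr rfl fun a _ => sum_congr rfl fun b _ => ?_
    simp [phiV, sq]
  · refine sum_eq_zero fun a _ => sum_eq_zero fun b _ => ?_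
    simp only [phiV, phi]
    split_ifs with h1 h2
    · omega
    all_goals simp

lemma bessel {Q : ℕ} (hQ : 2 ≤ Q) (f : Pair Q) :
    ∑ m ∈ range (2 * Q - 1), ‖⟪phiV Q m, f⟫_ℂ‖ ^ 2 / (2 * Q * ((2 * Q - 2).choose m : ℝ))
      ≤ (⟪f, (spinComp Q).starProjection f⟫_ℂ).re := by
  have hq : (0 : ℝ) < Q := Nat.cast_pos.mpr (by omega)
  have hpos : ∀ m : Fin (2 * Q - 1), (0 : ℝ) < 2 * Q * ((2 * Q - 2).choose m : ℝ) := by
    intro m
    have hc : (0 : ℝ) < (2 * Q - 2).choose m :=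
      Nat.cast_pos.mpr (Nat.choose_pos (by have := m.2; omega))
    positivity
  let s : Fin (2 * Q - 1) → ℝ := fun m => (Real.sqrt (2 * Q * ((2 * Q - 2).choose m : ℝ)))⁻¹
  have hs : ∀ m, s m * s m * (2 * Q * ((2 * Q - 2).choose m : ℝ)) = 1 := by
    intro m
    simp only [s]
    rw [← mul_inv, Real.mul_self_sqrt (hpos m).le, inv_mul_cancel₀ (hpos m).ne']
  let v : Fin (2 * Q - 1) → Pair Q := fun m => ((s m : ℝ) : ℂ) • phiV Q m
  have hv : Orthonormal ℂ v := by
    rw [orthonormal_iff_ite]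
    intro i j
    simp only [v, inner_smul_left, inner_smul_right, inner_phi_phi hQ, Complex.conj_ofReal]
    by_cases h : i = j
    · subst h
      simp only [if_true]
      rw [← Complex.ofReal_mul, ← Complex.ofReal_mul, ← mul_assoc, hs]; simp
    · rw [if_neg h, if_neg (fun h' => h (Fin.ext h'))]; simp
  have hB := hv.sum_inner_products_le ((spinComp Q).starProjection f) (s := univ)
  have h1 : (⟪f, (spinComp Q).starProjection f⟫_ℂ).re = ‖(spinComp Q).starProjection f‖ ^ 2 := by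
    have h2 : ⟪f - (spinComp Q).starProjection f, (spinComp Q).starProjection f⟫_ℂ = 0 :=
      Submodule.inner_left_of_mem_orthogonal ((spinComp Q).starProjection_apply_mem f)
        ((spinComp Q).sub_starProjection_mem_orthogonal f)
    rw [inner_sub_left, sub_eq_zero] at h2
    rw [h2, inner_self_eq_norm_sq_to_K]
    norm_cast
  rw [h1]
  refine le_trans (le_of_eq ?_) hB
  rw [← Fin.sum_univ_eq_sum_range
    (fun m => ‖⟪phiV Q m, f⟫_ℂ‖ ^ 2 / (2 * Q * ((2 * Q - 2).choose m : ℝ))) (2 * Q - 1)]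
  refine sum_congr rfl fun m _ => ?_
  have h3 : ⟪phiV Q m, (spinComp Q).starProjection f⟫_ℂ = ⟪phiV Q m, f⟫_ℂ := by
    have h2 : ⟪phiV Q m, f - (spinComp Q).starProjection f⟫_ℂ = 0 :=
      Submodule.inner_right_of_mem_orthogonal (phi_mem Q m)
        ((spinComp Q).sub_starProjection_mem_orthogonal f)
    rw [inner_sub_right, sub_eq_zero] at h2
    exact h2.symm
  simp only [v, inner_smul_left, h3, norm_mul, Complex.conj_ofReal, Complex.norm_real, mul_pow,
    Real.norm_eq_abs, sq_abs]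
  rw [div_eq_iff (hpos m).ne']
  linear_combination (-‖⟪phiV Q m, f⟫_ℂ‖ ^ 2) * hs m

lemma proj_apply (Q : ℕ) (f : Pair Q) (p : Fin (Q + 1) × Fin (Q + 1)) :
    (spinComp Q).starProjection f p = ∑ a, ∑ b, projM Q p (a, b) * f (a, b) := by
  have h : f = ∑ q, f q • EuclideanSpace.single q (1 : ℂ) := by
    ext t
    simp [Pi.single_apply]
  conv_lhs => rw [h]
  rw [map_sum, ← Fintype.sum_prod_type' (fun a b => projM Q p (a, b) * f (a, b))]
  simp [projM, orthProj, mul_comm]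

lemma sum_cons2 {M X : Type*} [AddCommMonoid M] [Fintype X] {n : ℕ}
    (F : (Fin (n + 2) → X) → M) :
    ∑ k, F k = ∑ r : Fin n → X, ∑ a, ∑ b, F (Fin.cons a (Fin.cons b r : Fin (n + 1) → X)) := by
  classical
  rw [← (Fin.consEquiv (fun _ : Fin (n + 2) => X)).sum_comp, Fintype.sum_prod_type]
  have h : ∀ a : X, ∑ y : Fin (n + 1) → X, F (Fin.consEquiv (fun _ : Fin (n + 2) => X) (a, y))
      = ∑ r : Fin n → X, ∑ b, F (Fin.cons a (Fin.cons b r : Fin (n + 1) → X)) := by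
    intro a
    rw [← (Fin.consEquiv (fun _ : Fin (n + 1) => X)).sum_comp, Fintype.sum_prod_type, sum_comm]
    rfl
  simp_rw [h]
  rw [sum_comm]

/-- Complex pair contraction. -/
noncomputable def cc {n Q : ℕ} (m : ℕ) (ψ : Tens (n + 2) Q) (r : Fin n → Fin (Q + 1)) : ℂ :=
  ∑ a : Fin (Q + 1), ∑ b : Fin (Q + 1), ((phi Q m a b : ℝ) : ℂ) * ψ (Fin.cons a (Fin.cons b r))

lemma pair01 {n Q : ℕ} (hQ : 2 ≤ Q) (ψ : Tens (n + 2) Q) :
    ∑ m ∈ range (2 * Q - 1), (∑ r, ‖cc m ψ r‖ ^ 2) / (2 * Q * ((2 * Q - 2).choose m : ℝ))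
      ≤ (⟪ψ, projAt 0 1 ψ⟫_ℂ).re := by
  let sl : (Fin n → Fin (Q + 1)) → Pair Q := fun r =>
    WithLp.toLp 2 fun p => ψ (Fin.cons p.1 (Fin.cons p.2 r : Fin (n + 1) → Fin (Q + 1)))
  have h1 : ⟪ψ, projAt 0 1 ψ⟫_ℂ = ∑ r, ⟪sl r, (spinComp Q).starProjection (sl r)⟫_ℂ := by
    rw [PiLp.inner_apply, sum_cons2]
    refine sum_congr rfl fun r _ => ?_
    rw [PiLp.inner_apply, Fintype.sum_prod_type]
    refine sum_congr rfl fun a _ => sum_congr rfl fun b _ => ?_
    rw [proj_apply]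
    congr 1
    simp only [projAt, sl]
    refine sum_congr rfl fun a' _ => sum_congr rfl fun b' _ => ?_
    have h5 : Function.update (Function.update
        (Fin.cons a (Fin.cons b r : Fin (n + 1) → Fin (Q + 1)) : Fin (n + 2) → Fin (Q + 1)) 0 a') 1 b'
        = Fin.cons a' (Fin.cons b' r : Fin (n + 1) → Fin (Q + 1)) := by
      rw [Fin.update_cons_zero, ← Fin.succ_zero_eq_one, ← Fin.cons_update, Fin.update_cons_zero]
    rw [h5]
    rfl
  rw [h1, Complex.re_sum]
  simp_rw [sum_div]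
  rw [sum_comm]
  refine sum_le_sum fun r _ => ?_
  refine le_trans (le_of_eq ?_) (bessel hQ (sl r))
  refine sum_congr rfl fun m _ => ?_
  rw [inner_phiV]; rfl

lemma sign_sq {N : ℕ} (σ : Equiv.Perm (Fin N)) :
    ((Equiv.Perm.sign σ : ℤ) : ℂ) * ((Equiv.Perm.sign σ : ℤ) : ℂ) = 1 := by
  rcases Int.units_eq_one_or (Equiv.Perm.sign σ) with h2 | h2 <;> simp [h2]

lemma exists_perm {n : ℕ} {i j : Fin (n + 2)} (hij : i ≠ j) :
    ∃ σ : Equiv.Perm (Fin (n + 2)), σ 0 = i ∧ σ 1 = j := by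
  refine ⟨Equiv.swap 0 i * Equiv.swap 1 (Equiv.swap 0 i j), ?_, ?_⟩
  · rw [Equiv.Perm.mul_apply, Equiv.swap_apply_of_ne_of_ne (x := 0), Equiv.swap_apply_left]
    · exact Fin.zero_ne_one
    · intro h
      apply hij
      have := congrArg (Equiv.swap 0 i) h
      simpa using this
  · simp

lemma pair_ij {n Q : ℕ} {ψ : Tens (n + 2) Q} (hψ : Antisym ψ) {i j : Fin (n + 2)} (hij : i ≠ j) :
    ⟪ψ, projAt i j ψ⟫_ℂ = ⟪ψ, projAt 0 1 ψ⟫_ℂ := by
  obtain ⟨σ, h0, h1⟩ := exists_perm hij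
  rw [PiLp.inner_apply, PiLp.inner_apply]
  symm
  rw [← (Equiv.arrowCongr σ (Equiv.refl (Fin (Q + 1)))).symm.sum_comp]
  refine sum_congr rfl fun k _ => ?_
  have hk : (Equiv.arrowCongr σ (Equiv.refl (Fin (Q + 1)))).symm k = k ∘ σ := by
    funext t; simp [Equiv.arrowCongr]
  rw [hk]
  have h2 : projAt 0 1 ψ (k ∘ σ) = ((Equiv.Perm.sign σ : ℤ) : ℂ) * projAt i j ψ k := by
    simp only [projAt, mul_sum, Function.comp, h0, h1]
    refine sum_congr rfl fun a _ => sum_congr rfl fun b _ => ?_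
    have h3 : Function.update (Function.update (k ∘ σ) 0 a) 1 b
        = Function.update (Function.update k i a) j b ∘ σ := by
      rw [← h0, ← h1, Function.update_comp_eq_of_injective _ σ.injective,
        Function.update_comp_eq_of_injective _ σ.injective]
    rw [h3, hψ]; ring
  rw [h2, hψ]
  simp only [RCLike.inner_apply, map_mul, map_intCast]
  linear_combination (projAt i j ψ k * (starRingEnd ℂ) (ψ k)) * sign_sq σ

lemma count_pairs (N : ℕ) :
    ∑ i : Fin N, ∑ j : Fin N, (if i < j then (1 : ℝ) else 0) = N * (N - 1) / 2 := by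
  induction N with
  | zero => simp
  | succ N ih =>
    rw [Fin.sum_univ_succ]
    simp_rw [Fin.sum_univ_succ]
    simp only [lt_irrefl, if_false, Fin.succ_pos, if_true, Fin.not_lt_zero, Fin.succ_lt_succ_iff,
      zero_add, ih, sum_const, card_univ, Fintype.card_fin, nsmul_eq_mul]
    push_cast; ring

lemma ham_ge {n Q : ℕ} (hQ : 2 ≤ Q) {ψ : Tens (n + 2) Q} (hψ : Antisym ψ) :
    ((n + 2) * (n + 1) / 2 : ℝ) *
      ∑ m ∈ range (2 * Q - 1), (∑ r, ‖cc m ψ r‖ ^ 2) / (2 * Q * ((2 * Q - 2).choose m : ℝ))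
      ≤ (⟪ψ, ham ψ⟫_ℂ).re := by
  have h1 : (⟪ψ, ham ψ⟫_ℂ).re = ((n + 2) * (n + 1) / 2 : ℝ) * (⟪ψ, projAt 0 1 ψ⟫_ℂ).re := by
    have h2 := count_pairs (n + 2)
    push_cast at h2
    rw [show ((n : ℝ) + 2 - 1) = n + 1 by ring] at h2
    rw [← h2, ham, inner_sum, Complex.re_sum, sum_mul]
    refine sum_congr rfl fun i _ => ?_
    rw [inner_sum, Complex.re_sum, sum_mul]
    refine sum_congr rfl fun j _ => ?_
    split_ifs with h
    · rw [pair_ij hψ h.ne, one_mul]
    · simp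
  rw [h1]
  exact mul_le_mul_of_nonneg_left (pair01 hQ ψ) (by positivity)

end Vale.Agent.P359
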