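import Mathlib

namespace Vale.Agent.P359

open Finset MvPolynomial

abbrev MP (N : ℕ) := MvPolynomial (Fin N) ℂ

variable {N : ℕ}

/-- Restriction to the diagonal `z_i = z_j`. -/
noncomputable def dg (i j : Fin N) : MP N →ₐ[ℂ] MP N := rename (fun x => if x = i then j else x)

lemma dg_X (i j x : Fin N) : dg i j (X x) = X (if x = i then j else x) := by
  simp [dg]

lemma dvd_sub_dg (i j : Fin N) (p : MP N) : (X i - X j : MP N) ∣ p - dg i j p := by
  induction p using MvPolynomial.induction_on with
  | C a => simp [dg]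
  | add p q hp hq =>
    have : p + q - dg i j (p + q) = (p - dg i j p) + (q - dg i j q) := by rw [map_add]; ring
    rw [this]; exact dvd_add hp hq
  | mul_X p n hp =>
    have : p * X n - dg i j (p * X n)
        = (p - dg i j p) * X n + dg i j p * (X n - dg i j (X n)) := by rw [map_mul]; ring
    rw [this]
    refine dvd_add (hp.mul_right _) (Dvd.dvd.mul_left ?_ _)
    rw [dg_X]
    split_ifs with h
    · rw [h]
    · simp

lemma dg_diff (i j : Fin N) : dg i j (X i - X j : MP N) = 0 := by
  rw [map_sub, dg_X, dg_X]; simp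

lemma dvd_iff_dg (i j : Fin N) (p : MP N) : (X i - X j : MP N) ∣ p ↔ dg i j p = 0 := by
  constructor
  · rintro ⟨q, rfl⟩; rw [map_mul, dg_diff, zero_mul]
  · intro h; simpa [h] using dvd_sub_dg i j p

lemma diff_ne {i j : Fin N} (h : i ≠ j) : (X i - X j : MP N) ≠ 0 :=
  sub_ne_zero.mpr fun h' => h (X_injective h')

lemma prime_diff {i j : Fin N} (h : i ≠ j) : Prime (X i - X j : MP N) := by
  refine ⟨diff_ne h, fun hu => ?_, fun a b hab => ?_⟩
  · have := hu.map (dg i j)
    rw [dg_diff] at this
    exact not_isUnit_zero this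
  · rw [dvd_iff_dg, map_mul] at hab
    rw [dvd_iff_dg, dvd_iff_dg]
    exact mul_eq_zero.mp hab

lemma anti_dvd {i j : Fin N} {p : MP N} (hp : rename (Equiv.swap i j) p = -p) :
    (X i - X j : MP N) ∣ p := by
  rw [dvd_iff_dg]
  have h1 : dg i j (rename (Equiv.swap i j) p) = dg i j p := by
    unfold dg
    rw [rename_rename]
    congr 2
    funext x
    simp only [Function.comp, Equiv.swap_apply_def]
    by_cases h1 : x = i
    · subst h1; simp
    · by_cases h2 : x = j
      · subst h2; simp
      · simp [h1, h2]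
  rw [hp, map_neg] at h1
  have h2 : (2 : MP N) * dg i j p = 0 := by linear_combination -h1
  exact (mul_eq_zero.mp h2).resolve_left two_ne_zero

/-- The operator `z_j d/dz_j - z_i d/dz_i`. -/
noncomputable def dd (i j : Fin N) (p : MP N) : MP N := X j * pderiv j p - X i * pderiv i p

lemma dd_mul (i j : Fin N) (p q : MP N) : dd i j (p * q) = p * dd i j q + q * dd i j p := by
  simp only [dd, Derivation.leibniz, smul_eq_mul]; ring

lemma dd_diff {i j : Fin N} (h : i ≠ j) : dd i j (X i - X j : MP N) = - (X i + X j) := by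
  simp only [dd, map_sub, pderiv_X_self, pderiv_X_of_ne h, pderiv_X_of_ne h.symm]; ring

lemma rename_swap_diff (i j : Fin N) :
    rename (Equiv.swap i j) (X i - X j : MP N) = - (X i - X j) := by
  simp

lemma cube_dvd {i j : Fin N} (h : i ≠ j) {p : MP N} (hp : rename (Equiv.swap i j) p = -p)
    (hd : dg i j (dd i j p) = 0) : (X i - X j : MP N) ^ 3 ∣ p := by
  obtain ⟨g, rfl⟩ := anti_dvd hp
  have hg : rename (Equiv.swap i j) g = g := by
    rw [map_mul, rename_swap_diff] at hp
    refine mul_left_cancel₀ (diff_ne h) ?_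
    linear_combination -hp
  have h1 : dg i j g = 0 := by
    rw [dd_mul, dd_diff h, map_add, map_mul, map_mul, dg_diff, zero_mul, zero_add, map_neg,
      map_add, dg_X, dg_X] at hd
    simp only [if_true, ite_self, mul_eq_zero, neg_eq_zero] at hd
    refine hd.resolve_right ?_
    have h3 : (if j = i then j else j) = j := ite_self _
    rw [← two_mul]
    exact mul_ne_zero two_ne_zero (X_ne_zero _)
  obtain ⟨k, rfl⟩ := (dvd_iff_dg i j g).mpr h1
  have hk : rename (Equiv.swap i j) k = -k := by
    rw [map_mul, rename_swap_diff] at hg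
    refine mul_left_cancel₀ (diff_ne h) ?_
    linear_combination -hg
  obtain ⟨l, rfl⟩ := anti_dvd hk
  exact ⟨l, by ring⟩

lemma dd_of_sq_dvd {i j : Fin N} {p : MP N} (hp : (X i - X j : MP N) ^ 2 ∣ p) :
    dg i j (dd i j p) = 0 := by
  obtain ⟨q, rfl⟩ := hp
  rw [sq, mul_assoc, dd_mul]
  simp only [map_add, map_mul, dg_diff, zero_mul, add_zero]

/-- The cube of the Vandermonde polynomial. -/
noncomputable def vd (N : ℕ) : MP N :=
  ∏ i : Fin N, ∏ j : Fin N, if i < j then (X j - X i) ^ 3 else 1

lemma vd_eq : vd N = ∏ i : Fin N, ∏ j ∈ Ioi i, (X j - X i : MP N) ^ 3 := by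
  unfold vd
  refine prod_congr rfl fun i _ => ?_
  rw [← prod_filter]
  congr 1
  ext j; simp

lemma rename_vd (σ : Equiv.Perm (Fin N)) :
    rename σ (vd N) = ((Equiv.Perm.sign σ : ℤ) : MP N) * vd N := by
  rw [vd_eq, ← Equiv.Perm.prod_Ioi_comp_eq_sign_mul_prod σ
    (f := fun i j => (X j - X i : MP N) ^ 3) (fun i j => by ring)]
  simp [map_prod]

lemma vd_ne : vd N ≠ 0 := by
  unfold vd
  refine prod_ne_zero_iff.mpr fun i _ => prod_ne_zero_iff.mpr fun j _ => ?_
  split_ifs with h
  · exact pow_ne_zero _ (diff_ne h.ne')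
  · exact one_ne_zero

lemma vd_dvd {p : MP N} (hp : ∀ i j : Fin N, i ≠ j → (X i - X j : MP N) ^ 3 ∣ p) : vd N ∣ p := by
  unfold vd
  rw [← Fintype.prod_prod_type' (fun i j : Fin N => if i < j then (X j - X i : MP N) ^ 3 else 1)]
  refine Fintype.prod_dvd_of_isRelPrime ?_ ?_
  · rintro ⟨i, j⟩ ⟨k, l⟩ hne
    simp only [Function.onFun]
    split_ifs with h1 h2 h2
    · refine IsRelPrime.pow ?_
      rw [(prime_diff h1.ne').irreducible.isRelPrime_iff_not_dvd, dvd_iff_dg, map_sub, dg_X, dg_X,
        sub_eq_zero]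
      intro h3
      have h4 := X_injective h3
      apply hne
      split_ifs at h4 with h5 h6 h6
      · exfalso; rw [h5, h6] at h2; exact lt_irrefl _ h2
      · rw [h5, h4]
      · exfalso; rw [h6, h4] at h2; exact lt_asymm h1 h2
      · exfalso; rw [h4] at h2; exact lt_irrefl _ h2
    · exact isRelPrime_one_right
    · exact isRelPrime_one_left
    · exact isRelPrime_one_left
  · rintro ⟨i, j⟩
    simp only
    split_ifs with h
    · exact hp j i h.ne'
    · exact one_dvd _

lemma cnt (t : Fin N) :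
    ∑ i : Fin N, ∑ j : Fin N,
      (if i < j then 3 * ((if t = i then 1 else 0) + (if t = j then 1 else 0)) else 0)
      = 3 * (N - 1) := by
  have h1 : ∀ i j : Fin N,
      (if i < j then 3 * ((if t = i then 1 else 0) + (if t = j then 1 else 0)) else 0)
      = 3 * ((if t = i then (if i < j then 1 else 0) else 0)
        + (if t = j then (if i < j then 1 else 0) else 0)) := by
    intro i j; split_ifs <;> rfl
  simp_rw [h1, ← mul_sum, sum_add_distrib]
  congr 1
  rw [sum_comm (f := fun i j => if t = i then (if i < j then 1 else 0) else 0)]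
  simp only [sum_ite_eq, mem_univ, if_true]
  rw [← card_filter, ← card_filter, filter_lt_eq_Ioi, filter_gt_eq_Iio, Fin.card_Ioi, Fin.card_Iio]
  have := t.2
  omega

lemma degreeOf_diff (t : Fin N) {i j : Fin N} (h : i ≠ j) :
    degreeOf t (X j - X i : MP N) = (if t = i then 1 else 0) + (if t = j then 1 else 0) := by
  have key : ∀ a b : Fin N, a ≠ b → degreeOf a (X a - X b : MP N) = 1 := by
    intro a b hab
    rw [sub_eq_add_neg, degreeOf_add_eq_of_degreeOf_lt, degreeOf_X_self]
    rw [degreeOf_neg, degreeOf_X_of_ne hab, degreeOf_X_self]; exact Nat.one_pos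
  by_cases h1 : t = i
  · subst h1
    rw [← degreeOf_neg, neg_sub, key _ _ h]; simp [h]
  by_cases h2 : t = j
  · subst h2
    rw [key _ _ h.symm]; simp [h1]
  have := degreeOf_sub_le t (X j : MP N) (X i)
  rw [degreeOf_X_of_ne h1, degreeOf_X_of_ne h2] at this
  simp only [h1, h2, if_false]
  omega

lemma degreeOf_vd (t : Fin N) : degreeOf t (vd N) = 3 * (N - 1) := by
  have hne : ∀ i j : Fin N, (if i < j then (X j - X i : MP N) ^ 3 else 1) ≠ 0 := by
    intro i j
    split_ifs with h
    · exact pow_ne_zero _ (diff_ne h.ne')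
    · exact one_ne_zero
  unfold vd
  rw [degreeOf_prod_eq _ _ (fun i _ => prod_ne_zero_iff.mpr fun j _ => hne i j), ← cnt t]
  refine sum_congr rfl fun i _ => ?_
  rw [degreeOf_prod_eq _ _ (fun j _ => hne i j)]
  refine sum_congr rfl fun j _ => ?_
  by_cases h : i < j
  · rw [if_pos h, if_pos h, degreeOf_pow_eq _ _ _ (diff_ne h.ne'), degreeOf_diff t h.ne]
  · rw [if_neg h, if_neg h, degreeOf_one]

lemma eq_C_mul_vd {p : MP N} (hp : ∀ i j : Fin N, i ≠ j → (X i - X j : MP N) ^ 3 ∣ p)
    (hdeg : ∀ t, degreeOf t p ≤ 3 * (N - 1)) : ∃ c : ℂ, p = C c * vd N := by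
  obtain ⟨q, rfl⟩ := vd_dvd hp
  by_cases hq : q = 0
  · exact ⟨0, by simp [hq]⟩
  have h1 : ∀ t, degreeOf t q = 0 := by
    intro t
    have := hdeg t
    rw [degreeOf_mul_eq vd_ne hq, degreeOf_vd] at this
    omega
  refine ⟨coeff 0 q, ?_⟩
  rw [mul_comm]
  congr 1
  ext d
  rw [coeff_C]
  split_ifs with h
  · rw [h]
  · by_contra h2
    apply h
    ext t
    have := monomial_le_degreeOf t (mem_support_iff.mpr h2)
    rw [h1] at this
    simp only [Finsupp.coe_zero, Pi.zero_apply]
    omega

end Vale.Agent.P359
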