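import Vale.Agent.P359.FC
import Vale.Agent.P359.FD

namespace Vale.Agent.P359

open Finset MvPolynomial

variable {N Q : ℕ}

/-- A function on a finite type as a finitely supported function. -/
noncomputable def ff (k : Fin N → ℕ) : Fin N →₀ ℕ := Finsupp.equivFunOnFinite.symm k

lemma ff_apply (k : Fin N → ℕ) (i : Fin N) : ff k i = k i := rfl

lemma ff_inj {k l : Fin N → ℕ} : ff k = ff l ↔ k = l :=
  Finsupp.equivFunOnFinite.symm.injective.eq_iff

lemma mono_eq (k : Fin N → ℕ) (c : ℂ) : monomial (ff k) c = C c * ∏ i, (X i : MP N) ^ k i := by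
  rw [monomial_eq, Finsupp.prod_fintype _ _ (fun i => pow_zero _)]
  rfl

/-- Exponent vector of a tuple of orbitals. -/
noncomputable def kf (k : Fin N → Fin (Q + 1)) : Fin N →₀ ℕ := ff fun i => (k i : ℕ)

lemma kf_inj {k l : Fin N → Fin (Q + 1)} : kf k = kf l ↔ k = l := by
  unfold kf
  rw [ff_inj]
  constructor
  · intro h; funext i; exact Fin.ext (congrFun h i)
  · rintro rfl; rfl

/-- Product of orbital weights. -/
noncomputable def pw (k : Fin N → Fin (Q + 1)) : ℂ := ∏ i, ((sc Q (k i) : ℝ) : ℂ)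

lemma pw_ne (k : Fin N → Fin (Q + 1)) : pw k ≠ 0 :=
  prod_ne_zero_iff.mpr fun i _ => Complex.ofReal_ne_zero.mpr (sc_pos (k i)).ne'

lemma pw_perm (k : Fin N → Fin (Q + 1)) (σ : Equiv.Perm (Fin N)) : pw (k ∘ σ) = pw k :=
  Equiv.prod_comp σ (fun i => ((sc Q (k i) : ℝ) : ℂ))

/-- The polynomial of a wave function. -/
noncomputable def pf (g : (Fin N → Fin (Q + 1)) → ℂ) : MP N :=
  ∑ k, monomial (kf k) (g k * pw k)

lemma coeff_pf (g : (Fin N → Fin (Q + 1)) → ℂ) (k : Fin N → Fin (Q + 1)) :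
    coeff (kf k) (pf g) = g k * pw k := by
  simp [pf, coeff_sum, coeff_monomial, kf_inj]

lemma pf_inj {g h : (Fin N → Fin (Q + 1)) → ℂ} (e : pf g = pf h) : g = h := by
  funext k
  have := congrArg (coeff (kf k)) e
  rw [coeff_pf, coeff_pf] at this
  exact mul_right_cancel₀ (pw_ne k) this

lemma pf_smul (c : ℂ) (g : (Fin N → Fin (Q + 1)) → ℂ) :
    pf (fun k => c * g k) = C c * pf g := by
  unfold pf
  rw [mul_sum]
  refine sum_congr rfl fun k _ => ?_
  rw [C_mul_monomial, mul_assoc]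

lemma rename_pf (g : (Fin N → Fin (Q + 1)) → ℂ) (σ : Equiv.Perm (Fin N)) :
    rename σ (pf g) = pf (fun k => g (k ∘ σ)) := by
  unfold pf
  rw [map_sum, ← (Equiv.arrowCongr σ (Equiv.refl (Fin (Q + 1)))).symm.sum_comp]
  refine sum_congr rfl fun k _ => ?_
  have hk : (Equiv.arrowCongr σ (Equiv.refl (Fin (Q + 1)))).symm k = k ∘ σ := by
    funext t; simp [Equiv.arrowCongr]
  rw [hk, pw_perm]
  unfold kf
  rw [mono_eq, mono_eq, map_mul, rename_C, map_prod]
  congr 1
  simp only [map_pow, rename_X, Function.comp]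
  exact Equiv.prod_comp σ (fun i => (X i : MP N) ^ (k i : ℕ))

lemma coeff_pf_zero (g : (Fin N → Fin (Q + 1)) → ℂ) {d : Fin N →₀ ℕ} (hd : ¬ ∀ t, d t ≤ Q) :
    coeff d (pf g) = 0 := by
  unfold pf
  rw [coeff_sum]
  refine sum_eq_zero fun k _ => ?_
  rw [coeff_monomial, if_neg]
  rintro rfl
  exact hd fun t => Nat.lt_succ_iff.mp (k t).2

lemma degreeOf_pf (g : (Fin N → Fin (Q + 1)) → ℂ) (t : Fin N) : degreeOf t (pf g) ≤ Q := by
  rw [degreeOf_le_iff]
  intro d hd
  by_contra h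
  exact mem_support_iff.mp hd (coeff_pf_zero g fun h' => h (h' t))

lemma pf_eq {g : (Fin N → Fin (Q + 1)) → ℂ} {p : MP N} (hp : ∀ t, degreeOf t p ≤ Q)
    (h : ∀ k, g k * pw k = coeff (kf k) p) : pf g = p := by
  ext d
  by_cases hd : ∀ t, d t ≤ Q
  · have : d = kf (fun t => (⟨d t, Nat.lt_succ_iff.mpr (hd t)⟩ : Fin (Q + 1))) := by
      ext t; rfl
    rw [this, coeff_pf, h]
  · rw [coeff_pf_zero g hd]
    symm
    by_contra h2
    exact hd fun t => (monomial_le_degreeOf t (mem_support_iff.mpr h2)).trans (hp t)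

/-- Dehomogenisation `u_i = 1`, `v_i = z_i`. -/
noncomputable def deh (N : ℕ) : MvPolynomial (Fin N ⊕ Fin N) ℂ →ₐ[ℂ] MP N :=
  aeval (Sum.elim (fun _ => 1) X)

lemma deh_mono (d : (Fin N ⊕ Fin N) →₀ ℕ) (c : ℂ) :
    deh N (monomial d c) = monomial (ff fun i => d (Sum.inr i)) c := by
  rw [deh, aeval_monomial, Finsupp.prod_fintype _ _ (fun i => pow_zero _), Fintype.prod_sum_type,
    mono_eq]
  simp

lemma coeff_deh {p : MvPolynomial (Fin N ⊕ Fin N) ℂ}
    (hp : ∀ d ∈ p.support, ∀ t, d (Sum.inl t) + d (Sum.inr t) = Q) (k : Fin N → Fin (Q + 1)) :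
    coeff (kf k) (deh N p) = coeff (expo k) p := by
  classical
  conv_lhs => rw [p.as_sum, map_sum, coeff_sum]
  have h1 : ∀ d ∈ p.support, coeff (kf k) (deh N (monomial d (coeff d p)))
      = if d = expo k then coeff d p else 0 := by
    intro d hd
    rw [deh_mono, coeff_monomial]
    refine if_congr ?_ rfl rfl
    unfold kf
    rw [ff_inj]
    constructor
    · intro h
      ext x
      rcases x with t | t
      · have h2 := hp d hd t
        have h3 : d (Sum.inr t) = k t := congrFun h t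
        change d (Sum.inl t) = Q - (k t : ℕ)
        omega
      · exact congrFun h t
    · rintro rfl; rfl
  rw [sum_congr rfl h1, sum_ite_eq']
  split_ifs with h
  · rfl
  · exact (notMem_support_iff.mp h).symm

lemma deh_laughlin : deh N (laughlinPoly N) = vd N := by
  unfold laughlinPoly vd
  rw [map_prod]
  refine prod_congr rfl fun i _ => ?_
  rw [map_prod]
  refine prod_congr rfl fun j _ => ?_
  split_ifs
  · simp [deh]
  · simp

lemma laughlin_hom : ∀ d ∈ (laughlinPoly N).support, ∀ t,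
    d (Sum.inl t) + d (Sum.inr t) = 3 * (N - 1) := by
  intro d hd t
  let w : Fin N ⊕ Fin N → ℕ := Sum.elim (fun i => if t = i then 1 else 0) (fun i => if t = i then 1 else 0)
  have h1 : IsWeightedHomogeneous w (laughlinPoly N) (3 * (N - 1)) := by
    rw [← cnt t]
    unfold laughlinPoly
    refine IsWeightedHomogeneous.prod _ _ _ fun i _ => IsWeightedHomogeneous.prod _ _ _ fun j _ => ?_
    by_cases h : i < j
    · rw [if_pos h, if_pos h, ← smul_eq_mul]
      refine IsWeightedHomogeneous.pow (IsWeightedHomogeneous.sub ?_ ?_) 3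
      · exact (isWeightedHomogeneous_X ℂ w (Sum.inl i)).mul (isWeightedHomogeneous_X ℂ w (Sum.inr j))
      · rw [add_comm]
        exact (isWeightedHomogeneous_X ℂ w (Sum.inl j)).mul (isWeightedHomogeneous_X ℂ w (Sum.inr i))
    · rw [if_neg h, if_neg h]
      exact isWeightedHomogeneous_one ℂ w
  have h2 := h1 (mem_support_iff.mp hd)
  rw [Finsupp.weight_apply, Finsupp.sum_fintype _ _ (fun i => by simp),
    Fintype.sum_sum_type] at h2
  simpa [w] using h2

lemma pf_laughlin : pf (fun k => laughlin N k) = vd N := by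
  refine pf_eq (fun t => (degreeOf_vd t).le) fun k => ?_
  rw [← deh_laughlin, coeff_deh laughlin_hom]
  exact div_mul_cancel₀ _ (pw_ne k)

lemma antisym_iff {ψ : Tens N Q} :
    Antisym ψ ↔ ∀ σ : Equiv.Perm (Fin N),
      rename σ (pf fun k => ψ k) = ((Equiv.Perm.sign σ : ℤ) : MP N) * pf fun k => ψ k := by
  have h : ∀ σ : Equiv.Perm (Fin N), ((Equiv.Perm.sign σ : ℤ) : MP N) * pf (fun k => ψ k)
      = pf fun k => ((Equiv.Perm.sign σ : ℤ) : ℂ) * ψ k := by
    intro σ; rw [pf_smul, map_intCast]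
  constructor
  · intro hψ σ
    rw [h, rename_pf]
    congr 1
    funext k
    exact hψ σ k
  · intro hψ σ k
    have := hψ σ
    rw [h, rename_pf] at this
    exact congrFun (pf_inj this) k

lemma antisym_laughlin : Antisym (laughlin N) := by
  rw [antisym_iff, pf_laughlin]
  exact rename_vd

/-- Exponent vector after restriction to the diagonal. -/
noncomputable def gf {n : ℕ} (s : ℕ) (r : Fin n → Fin (Q + 1)) : Fin (n + 2) →₀ ℕ :=
  ff (Fin.cons 0 (Fin.cons s (fun i => (r i : ℕ)) : Fin (n + 1) → ℕ))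

lemma gf_inj {n s s' : ℕ} {r r' : Fin n → Fin (Q + 1)} : gf s r = gf s' r' ↔ r = r' ∧ s = s' := by
  unfold gf
  rw [ff_inj]
  constructor
  · intro h
    refine ⟨funext fun i => Fin.ext ?_, ?_⟩
    · simpa using congrFun h i.succ.succ
    · simpa using congrFun h (Fin.succ 0)
  · rintro ⟨rfl, rfl⟩; rfl

/-- Coefficients of the contracted polynomial. -/
noncomputable def ce {n : ℕ} (ψ : Tens (n + 2) Q) (r : Fin n → Fin (Q + 1))
    (a b : Fin (Q + 1)) : ℂ :=
  (((b : ℕ) : ℂ) - ((a : ℕ) : ℂ)) * (ψ (Fin.cons a (Fin.cons b r : Fin (n + 1) → Fin (Q + 1))) *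
    (((sc Q a : ℝ) : ℂ) * (((sc Q b : ℝ) : ℂ) * pw r)))

lemma dg_dd_pf {n : ℕ} (ψ : Tens (n + 2) Q) :
    dg 0 1 (dd 0 1 (pf fun k => ψ k))
      = ∑ r, ∑ a : Fin (Q + 1), ∑ b : Fin (Q + 1), monomial (gf ((a : ℕ) + b) r) (ce ψ r a b) := by
  have h1 : dd 0 1 (pf fun k => ψ k) = ∑ k : Fin (n + 2) → Fin (Q + 1),
      monomial (kf k) ((((k 1 : ℕ) : ℂ) - ((k 0 : ℕ) : ℂ)) * (ψ k * pw k)) := by
    unfold dd pf
    rw [map_sum, map_sum, mul_sum, mul_sum, ← sum_sub_distrib]
    refine sum_congr rfl fun k _ => ?_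
    rw [X_mul_pderiv_monomial, X_mul_pderiv_monomial, smul_monomial, smul_monomial, ← map_sub]
    congr 1
    simp only [kf, ff_apply, nsmul_eq_mul]
    ring
  rw [h1, map_sum, sum_cons2]
  refine sum_congr rfl fun r _ => sum_congr rfl fun a _ => sum_congr rfl fun b _ => ?_
  unfold kf gf
  rw [mono_eq, mono_eq, map_mul, map_prod, Fin.prod_univ_succ, Fin.prod_univ_succ,
    Fin.prod_univ_succ, Fin.prod_univ_succ]
  simp only [map_pow, dg_X, Fin.cons_zero, Fin.cons_succ, Fin.succ_ne_zero, if_true, if_false,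
    pow_zero, one_mul, Fin.succ_zero_eq_one, Fin.cons_one]
  have h2 : dg (0 : Fin (n + 2)) 1 (C ((((b : ℕ) : ℂ) - ((a : ℕ) : ℂ)) *
      (ψ (Fin.cons a (Fin.cons b r : Fin (n + 1) → Fin (Q + 1))) *
        pw (Fin.cons a (Fin.cons b r : Fin (n + 1) → Fin (Q + 1)) : Fin (n + 2) → Fin (Q + 1)))))
      = C (ce ψ r a b) := by
    rw [dg, rename_C]
    congr 1
    unfold ce pw
    rw [Fin.prod_univ_succ, Fin.prod_univ_succ]
    simp
  rw [h2]
  simp only [ite_self, pow_add]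
  ring

lemma ce_sum {n : ℕ} (ψ : Tens (n + 2) Q) (r : Fin n → Fin (Q + 1)) (m : ℕ) :
    ∑ a : Fin (Q + 1), ∑ b : Fin (Q + 1), (if (a : ℕ) + b = m + 1 then ce ψ r a b else 0)
      = cc m ψ r * pw r := by
  unfold cc
  rw [sum_mul]
  refine sum_congr rfl fun a _ => ?_
  rw [sum_mul]
  refine sum_congr rfl fun b _ => ?_
  unfold phi ce
  split_ifs
  · push_cast; ring
  · simp

lemma coeff_dg_dd {n : ℕ} (ψ : Tens (n + 2) Q) (r : Fin n → Fin (Q + 1)) (s : ℕ) :
    coeff (gf s r) (dg 0 1 (dd 0 1 (pf fun k => ψ k)))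
      = ∑ a : Fin (Q + 1), ∑ b : Fin (Q + 1), (if (a : ℕ) + b = s then ce ψ r a b else 0) := by
  rw [dg_dd_pf, coeff_sum, Fintype.sum_eq_single r]
  · simp only [coeff_sum, coeff_monomial, gf_inj, true_and]
  · intro r' hr
    simp only [coeff_sum, coeff_monomial, gf_inj, hr, false_and, if_false, sum_const_zero]

lemma contr_iff {n : ℕ} (ψ : Tens (n + 2) Q) :
    dg 0 1 (dd 0 1 (pf fun k => ψ k)) = 0 ↔ ∀ m r, cc m ψ r = 0 := by
  constructor
  · intro h m r
    have h1 := coeff_dg_dd ψ r (m + 1)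
    rw [h, coeff_zero, ce_sum] at h1
    exact (mul_eq_zero.mp h1.symm).resolve_right (pw_ne r)
  · intro h
    ext e
    rw [coeff_zero]
    by_cases he : ∃ (s : ℕ) (r : Fin n → Fin (Q + 1)), gf s r = e
    · obtain ⟨s, r, rfl⟩ := he
      rw [coeff_dg_dd]
      cases s with
      | zero =>
        refine sum_eq_zero fun a _ => sum_eq_zero fun b _ => ?_
        split_ifs with h1
        · have ha : (a : ℕ) = 0 := by omega
          have hb : (b : ℕ) = 0 := by omega
          simp [ce, ha, hb]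
        · rfl
      | succ m => rw [ce_sum, h, zero_mul]
    · rw [dg_dd_pf, coeff_sum]
      refine sum_eq_zero fun r _ => ?_
      rw [coeff_sum]
      refine sum_eq_zero fun a _ => ?_
      rw [coeff_sum]
      refine sum_eq_zero fun b _ => ?_
      rw [coeff_monomial, if_neg (fun h1 => he ⟨_, _, h1⟩)]

lemma cc_laughlin {n : ℕ} (m : ℕ) (r : Fin n → Fin (3 * (n + 2 - 1) + 1)) :
    cc m (laughlin (n + 2)) r = 0 := by
  revert m r
  rw [← contr_iff, pf_laughlin]
  refine dd_of_sq_dvd ?_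
  have h1 : (X 1 - X 0 : MP (n + 2)) ^ 3 ∣ vd (n + 2) := by
    unfold vd
    refine Dvd.dvd.trans ?_ (dvd_prod_of_mem _ (mem_univ 0))
    refine Dvd.dvd.trans ?_ (dvd_prod_of_mem _ (mem_univ 1))
    rw [if_pos Fin.zero_lt_one]
  exact Dvd.dvd.trans ⟨X 1 - X 0, by ring⟩ h1

lemma kernel {n : ℕ} {ψ : Tens (n + 2) (3 * (n + 2 - 1))} (hψ : Antisym ψ)
    (hc : ∀ m r, cc m ψ r = 0) : ∃ c : ℂ, ψ = c • laughlin (n + 2) := by
  rw [antisym_iff] at hψ
  rw [← contr_iff] at hc
  have h01 : (X 0 - X 1 : MP (n + 2)) ^ 3 ∣ pf fun k => ψ k := by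
    refine cube_dvd Fin.zero_ne_one ?_ hc
    rw [hψ, Equiv.Perm.sign_swap Fin.zero_ne_one]
    simp
  have hij : ∀ i j : Fin (n + 2), i ≠ j → (X i - X j : MP (n + 2)) ^ 3 ∣ pf fun k => ψ k := by
    intro i j h
    obtain ⟨σ, h0, h1⟩ := exists_perm h
    have h2 := map_dvd (rename σ) h01
    rw [hψ, map_pow, map_sub, rename_X, rename_X, h0, h1] at h2
    rcases Int.units_eq_one_or (Equiv.Perm.sign σ) with h3 | h3
    · simpa [h3] using h2
    · simpa [h3] using h2
  obtain ⟨c, hc⟩ := eq_C_mul_vd hij (fun t => degreeOf_pf _ t)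
  rw [← pf_laughlin, ← pf_smul] at hc
  refine ⟨c, ?_⟩
  ext k
  exact congrFun (pf_inj hc) k

end Vale.Agent.P359
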