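import Mathlib

namespace Vale.Agent.P359

open Finset

/-- Fock vectors: functions on finite sets of orbitals. -/
abbrev Fock := Finset ℕ → ℝ

/-- Jordan-Wigner sign. -/
noncomputable def sg (a : ℕ) (S : Finset ℕ) : ℝ := (-1) ^ (S.filter (· < a)).card

/-- Annihilation operator. -/
noncomputable def ann (a : ℕ) : Module.End ℝ Fock where
  toFun x := fun S => if a ∈ S then 0 else sg a S * x (insert a S)
  map_add' x y := by
    funext S; by_cases h : a ∈ S <;> simp [h, mul_add]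
  map_smul' c x := by
    funext S; by_cases h : a ∈ S <;> simp [h]; ring

/-- Orbital weight `sqrt (C(Q,a) / Q^a)`; it vanishes for `a > Q`. -/
noncomputable def wt (Q a : ℕ) : ℝ := Real.sqrt ((Q.choose a : ℝ) / (Q : ℝ) ^ a)

/-- Rescaled annihilation operator. -/
noncomputable def hc (Q a : ℕ) : Module.End ℝ Fock := wt Q a • ann a

/-- Pair annihilation operator `(1/2) ∑_{i+j=m+1} (j-i) c_j c_i` (rescaled orbitals). -/
noncomputable def hA (Q m : ℕ) : Module.End ℝ Fock :=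
  ∑ p ∈ antidiagonal (m + 1), (((p.2 : ℝ) - (p.1 : ℝ)) / 2) • (hc Q p.2 * hc Q p.1)

/-- Inner product on the Fock space of orbitals `0..Q`. -/
noncomputable def ip (Q : ℕ) (x y : Fock) : ℝ := ∑ S ∈ (range (Q + 1)).powerset, x S * y S

/-- Normalisation of `hA`. -/
noncomputable def nu (Q m : ℕ) : ℝ := ((2 * Q - 2).choose m : ℝ) / (Q : ℝ) ^ m

/-- Energy form of the Hamiltonian. -/
noncomputable def form (Q : ℕ) (x : Fock) : ℝ :=
  ∑ m ∈ range (2 * Q - 1), ip Q (hA Q m x) (hA Q m x) / nu Q m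

/-- Vectors supported on subsets of `0..Q`. -/
def Supp (Q : ℕ) (x : Fock) : Prop := ∀ S, ¬ S ⊆ range (Q + 1) → x S = 0

/-- The Fock space gap statement. -/
def FockGap : Prop :=
  ∃ δ : ℝ, 0 < δ ∧ ∃ Q0 : ℕ, ∀ Q ≥ Q0, ∀ x : Fock, Supp Q x →
    (∀ y : Fock, Supp Q y → (∀ m, hA Q m y = 0) → ip Q x y = 0) → δ * ip Q x x ≤ form Q x

end Vale.Agent.P359
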