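import Vale.Agent.P359.Defs
import Vale.Agent.P359.FockDefs

namespace Vale.Agent.P359

open scoped InnerProductSpace

def Target : Prop :=
  ∃ δ : ℝ, 0 < δ ∧ ∃ N0 : ℕ, ∀ N ≥ N0, ∀ ψ : Tens N (3 * (N - 1)), Antisym ψ →
    δ * (⟪ψ, ψ - (ℂ ∙ laughlin N).starProjection ψ⟫_ℂ).re ≤ (⟪ψ, ham ψ⟫_ℂ).re

end Vale.Agent.P359
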