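import Vale.Agent.P359.FE
import Vale.Agent.P359.Target

namespace Vale.Agent.P359

open Finset
open scoped InnerProductSpace

lemma Antisym.re {N Q : ℕ} {ψ : Tens N Q} (h : Antisym ψ) : RAnti fun k => (ψ k).re := by
  intro σ k
  simp only [h σ k, Complex.mul_re, Complex.intCast_re, Complex.intCast_im, zero_mul, sub_zero]

lemma Antisym.im {N Q : ℕ} {ψ : Tens N Q} (h : Antisym ψ) : RAnti fun k => (ψ k).im := by
  intro σ k
  simp only [h σ k, Complex.mul_im, Complex.intCast_re, Complex.intCast_im, zero_mul, add_zero]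

lemma cc_re {n Q : ℕ} (m : ℕ) (ψ : Tens (n + 2) Q) (r : Fin n → Fin (Q + 1)) :
    (cc m ψ r).re = cr m (fun k => (ψ k).re) r := by
  simp [cc, cr, Complex.re_sum]

lemma cc_im {n Q : ℕ} (m : ℕ) (ψ : Tens (n + 2) Q) (r : Fin n → Fin (Q + 1)) :
    (cc m ψ r).im = cr m (fun k => (ψ k).im) r := by
  simp [cc, cr, Complex.im_sum]

lemma cc_sub_smul {n Q : ℕ} (m : ℕ) (ψ χ : Tens (n + 2) Q) (c : ℂ) (r : Fin n → Fin (Q + 1)) :
    cc m (ψ - c • χ) r = cc m ψ r - c * cc m χ r := by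
  simp only [cc, PiLp.sub_apply, PiLp.smul_apply, smul_eq_mul, mul_sum, ← sum_sub_distrib]
  refine sum_congr rfl fun a _ => sum_congr rfl fun b _ => ?_
  ring

theorem target_of_fock : FockGap → Target := by
  rintro ⟨δ, hδ, Q0, hgap⟩
  refine ⟨δ, hδ, Q0 + 2, fun N hN ψ hψ => ?_⟩
  obtain ⟨n, rfl⟩ : ∃ n, N = n + 2 := ⟨N - 2, by omega⟩
  have hQ2 : 2 ≤ 3 * (n + 2 - 1) := by omega
  have hQ0 : 0 < 3 * (n + 2 - 1) := by omega
  have hg := hgap (3 * (n + 2 - 1)) (by omega)
  set L := laughlin (n + 2) with hL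
  obtain ⟨c, hc⟩ := Submodule.mem_span_singleton.mp ((ℂ ∙ L).starProjection_apply_mem ψ)
  have horth := (ℂ ∙ L).sub_starProjection_mem_orthogonal ψ
  rw [← hc] at horth ⊢
  set χ := ψ - c • L with hχ
  have hLχ : ⟪L, χ⟫_ℂ = 0 :=
    Submodule.inner_right_of_mem_orthogonal (Submodule.mem_span_singleton_self L) horth
  have hanti : Antisym χ := by
    intro σ k
    simp only [hχ, PiLp.sub_apply, PiLp.smul_apply, smul_eq_mul, hψ σ k, hL,
      antisym_laughlin σ k]
    ring
  have hcc : ∀ m r, cc m ψ r = cc m χ r := by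
    intro m r
    rw [hχ, cc_sub_smul, hL, cc_laughlin, mul_zero, sub_zero]
  have h1 : (⟪ψ, χ⟫_ℂ).re = ∑ k, (χ k).re ^ 2 + ∑ k, (χ k).im ^ 2 := by
    have h2 : ψ = χ + c • L := by rw [hχ]; abel
    rw [h2, inner_add_left, inner_smul_left, hLχ, mul_zero, add_zero, PiLp.inner_apply,
      Complex.re_sum, ← sum_add_distrib]
    refine sum_congr rfl fun k _ => ?_
    rw [RCLike.inner_apply, Complex.mul_conj, Complex.ofReal_re, Complex.normSq_apply]
    ring
  have hperp : ∀ g : (Fin (n + 2) → Fin (3 * (n + 2 - 1) + 1)) → ℝ, RAnti g →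
      (∀ m r, cr m g r = 0) → ∑ k, χ k * (g k : ℂ) = 0 := by
    intro g hga hgc
    let γ : Tens (n + 2) (3 * (n + 2 - 1)) := WithLp.toLp 2 fun k => (g k : ℂ)
    have hγ : Antisym γ := by
      intro σ k
      simp only [γ, hga σ k]
      push_cast; ring
    have hγc : ∀ m r, cc m γ r = 0 := by
      intro m r
      have := congrArg (fun x : ℝ => (x : ℂ)) (hgc m r)
      simpa [cc, cr, γ] using this
    obtain ⟨d, hd⟩ := kernel hγ hγc
    have h3 : ⟪γ, χ⟫_ℂ = 0 := by rw [hd, inner_smul_left, ← hL, hLχ, mul_zero]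
    rw [PiLp.inner_apply] at h3
    simpa [γ] using h3
  have hre := core hQ0 hg hanti.re (fun g hga hgc => by
    have := congrArg Complex.re (hperp g hga hgc)
    simpa [Complex.re_sum] using this)
  have him := core hQ0 hg hanti.im (fun g hga hgc => by
    have := congrArg Complex.im (hperp g hga hgc)
    simpa [Complex.im_sum] using this)
  refine le_trans ?_ (ham_ge hQ2 hψ)
  rw [h1, mul_add]
  refine (add_le_add hre him).trans (le_of_eq ?_)
  rw [← mul_add]
  congr 1
  unfold en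
  rw [← sum_add_distrib]
  refine sum_congr rfl fun m _ => ?_
  rw [← add_div, ← sum_add_distrib]
  congr 1
  refine sum_congr rfl fun r _ => ?_
  rw [hcc, ← cc_re, ← cc_im, Complex.sq_norm, Complex.normSq_apply]
  ring

end Vale.Agent.P359
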