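import Vale.Agent.P359.Mom3

namespace Vale.Agent.P359

open Finset Filter Topology

structure Dat where
  E : ℝ
  g3 : ℕ → ℕ → ℕ → ℕ → ℝ
  g4 : ℕ → ℕ → ℕ → ℕ → ℝ
  d2 : ℕ → ℝ
  d3 : ℕ → ℕ → ℕ → ℕ → ℝ
  d4 : ℕ → ℕ → ℕ → ℕ → ℝ

noncomputable def al (Q m : ℕ) : ℝ := 2 - ((m : ℝ) + 1) / Q

noncomputable def be (Q m : ℕ) : ℝ := 1 - ((m : ℝ) - 1) / Q

noncomputable def Bd (m n m' n' : ℕ) : ℝ :=
  (((n : ℝ) + 2) ^ 4 * 2 ^ m + ((n' : ℝ) + 2) ^ 4 * 2 ^ m') / 2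

structure IsMom (Q : ℕ) (d : Dat) : Prop where
  sym3 : ∀ m n m' n', d.g3 m n m' n' = d.g3 m' n' m n
  sym4 : ∀ m n m' n', d.g4 m n m' n' = d.g4 m' n' m n
  swap4 : ∀ m n m' n', d.g4 m n m' n' = d.g4 n m m' n'
  rel3 : Rel (al Q) (be Q) d.g3
  rel4 : Rel (al Q) (al Q) d.g4
  psd3 : Psd d.g3
  psd4 : Psd d.g4
  box : ∀ n, d.g3 0 n 0 n ≤ wt Q n ^ 2
  obj : objF (nu Q) d.g3 d.g4 - 1 / 100 ≤ d.E
  loc : 0 ≤ locF d.d2 d.d3 d.d4
  b3 : ∀ m n m' n', |d.g3 m n m' n'| ≤ Bd m n m' n'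
  b4 : ∀ m n m' n', |d.g4 m n m' n'| ≤ Bd m n m' n'
  c2 : ∀ m, |d.d2 m - nu Q m| ≤ eps Q * 2 ^ m
  c3 : ∀ m n m' n', |d.d3 m n m' n' - d.g3 m n m' n'| ≤ eps Q * Bd m n m' n'
  c4 : ∀ m n m' n', |d.d4 m n m' n' - d.g4 m n m' n'| ≤ eps Q * Bd m n m' n'

lemma eps_nonneg (Q : ℕ) : 0 ≤ eps Q := sum_nonneg fun _ _ => abs_nonneg _

section
variable {ι : Type*} (Q : ℕ) (K : Finset ι) (u : ι → Fock)

noncomputable def omD (X Y : Op) : ℝ := (tau Q K u)⁻¹ * ∑ k ∈ K, ipD Q (X (u k)) (Y (u k))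

variable {Q K u}

lemma omD_close (hQ : 8 ≤ Q) (hτ : 0 < tau Q K u) (X Y : Op) :
    |omD Q K u X Y - om Q K u X Y / tau Q K u| ≤
      eps Q * ((om Q K u X X / tau Q K u + om Q K u Y Y / tau Q K u) / 2) := by
  have h : |∑ k ∈ K, ipD Q (X (u k)) (Y (u k)) - om Q K u X Y| ≤
      eps Q * ((om Q K u X X + om Q K u Y Y) / 2) := by
    unfold om
    rw [← sum_sub_distrib, ← sum_add_distrib, sum_div, mul_sum]
    exact (abs_sum_le_sum_abs _ _).trans (sum_le_sum fun k _ => ipD_close hQ _ _)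
  rw [omD, inv_mul_eq_div, ← sub_div, abs_div, abs_of_pos hτ]
  refine (div_le_div_of_nonneg_right h hτ.le).trans_eq ?_
  ring

theorem exists_mom (hQ : 21 ≤ Q) (h : Inv Q K u) {E : ℝ} (he : Eig Q K u E) (hE : 0 < E)
    (hp : 0 < om Q K u 1 1) : ∃ d : Dat, d.E = E ∧ IsMom Q d := by
  have hQ0 : 0 < Q := by omega
  have hτ := tau_pos hQ0 h he hE hp
  have a3 : ∀ m, cm (hA Q (m + 1)) (jm Q) = al Q (m + 1) • hA Q m := by
    intro m; rw [cm_hA_jm hQ0, al]; congr 1; push_cast; ring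
  have b3 : ∀ m, cm (hc Q (m + 1)) (jm Q) = be Q (m + 1) • hc Q m := by
    intro m; rw [cm_hc_jm hQ0, be]; congr 1; push_cast; ring
  have p3 : ∀ m n, G3 Q K u m n m n ≤ ((n : ℝ) + 2) ^ 4 * 2 ^ m := by
    intro m n
    refine (G3_diag hQ0 h hτ m n).trans (mul_le_mul ((wt_le_one hQ0 n).trans ?_) (nu_le hQ0 m)
      (nu_nonneg _ _) (by positivity))
    exact one_le_pow₀ (by have : (0 : ℝ) ≤ n := by positivity
                          linarith)
  have p4 : ∀ m n, G4 Q K u m n m n ≤ ((n : ℝ) + 2) ^ 4 * 2 ^ m := fun m n =>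
    (G4_diag hQ0 h hτ m n).trans (mul_le_mul_of_nonneg_left (nu_le hQ0 m) (by positivity))
  refine ⟨⟨E, G3 Q K u, G4 Q K u, fun m => omD Q K u (hA Q m) (hA Q m),
    fun m n m' n' => omD Q K u (hc Q n * hA Q m) (hc Q n' * hA Q m'),
    fun m n m' n' => omD Q K u (hA Q n * hA Q m) (hA Q n' * hA Q m')⟩, rfl, ?_⟩
  constructor
  · intro m n m' n'; simp only [G3]; rw [om_comm]
  · intro m n m' n'; simp only [G4]; rw [om_comm]
  · intro m n m' n'; simp only [G4]; rw [hA_hA Q n m]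
  · exact om_rel h (hA Q) (hc Q) _ _ _ (cm_hA_jp Q) (cm_hA_jm_zero hQ0) a3 (cm_hc_jp Q)
      (cm_hc_jm_zero Q) b3
  · exact om_rel h (hA Q) (hA Q) _ _ _ (cm_hA_jp Q) (cm_hA_jm_zero hQ0) a3 (cm_hA_jp Q)
      (cm_hA_jm_zero hQ0) a3
  · exact om_psd (fun m n => hc Q n * hA Q m) hτ
  · exact om_psd (fun m n => hA Q n * hA Q m) hτ
  · intro n
    have := G3_diag hQ0 h hτ 0 n
    rwa [nu_zero, mul_one] at this
  · exact energy_ge hQ h he hτ
  · simp only [omD]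
    rw [locF_mul, locF_sum]
    exact mul_nonneg (inv_nonneg.2 hτ.le) (sum_nonneg fun k _ => local_vec Q (u k))
  · intro m n m' n'
    refine (G3_abs hτ m n m' n' one_pos).trans ?_
    have := p3 m n
    have := p3 m' n'
    unfold Bd; linarith
  · intro m n m' n'
    refine (G4_abs hτ m n m' n').trans ?_
    have := p4 m n
    have := p4 m' n'
    unfold Bd; linarith
  · intro m
    have h1 := omD_close (by omega) hτ (hA Q m) (hA Q m)
    have h2 : om Q K u (hA Q m) (hA Q m) / tau Q K u = nu Q m := by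
      rw [om_hA hQ0 h, ← tau, mul_div_cancel_right₀ _ hτ.ne']
    rw [h2] at h1
    refine h1.trans (mul_le_mul_of_nonneg_left ?_ (eps_nonneg Q))
    have := nu_le hQ0 m
    linarith
  · intro m n m' n'
    refine (omD_close (by omega) hτ _ _).trans (mul_le_mul_of_nonneg_left ?_ (eps_nonneg Q))
    have h1 := p3 m n
    have h2 := p3 m' n'
    unfold G3 at h1 h2
    unfold Bd; linarith
  · intro m n m' n'
    refine (omD_close (by omega) hτ _ _).trans (mul_le_mul_of_nonneg_left ?_ (eps_nonneg Q))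
    have h1 := p4 m n
    have h2 := p4 m' n'
    unfold G4 at h1 h2
    unfold Bd; linarith

end

lemma tend_div (c : ℝ) : Tendsto (fun Q : ℕ => c / (Q : ℝ)) atTop (𝓝 0) :=
  tendsto_const_div_atTop_nhds_zero_nat c

lemma tend_nu (M : ℕ) : Tendsto (fun Q => nu Q M) atTop (𝓝 ((2 : ℝ) ^ M / M.factorial)) := by
  induction M with
  | zero => simp [nu_zero]
  | succ M ih =>
    have h := (((tend_div ((M : ℝ) + 2)).const_sub 2).mul ih).div_const ((M : ℝ) + 1)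
    have h3 : ((M : ℝ) + 1) ≠ 0 := by positivity
    have e : (2 - 0) * ((2 : ℝ) ^ M / M.factorial) / ((M : ℝ) + 1) =
        (2 : ℝ) ^ (M + 1) / (M + 1).factorial := by
      rw [Nat.factorial_succ, pow_succ]; push_cast; field_simp; ring
    rw [e] at h
    refine h.congr' ?_
    filter_upwards [eventually_gt_atTop 0] with Q hQ
    rw [← nu_succ hQ, mul_div_cancel_left₀ _ h3]

lemma tend_wt (M : ℕ) : Tendsto (fun Q => wt Q M ^ 2) atTop (𝓝 (1 / M.factorial)) := by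
  induction M with
  | zero => simp [wt_zero]
  | succ M ih =>
    have h := (((tend_div (M : ℝ)).const_sub 1).mul ih).div_const ((M : ℝ) + 1)
    have h3 : ((M : ℝ) + 1) ≠ 0 := by positivity
    have e : (1 - 0) * ((1 : ℝ) / M.factorial) / ((M : ℝ) + 1) = 1 / (M + 1).factorial := by
      rw [Nat.factorial_succ]; push_cast; field_simp; ring
    rw [e] at h
    refine h.congr' ?_
    filter_upwards [eventually_gt_atTop 0] with Q hQ
    rw [← wt_succ_sq hQ, mul_div_cancel_left₀ _ h3]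

lemma tend_eps : Tendsto eps atTop (𝓝 0) := by
  have h : ∀ R ∈ (range 9).powerset, Tendsto (fun Q => |WF R * (∏ i ∈ R, wt Q i) ^ 2 - 1|)
      atTop (𝓝 0) := by
    intro R _
    have h1 := ((tendsto_finsetProd R (fun i _ => tend_wt i)).const_mul (WF R)).sub_const 1
    have e : WF R * ∏ i ∈ R, (1 / (i.factorial : ℝ)) - 1 = 0 := by
      rw [WF, ← prod_mul_distrib, prod_eq_one, sub_self]
      intro i _
      have : (i.factorial : ℝ) ≠ 0 := by positivity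
      field_simp
    rw [e] at h1
    simpa only [prod_pow, abs_zero] using h1.abs
  have := tendsto_finsetSum _ h
  rw [sum_const_zero] at this
  exact this

lemma exists_lim (U : Ultrafilter ℕ) (f : ℕ → ℝ) (B : ℝ) (h : ∀ᶠ Q in (U : Filter ℕ), |f Q| ≤ B) :
    ∃ l, Tendsto f U (𝓝 l) := by
  obtain ⟨l, _, hl⟩ := (isCompact_Icc (a := -B) (b := B)).ultrafilter_le_nhds (U.map f)
    (le_principal_iff.2 (mem_map.2 (h.mono fun Q hQ => abs_le.1 hQ)))
  exact ⟨l, hl⟩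

lemma tend_close {F : Filter ℕ} (hF : F ≤ atTop) {f g : ℕ → ℝ} {l B : ℝ} (hg : Tendsto g F (𝓝 l))
    (h : ∀ᶠ Q in F, |f Q - g Q| ≤ eps Q * B) : Tendsto f F (𝓝 l) := by
  have h0 : Tendsto (fun Q => eps Q * B) F (𝓝 0) := by
    simpa using (tend_eps.mono_left hF).mul_const B
  have h1 : Tendsto (fun Q => f Q - g Q) F (𝓝 0) :=
    squeeze_zero_norm' (h.mono fun Q hQ => by simpa using hQ) h0
  simpa using h1.add hg

lemma rel_lim {F : Filter ℕ} [F.NeBot] {α β : ℕ → ℕ → ℝ} {a b : ℝ}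
    {G : ℕ → ℕ → ℕ → ℕ → ℕ → ℝ} {L : ℕ → ℕ → ℕ → ℕ → ℝ}
    (hα : ∀ m, Tendsto (fun Q => α Q m) F (𝓝 a)) (hβ : ∀ m, Tendsto (fun Q => β Q m) F (𝓝 b))
    (hG : ∀ m n m' n', Tendsto (fun Q => G Q m n m' n') F (𝓝 (L m n m' n')))
    (h : ∀ᶠ Q in F, Rel (α Q) (β Q) (G Q)) : Rel (fun _ => a) (fun _ => b) L := by
  intro m n m' n'
  refine tendsto_nhds_unique_of_eventuallyEq
    (((hG m n (m' + 1) n').const_mul _).add ((hG m n m' (n' + 1)).const_mul _)) ?_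
    (h.mono fun Q hQ => hQ m n m' n')
  apply Tendsto.add
  · split_ifs
    · exact tendsto_const_nhds
    · exact (hα m).mul (hG _ _ _ _)
  · split_ifs
    · exact tendsto_const_nhds
    · exact (hβ n).mul (hG _ _ _ _)

lemma psd_lim {F : Filter ℕ} [F.NeBot] {G : ℕ → ℕ → ℕ → ℕ → ℕ → ℝ} {L : ℕ → ℕ → ℕ → ℕ → ℝ}
    (hG : ∀ m n m' n', Tendsto (fun Q => G Q m n m' n') F (𝓝 (L m n m' n')))
    (h : ∀ᶠ Q in F, Psd (G Q)) : Psd L := by
  intro r s
  exact ge_of_tendsto (tendsto_finsetSum _ fun m _ => tendsto_finsetSum _ fun m' _ =>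
    (hG _ _ _ _).const_mul _) (h.mono fun Q hQ => hQ r s)

theorem mom_gap : ∀ᶠ Q in atTop, ∀ d : Dat, IsMom Q d → 0 < d.E → 1 / 100 ≤ d.E := by
  by_contra hc
  have hfr : ∃ᶠ Q in atTop, ∃ d : Dat, IsMom Q d ∧ 0 < d.E ∧ d.E < 1 / 100 := by
    refine (not_eventually.1 hc).mono fun Q hQ => ?_
    push Not at hQ
    exact hQ
  classical
  have hch : ∀ Q, ∃ d : Dat, (∃ d : Dat, IsMom Q d ∧ 0 < d.E ∧ d.E < 1 / 100) →
      IsMom Q d ∧ 0 < d.E ∧ d.E < 1 / 100 := by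
    intro Q
    by_cases h : ∃ d : Dat, IsMom Q d ∧ 0 < d.E ∧ d.E < 1 / 100
    · exact ⟨h.choose, fun _ => h.choose_spec⟩
    · exact ⟨⟨0, 0, 0, 0, 0, 0⟩, fun h' => absurd h' h⟩
  choose d hd using hch
  have := frequently_iff_neBot.1 hfr
  obtain ⟨U, hU⟩ := Ultrafilter.exists_le
    (atTop ⊓ 𝓟 {Q | ∃ d : Dat, IsMom Q d ∧ 0 < d.E ∧ d.E < 1 / 100})
  have hU1 : (U : Filter ℕ) ≤ atTop := hU.trans inf_le_left
  have hU2 : ∀ᶠ Q in (U : Filter ℕ), IsMom Q (d Q) ∧ 0 < (d Q).E ∧ (d Q).E < 1 / 100 :=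
    Filter.Eventually.mono (p := fun Q => ∃ d : Dat, IsMom Q d ∧ 0 < d.E ∧ d.E < 1 / 100)
      (le_principal_iff.1 (hU.trans inf_le_right)) hd
  choose L3 h3 using fun m n m' n' => exists_lim U (fun Q => (d Q).g3 m n m' n') _
    (hU2.mono fun Q hQ => hQ.1.b3 m n m' n')
  choose L4 h4 using fun m n m' n' => exists_lim U (fun Q => (d Q).g4 m n m' n') _
    (hU2.mono fun Q hQ => hQ.1.b4 m n m' n')
  have hal : ∀ m, Tendsto (fun Q => al Q m) U (𝓝 2) := fun m => by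
    simpa [al] using ((tend_div ((m : ℝ) + 1)).const_sub 2).mono_left hU1
  have hbe : ∀ m, Tendsto (fun Q => be Q m) U (𝓝 1) := fun m => by
    simpa [be] using ((tend_div ((m : ℝ) - 1)).const_sub 1).mono_left hU1
  have hnu : ∀ m, Tendsto (fun Q => nu Q m) U (𝓝 ((2 : ℝ) ^ m / m.factorial)) := fun m =>
    (tend_nu m).mono_left hU1
  have key := plane (1 / 100) L3 L4
    (fun m n m' n' => tendsto_nhds_unique_of_eventuallyEq (h3 _ _ _ _) (h3 _ _ _ _)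
      (hU2.mono fun Q hQ => hQ.1.sym3 m n m' n'))
    (fun m n m' n' => tendsto_nhds_unique_of_eventuallyEq (h4 _ _ _ _) (h4 _ _ _ _)
      (hU2.mono fun Q hQ => hQ.1.sym4 m n m' n'))
    (fun m n m' n' => tendsto_nhds_unique_of_eventuallyEq (h4 _ _ _ _) (h4 _ _ _ _)
      (hU2.mono fun Q hQ => hQ.1.swap4 m n m' n'))
    (rel_lim hal hbe h3 (hU2.mono fun Q hQ => hQ.1.rel3))
    (rel_lim hal hal h4 (hU2.mono fun Q hQ => hQ.1.rel4))
    (psd_lim h3 (hU2.mono fun Q hQ => hQ.1.psd3)) (psd_lim h4 (hU2.mono fun Q hQ => hQ.1.psd4))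
    (fun n => by
      have := le_of_tendsto_of_tendsto (h3 0 n 0 n) ((tend_wt n).mono_left hU1)
        (hU2.mono fun Q hQ => hQ.1.box n)
      have hn : (0 : ℝ) < n.factorial := by positivity
      rwa [le_div_iff₀' hn] at this)
    (by
      have hi : ∀ M, Tendsto (fun Q => (nu Q M)⁻¹) U (𝓝 ((2 : ℝ) ^ M / M.factorial)⁻¹) :=
        fun M => (hnu M).inv₀ (by positivity)
      have ht : Tendsto (fun Q => objF (nu Q) (d Q).g3 (d Q).g4 - 1 / 100) U
          (𝓝 (objF (fun M => (2 : ℝ) ^ M / M.factorial) L3 L4 - 1 / 100)) := by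
        unfold objF
        refine Tendsto.sub_const (Tendsto.add (Tendsto.const_add _ ?_) ?_) _
        · exact tendsto_finsetSum _ fun M _ => (hi M).mul
            (((h3 _ _ _ _).const_mul _).add ((h3 _ _ _ _).const_mul _))
        · exact tendsto_finsetSum _ fun M _ => (hi M).mul (h4 _ _ _ _)
      exact le_of_tendsto ht (hU2.mono fun Q hQ => hQ.1.obj.trans hQ.2.2.le))
    (by
      have k2 : ∀ m, Tendsto (fun Q => (d Q).d2 m) U (𝓝 ((2 : ℝ) ^ m / m.factorial)) := fun m =>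
        tend_close hU1 (hnu m) (hU2.mono fun Q hQ => hQ.1.c2 m)
      have k3 : ∀ m n m' n', Tendsto (fun Q => (d Q).d3 m n m' n') U (𝓝 (L3 m n m' n')) :=
        fun m n m' n' => tend_close hU1 (h3 m n m' n') (hU2.mono fun Q hQ => hQ.1.c3 m n m' n')
      have k4 : ∀ m n m' n', Tendsto (fun Q => (d Q).d4 m n m' n') U (𝓝 (L4 m n m' n')) :=
        fun m n m' n' => tend_close hU1 (h4 m n m' n') (hU2.mono fun Q hQ => hQ.1.c4 m n m' n')
      have ht : Tendsto (fun Q => locF (d Q).d2 (d Q).d3 (d Q).d4) U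
          (𝓝 (locF (fun M => (2 : ℝ) ^ M / M.factorial) L3 L4)) := by
        unfold locF
        refine Tendsto.add ?_ (Tendsto.add ?_ ?_)
        · exact tendsto_finsetSum _ fun M _ => (k2 M).const_mul _
        · exact tendsto_finsetSum _ fun s _ => entF_tendsto _ _ _ _ _ fun m _ m' _ => k3 _ _ _ _
        · exact tendsto_finsetSum _ fun s _ => entF_tendsto _ _ _ _ _ fun m _ m' _ => k4 _ _ _ _
      exact ge_of_tendsto ht (hU2.mono fun Q hQ => hQ.1.loc))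
  norm_num at key

end Vale.Agent.P359
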