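import Vale.Agent.P359.Plane2

namespace Vale.Agent.P359

open Finset Polynomial

lemma fac_eq' : ∀ n, fac n = n.factorial
  | 0 => rfl
  | n + 1 => by rw [fac, fac_eq' n, Nat.factorial_succ]

noncomputable def L3 (s : ℕ) (G : ℕ → ℕ → ℝ) : ℝ :=
  (if 1 ≤ s then -(100000 * ((s : ℝ) * ((s - 1).factorial : ℝ))) / 2 ^ (s - 1) * G 0 (s - 1)
    else 0) +
  (if s ≤ 31 then (100000 * (s.factorial : ℝ) * ((s : ℝ) - 1)) / 2 ^ s * G 0 s else 0) +
  ((muN s : ℝ) * (s.factorial : ℝ) * G 0 0 -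
    (if s < 16 then entF (lab3 s) G (datY.getD s []) (lab3 s) else 0))

noncomputable def L4 (s : ℕ) (G : ℕ → ℕ → ℝ) : ℝ :=
  (100000 * (s.factorial : ℝ)) / 2 ^ s * G 0 0 -
    (if s < 15 then entF (lab4 s) G (datQ.getD s []) (lab4 s) else 0)

lemma lv3_cast (s : ℕ) (P : List ℤ) :
    (lv3 s P : ℝ) = L3 s (fun m m' => (P.getD m 0 : ℝ) * (P.getD m' 0 : ℝ)) := by
  unfold lv3 L3
  rw [← entZ_cast, fac_eq', fac_eq']
  split_ifs <;> push_cast <;> ring

lemma lv4_cast (s : ℕ) (P : List ℤ) :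
    (lv4 s P : ℝ) = L4 s (fun m m' => (P.getD m 0 : ℝ) * (P.getD m' 0 : ℝ)) := by
  unfold lv4 L4
  rw [← entZ_cast, fac_eq']
  split_ifs <;> push_cast <;> ring

lemma L3_sum (s : ℕ) (S : Finset ℕ) (c : ℕ → ℝ) (t : ℕ → ℕ → ℕ → ℝ) :
    L3 s (fun m m' => ∑ l ∈ S, c l * t l m m') = ∑ l ∈ S, c l * L3 s (t l) := by
  classical
  induction S using Finset.induction_on with
  | empty =>
    have := entF_mul 0 (lab3 s) (fun _ _ => 0) (datY.getD s []) (lab3 s)
    simp only [mul_zero, zero_mul] at this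
    simp only [L3, sum_empty, this]
    simp
  | insert a S ha ih =>
    simp only [sum_insert ha]
    rw [← ih]
    unfold L3
    rw [entF_add, entF_mul]
    split_ifs <;> ring

lemma L4_sum (s : ℕ) (S : Finset ℕ) (c : ℕ → ℝ) (t : ℕ → ℕ → ℕ → ℝ) :
    L4 s (fun m m' => ∑ l ∈ S, c l * t l m m') = ∑ l ∈ S, c l * L4 s (t l) := by
  classical
  induction S using Finset.induction_on with
  | empty =>
    have := entF_mul 0 (lab4 s) (fun _ _ => 0) (datQ.getD s []) (lab4 s)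
    simp only [mul_zero, zero_mul] at this
    simp only [L4, sum_empty, this]
    simp
  | insert a S ha ih =>
    simp only [sum_insert ha]
    rw [← ih]
    unfold L4
    rw [entF_add, entF_mul]
    split_ifs <;> ring

lemma lab3_le (s m : ℕ) (h : m ∈ lab3 s) : m ≤ s ∧ m < 8 ∧ s - m ≤ 8 := by
  simp only [lab3, List.mem_filter, List.mem_range, Bool.and_eq_true, Nat.ble_eq] at h
  omega

lemma lab4_le (s m : ℕ) (h : m ∈ lab4 s) : m ≤ s ∧ m < 8 ∧ s - m ≤ 7 := by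
  simp only [lab4, List.mem_filter, List.mem_range, Bool.and_eq_true, Nat.ble_eq] at h
  omega

lemma L3_congr (s : ℕ) (G G' : ℕ → ℕ → ℝ) (h : ∀ m ≤ s, ∀ m' ≤ s, G m m' = G' m m') :
    L3 s G = L3 s G' := by
  unfold L3
  rw [h 0 (by omega) (s - 1) (by omega), h 0 (by omega) s le_rfl, h 0 (by omega) 0 (by omega),
    entF_congr _ G G' _ _ (fun m hm m' hm' => h m (lab3_le s m hm).1 m' (lab3_le s m' hm').1)]

lemma L4_congr (s : ℕ) (G G' : ℕ → ℕ → ℝ) (h : ∀ m ≤ s, ∀ m' ≤ s, G m m' = G' m m') :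
    L4 s G = L4 s G' := by
  unfold L4
  rw [h 0 (by omega) 0 (by omega),
    entF_congr _ G G' _ _ (fun m hm m' hm' => h m (lab4_le s m hm).1 m' (lab4_le s m' hm').1)]

lemma sum_tri (n : ℕ) (F : ℕ → ℕ → ℝ) :
    ∑ s ∈ range n, ∑ l ∈ range (s + 1), F s l =
      ∑ l ∈ range n, ∑ s ∈ range n, if l ≤ s then F s l else 0 := by
  rw [sum_comm]
  apply sum_congr rfl
  intro s hs
  rw [← sum_filter]
  apply sum_congr _ (fun _ _ => rfl)
  ext l
  have := mem_range.1 hs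
  simp only [mem_range, mem_filter]; omega

lemma cfQ_cast3 (k : ℕ) : (cfQ 3 k : ℝ) = cf 2 1 k := by
  unfold cfQ cf
  rw [fac_eq']; push_cast
  rw [one_div_pow]; norm_num [div_eq_mul_inv, mul_comm]

lemma cfQ_cast4 (k : ℕ) : (cfQ 4 k : ℝ) = cf 2 2 k := by
  unfold cfQ cf
  rw [fac_eq']; push_cast
  rw [one_div_pow]; norm_num [div_eq_mul_inv, mul_comm]

lemma L3_total (g : ℕ → ℝ) (hg : ∀ l, 0 ≤ g l) : 0 ≤ ∑ s ∈ range 33, L3 s (Tm 2 1 g s) := by
  have e : ∀ s, L3 s (Tm 2 1 g s) = ∑ l ∈ range (s + 1),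
      g l * ((cfQ 3 (s - l) * lv3 s (pl 2 1 l (s - l)) : ℚ) : ℝ) := by
    intro s
    have := L3_sum s (range (s + 1)) (fun l => g l * cf 2 1 (s - l))
      (fun l m m' => (Pp 2 1 l (s - l)).coeff m * (Pp 2 1 l (s - l)).coeff m')
    refine Eq.trans this (sum_congr rfl fun l _ => ?_)
    push_cast
    rw [cfQ_cast3, lv3_cast]
    simp only [pl_coeff]
    push_cast; ring
  rw [sum_congr rfl fun s _ => e s, sum_tri]
  apply sum_nonneg
  intro l hl
  have h := lp3_nonneg l (mem_range.1 hl)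
  have h' : (0 : ℝ) ≤ (lp3 l : ℝ) := by exact_mod_cast h
  have := mul_nonneg (hg l) h'
  rw [lp3, Rat.cast_sum, mul_sum] at this
  refine this.trans_eq (sum_congr rfl fun s _ => ?_)
  split_ifs <;> simp

lemma L4_total (g : ℕ → ℝ) (hg : ∀ l, 0 ≤ g l) (ho : ∀ l, g (2 * l + 1) = 0) :
    0 ≤ ∑ s ∈ range 41, L4 s (Tm 2 2 g s) := by
  have e : ∀ s, L4 s (Tm 2 2 g s) = ∑ l ∈ range (s + 1),
      g l * ((cfQ 4 (s - l) * lv4 s (pl 2 2 l (s - l)) : ℚ) : ℝ) := by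
    intro s
    have := L4_sum s (range (s + 1)) (fun l => g l * cf 2 2 (s - l))
      (fun l m m' => (Pp 2 2 l (s - l)).coeff m * (Pp 2 2 l (s - l)).coeff m')
    refine Eq.trans this (sum_congr rfl fun l _ => ?_)
    push_cast
    rw [cfQ_cast4, lv4_cast]
    simp only [pl_coeff]
    push_cast; ring
  rw [sum_congr rfl fun s _ => e s, sum_tri]
  apply sum_nonneg
  intro l hl
  obtain ⟨j, hj | hj⟩ := Nat.even_or_odd' l
  · have hl' := mem_range.1 hl
    have h := lp4_nonneg j (by omega)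
    rw [← hj] at h
    have h' : (0 : ℝ) ≤ (lp4 l : ℝ) := by exact_mod_cast h
    have := mul_nonneg (hg l) h'
    rw [lp4, Rat.cast_sum, mul_sum] at this
    refine this.trans_eq (sum_congr rfl fun s _ => ?_)
    split_ifs <;> simp
  · rw [hj, ho]; simp

lemma gco_odd (G : ℕ → ℕ → ℕ → ℕ → ℝ) (swap : ∀ m n m' n', G m n m' n' = G n m m' n') (j : ℕ) :
    gco 2 2 G (2 * j + 1) = 0 := by
  unfold gco
  set l := 2 * j + 1 with hl
  have key : ∀ m', ∑ m ∈ range (l + 1), (-2 / 2 : ℝ) ^ m * G m (l - m) m' (l - m') = 0 := by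
    intro m'
    have h := sum_range_reflect (fun m => (-2 / 2 : ℝ) ^ m * G m (l - m) m' (l - m')) (l + 1)
    have h2 : ∑ m ∈ range (l + 1), (-2 / 2 : ℝ) ^ (l + 1 - 1 - m) *
        G (l + 1 - 1 - m) (l - (l + 1 - 1 - m)) m' (l - m') =
        - ∑ m ∈ range (l + 1), (-2 / 2 : ℝ) ^ m * G m (l - m) m' (l - m') := by
      rw [← sum_neg_distrib]
      apply sum_congr rfl
      intro m hm
      have hm' : m ≤ l := by simpa [Nat.lt_succ_iff] using hm
      rw [show l + 1 - 1 - m = l - m by omega, show l - (l - m) = m by omega, swap (l - m) m]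
      have e1 : (-2 / 2 : ℝ) = -1 := by norm_num
      have e2 : (-1 : ℝ) ^ (l - m) * (-1) ^ m = -1 := by
        rw [← pow_add, show l - m + m = 2 * j + 1 by omega, pow_succ, pow_mul]; norm_num
      have e3 : (-1 : ℝ) ^ m * (-1) ^ m = 1 := by rw [← mul_pow]; norm_num
      rw [e1]
      have e4 : (-1 : ℝ) ^ (l - m) = -(-1) ^ m := by
        calc (-1 : ℝ) ^ (l - m) = (-1) ^ (l - m) * ((-1) ^ m * (-1) ^ m) := by rw [e3, mul_one]
          _ = -(-1) ^ m := by rw [← mul_assoc, e2]; ring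
      rw [e4]; ring
    linarith
  rw [sum_comm, sum_eq_zero, zero_div]
  intro m' _
  have := congrArg (fun x => (-2 / 2 : ℝ) ^ m' * x) (key m')
  simp only [mul_sum, mul_zero] at this
  rw [← this]
  exact sum_congr rfl fun m _ => by ring

def Rel (α β : ℕ → ℝ) (G : ℕ → ℕ → ℕ → ℕ → ℝ) : Prop :=
  ∀ m n m' n' : ℕ, ((m' : ℝ) + 1) * G m n (m' + 1) n' + ((n' : ℝ) + 1) * G m n m' (n' + 1) =
    (if m = 0 then 0 else α m * G (m - 1) n m' n') + (if n = 0 then 0 else β n * G m (n - 1) m' n')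

def Psd (G : ℕ → ℕ → ℕ → ℕ → ℝ) : Prop :=
  ∀ (r : ℝ) (s : ℕ), 0 ≤ ∑ m ∈ range (s + 1), ∑ m' ∈ range (s + 1),
    r ^ m * r ^ m' * G m (s - m) m' (s - m')

noncomputable def objF (ν : ℕ → ℝ) (G3 G4 : ℕ → ℕ → ℕ → ℕ → ℝ) : ℝ :=
  1 + ∑ M ∈ range 32, (ν M)⁻¹ * (-((M : ℝ) + 1) * G3 0 (M + 1) M 1 + ((M : ℝ) - 1) * G3 0 M M 0) +
    ∑ M ∈ range 41, (ν M)⁻¹ * G4 0 M 0 M

noncomputable def locF (G2 : ℕ → ℝ) (G3 G4 : ℕ → ℕ → ℕ → ℕ → ℝ) : ℝ :=
  ∑ m ∈ range 8, (datA.getD m 0 : ℝ) * G2 m +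
    (∑ s ∈ range 16, entF (lab3 s) (fun m m' => G3 m (s - m) m' (s - m')) (datY.getD s []) (lab3 s) +
    ∑ s ∈ range 15, entF (lab4 s) (fun m m' => G4 m (s - m) m' (s - m')) (datQ.getD s []) (lab4 s))

lemma sum_ite_lt (n k : ℕ) (h : k ≤ n) (f : ℕ → ℝ) :
    ∑ s ∈ range n, (if s < k then f s else 0) = ∑ s ∈ range k, f s := by
  rw [← sum_filter]
  apply sum_congr _ (fun _ _ => rfl)
  ext l
  simp only [mem_range, mem_filter]; omega

lemma L3_expand (G3 : ℕ → ℕ → ℕ → ℕ → ℝ) :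
    ∑ s ∈ range 33, L3 s (fun m m' => G3 m (s - m) m' (s - m')) =
      100000 * ∑ M ∈ range 32, ((2 : ℝ) ^ M / M.factorial)⁻¹ *
        (-((M : ℝ) + 1) * G3 0 (M + 1) M 1 + ((M : ℝ) - 1) * G3 0 M M 0) +
      ∑ s ∈ range 33, (muN s : ℝ) * ((s.factorial : ℝ) * G3 0 s 0 s) -
      ∑ s ∈ range 16, entF (lab3 s) (fun m m' => G3 m (s - m) m' (s - m'))
        (datY.getD s []) (lab3 s) := by
  unfold L3
  rw [sum_add_distrib, sum_add_distrib, sum_sub_distrib, sum_ite_lt 33 16 (by norm_num),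
    sum_range_succ' _ 32]
  simp only [← Nat.lt_succ_iff (n := 31)]
  rw [sum_ite_lt 33 32 (by norm_num), if_neg (by norm_num), add_zero, ← sum_add_distrib, mul_sum,
    add_sub_assoc]
  congr 1
  · apply sum_congr rfl
    intro M _
    rw [if_pos (by omega)]
    simp only [Nat.add_sub_cancel, Nat.sub_zero, Nat.sub_self, Nat.add_sub_cancel_left]
    have : (M.factorial : ℝ) ≠ 0 := by positivity
    push_cast
    field_simp
  · congr 1
    exact sum_congr rfl fun s _ => by simp only [Nat.sub_zero]; ring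

lemma L4_expand (G4 : ℕ → ℕ → ℕ → ℕ → ℝ) :
    ∑ s ∈ range 41, L4 s (fun m m' => G4 m (s - m) m' (s - m')) =
      100000 * ∑ M ∈ range 41, ((2 : ℝ) ^ M / M.factorial)⁻¹ * G4 0 M 0 M -
      ∑ s ∈ range 15, entF (lab4 s) (fun m m' => G4 m (s - m) m' (s - m'))
        (datQ.getD s []) (lab4 s) := by
  unfold L4
  rw [sum_sub_distrib, sum_ite_lt 41 15 (by norm_num), mul_sum]
  congr 1
  apply sum_congr rfl
  intro M _
  have : (M.factorial : ℝ) ≠ 0 := by positivity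
  simp only [Nat.sub_zero]
  field_simp

lemma datA_sum : ∑ m ∈ range 8, (datA.getD m 0 : ℝ) * ((2 : ℝ) ^ m / m.factorial) ≤ 94900 := by
  simp only [sum_range_succ, datA, Nat.factorial]
  norm_num

lemma muN_sum : ∑ s ∈ range 33, (muN s : ℝ) = 486 := by
  have : ∑ s ∈ range 33, muN s = 486 := by decide +kernel
  exact_mod_cast this

theorem plane (E : ℝ) (G3 G4 : ℕ → ℕ → ℕ → ℕ → ℝ)
    (sym3 : ∀ m n m' n', G3 m n m' n' = G3 m' n' m n)
    (sym4 : ∀ m n m' n', G4 m n m' n' = G4 m' n' m n)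
    (swap4 : ∀ m n m' n', G4 m n m' n' = G4 n m m' n')
    (rel3 : Rel (fun _ => 2) (fun _ => 1) G3) (rel4 : Rel (fun _ => 2) (fun _ => 2) G4)
    (psd3 : Psd G3) (psd4 : Psd G4)
    (box : ∀ n : ℕ, (n.factorial : ℝ) * G3 0 n 0 n ≤ 1)
    (obj : objF (fun M => (2 : ℝ) ^ M / M.factorial) G3 G4 - 1 / 100 ≤ E)
    (loc : 0 ≤ locF (fun m => (2 : ℝ) ^ m / m.factorial) G3 G4) : 1 / 50 ≤ E := by
  have s3 := structure_thm 2 1 (by norm_num) (by norm_num) G3 sym3 rel3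
  have s4 := structure_thm 2 2 (by norm_num) (by norm_num) G4 sym4 rel4
  have t3 := L3_total (gco 2 1 G3) (fun l => div_nonneg (psd3 _ l) (sq_nonneg _))
  have t4 := L4_total (gco 2 2 G4) (fun l => div_nonneg (psd4 _ l) (sq_nonneg _))
    (gco_odd G4 swap4)
  rw [← sum_congr rfl fun s _ => L3_congr s _ _ (s3 s), L3_expand] at t3
  rw [← sum_congr rfl fun s _ => L4_congr s _ _ (s4 s), L4_expand] at t4
  have hb : ∑ s ∈ range 33, (muN s : ℝ) * ((s.factorial : ℝ) * G3 0 s 0 s) ≤ 486 := by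
    rw [← muN_sum]
    apply sum_le_sum
    intro s _
    have := mul_le_mul_of_nonneg_left (box s) (Nat.cast_nonneg (α := ℝ) (muN s))
    simpa using this
  have ha := datA_sum
  unfold objF at obj
  unfold locF at loc
  linarith

end Vale.Agent.P359
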