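import Vale.Agent.P359.Alg2
import Vale.Agent.P359.Plane3

namespace Vale.Agent.P359

open Finset

noncomputable def Bf (Q : ℕ) (x y : Fock) : ℝ :=
  ∑ M ∈ range (2 * Q - 1), ip Q (hA Q M x) (hA Q M y) / nu Q M

lemma ip_jm (Q : ℕ) (x y : Fock) : ip Q (jm Q x) y = ip Q x (jp Q y) := by
  simp only [jm, jp, LinearMap.sum_apply, LinearMap.smul_apply, ip_sum_left, ip_sum_right,
    ip_smul_left, ip_smul_right, Module.End.mul_apply]
  apply sum_congr rfl
  intro a ha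
  have := mem_range.1 ha
  rw [ip_cre (by omega), ip_comm Q x, ip_cre (by omega), ip_comm]

lemma nu_zero (Q : ℕ) : nu Q 0 = 1 := by simp [nu]

lemma nu_succ {Q : ℕ} (hQ : 0 < Q) (M : ℕ) :
    ((M : ℝ) + 1) * nu Q (M + 1) = (2 - ((M : ℝ) + 2) / Q) * nu Q M := by
  have h := choose_succ_real (2 * Q - 2) M
  rw [Nat.cast_sub (by omega)] at h
  have : (Q : ℝ) ≠ 0 := by positivity
  unfold nu
  rw [pow_succ]
  push_cast at h
  field_simp
  linear_combination h

lemma nu_pos {Q M : ℕ} (hQ : 0 < Q) (h : M < 2 * Q - 1) : 0 < nu Q M := by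
  have : 0 < (2 * Q - 2).choose M := Nat.choose_pos (by omega)
  unfold nu; positivity

lemma nu_nonneg (Q M : ℕ) : 0 ≤ nu Q M := by unfold nu; positivity

lemma apply_cm (X J : Op) (x : Fock) : X (J x) = J (X x) + cm X J x := by
  simp [cm]

lemma Bf_inv {Q : ℕ} (hQ : 0 < Q) (x y : Fock) : Bf Q (jm Q x) y = Bf Q x (jp Q y) := by
  unfold Bf
  simp only [apply_cm _ (jm Q), apply_cm _ (jp Q), ip_add_left, ip_add_right, ip_jm, add_div,
    sum_add_distrib, cm_hA_jp]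
  congr 1
  obtain ⟨n, hn⟩ : ∃ n, 2 * Q - 1 = n + 1 := ⟨2 * Q - 2, by omega⟩
  rw [hn, sum_range_succ', sum_range_succ, cm_hA_jm_zero hQ, hA_big (m := n + 1) hn.le]
  simp only [LinearMap.zero_apply, ip_zero_left, smul_zero, ip_zero_right, zero_div, add_zero,
    cm_hA_jm hQ, LinearMap.smul_apply, ip_smul_left, ip_smul_right]
  apply sum_congr rfl
  intro M hM
  have := mem_range.1 hM
  have h1 := nu_pos hQ (M := M) (by omega)
  have h2 := nu_pos hQ (M := M + 1) (by omega)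
  rw [div_eq_div_iff h2.ne' h1.ne']
  linear_combination (-ip Q (hA Q M x) (hA Q (M + 1) y)) * nu_succ hQ M

section
variable {ι : Type*} (Q : ℕ) (K : Finset ι) (u : ι → Fock)

noncomputable def om (X Y : Op) : ℝ := ∑ k ∈ K, ip Q (X (u k)) (Y (u k))

lemma om_comm (X Y : Op) : om Q K u X Y = om Q K u Y X :=
  sum_congr rfl fun _ _ => ip_comm _ _ _

lemma om_add_left (X Y Z : Op) : om Q K u (X + Y) Z = om Q K u X Z + om Q K u Y Z := by
  simp [om, ip_add_left, sum_add_distrib]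

lemma om_add_right (X Y Z : Op) : om Q K u Z (X + Y) = om Q K u Z X + om Q K u Z Y := by
  simp [om, ip_add_right, sum_add_distrib]

lemma om_sub_left (X Y Z : Op) : om Q K u (X - Y) Z = om Q K u X Z - om Q K u Y Z := by
  simp [om, ip_sub_left, sum_sub_distrib]

lemma om_sub_right (X Y Z : Op) : om Q K u Z (X - Y) = om Q K u Z X - om Q K u Z Y := by
  simp [om, ip_sub_right, sum_sub_distrib]

lemma om_smul_left (c : ℝ) (X Z : Op) : om Q K u (c • X) Z = c * om Q K u X Z := by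
  simp [om, ip_smul_left, mul_sum]

lemma om_smul_right (c : ℝ) (X Z : Op) : om Q K u Z (c • X) = c * om Q K u Z X := by
  simp [om, ip_smul_right, mul_sum]

lemma om_zero_left (Z : Op) : om Q K u 0 Z = 0 := by simp [om, ip_zero_left]

lemma om_sum_left {σ : Type*} (s : Finset σ) (X : σ → Op) (Z : Op) :
    om Q K u (∑ i ∈ s, X i) Z = ∑ i ∈ s, om Q K u (X i) Z := by
  simp only [om, LinearMap.sum_apply, ip_sum_left]; exact sum_comm

lemma om_sum_right {σ : Type*} (s : Finset σ) (X : σ → Op) (Z : Op) :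
    om Q K u Z (∑ i ∈ s, X i) = ∑ i ∈ s, om Q K u Z (X i) := by
  simp only [om, LinearMap.sum_apply, ip_sum_right]; exact sum_comm

lemma om_nonneg (X : Op) : 0 ≤ om Q K u X X := sum_nonneg fun _ _ => ip_nonneg _ _

lemma om_abs (X Y : Op) {t : ℝ} (ht : 0 < t) :
    |om Q K u X Y| ≤ (t * om Q K u X X + om Q K u Y Y / t) / 2 := by
  have h1 := om_nonneg Q K u (t • X + Y)
  have h2 := om_nonneg Q K u (t • X - Y)
  simp only [om_add_left, om_add_right, om_sub_left, om_sub_right, om_smul_left, om_smul_right,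
    om_comm Q K u Y X] at h1 h2
  have e : (t * om Q K u X X + om Q K u Y Y / t) / 2 =
      (t * (t * om Q K u X X) + om Q K u Y Y) / (2 * t) := by field_simp
  rw [e, abs_le, le_div_iff₀ (by positivity), neg_le, le_div_iff₀ (by positivity)]
  constructor <;> linarith

lemma om_cre {a : ℕ} (ha : a ≤ Q) (X Y : Op) :
    om Q K u (cre a * X) Y = om Q K u X (ann a * Y) :=
  sum_congr rfl fun _ _ => ip_cre ha _ _

lemma om_mono (T X : Op) (c : ℝ) (h : ∀ x, ip Q (T x) (T x) ≤ c * ip Q x x) :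
    om Q K u (T * X) (T * X) ≤ c * om Q K u X X := by
  rw [om, om, mul_sum]
  exact sum_le_sum fun k _ => h _

def Inv : Prop := ∀ X Y : Op, om Q K u X (Y * jp Q) = om Q K u (X * jm Q) Y

variable {Q K u}

lemma om_cm (h : Inv Q K u) (X Y : Op) :
    om Q K u X (cm Y (jp Q)) = om Q K u (cm X (jm Q)) Y := by
  unfold cm
  rw [om_sub_left, om_sub_right, h]
  congr 1
  exact sum_congr rfl fun _ _ => (ip_jm _ _ _).symm

lemma om_hA (hQ : 0 < Q) (h : Inv Q K u) (m : ℕ) :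
    om Q K u (hA Q m) (hA Q m) = nu Q m * om Q K u (hA Q 0) (hA Q 0) := by
  induction m with
  | zero => rw [nu_zero, one_mul]
  | succ m ih =>
    have h1 := om_cm h (hA Q (m + 1)) (hA Q m)
    rw [cm_hA_jp, cm_hA_jm hQ, om_smul_left, om_smul_right, ih] at h1
    have h3 : ((m : ℝ) + 1) ≠ 0 := by positivity
    apply mul_left_cancel₀ h3
    rw [h1, ← mul_assoc, ← mul_assoc, nu_succ hQ]

lemma om_rel (h : Inv Q K u) (a b : ℕ → Op) (α β : ℕ → ℝ) (τ : ℝ)
    (a1 : ∀ m, cm (a m) (jp Q) = ((m : ℝ) + 1) • a (m + 1)) (a2 : cm (a 0) (jm Q) = 0)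
    (a3 : ∀ m, cm (a (m + 1)) (jm Q) = α (m + 1) • a m)
    (b1 : ∀ m, cm (b m) (jp Q) = ((m : ℝ) + 1) • b (m + 1)) (b2 : cm (b 0) (jm Q) = 0)
    (b3 : ∀ m, cm (b (m + 1)) (jm Q) = β (m + 1) • b m) :
    Rel α β (fun m n m' n' => om Q K u (b n * a m) (b n' * a m') / τ) := by
  intro m n m' n'
  have h1 := om_cm h (b n * a m) (b n' * a m')
  rw [cm_mul, cm_mul, a1, b1, om_add_left, om_add_right, mul_smul_comm, smul_mul_assoc,
    om_smul_right, om_smul_right] at h1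
  have e1 : om Q K u (b n * cm (a m) (jm Q)) (b n' * a m') =
      if m = 0 then 0 else α m * om Q K u (b n * a (m - 1)) (b n' * a m') := by
    cases m with
    | zero => rw [a2, mul_zero, om_zero_left, if_pos rfl]
    | succ m => rw [a3, mul_smul_comm, om_smul_left, if_neg (by omega), Nat.add_sub_cancel]
  have e2 : om Q K u (cm (b n) (jm Q) * a m) (b n' * a m') =
      if n = 0 then 0 else β n * om Q K u (b (n - 1) * a m) (b n' * a m') := by
    cases n with
    | zero => rw [b2, zero_mul, om_zero_left, if_pos rfl]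
    | succ n => rw [b3, smul_mul_assoc, om_smul_left, if_neg (by omega), Nat.add_sub_cancel]
  rw [e1, e2] at h1
  have h2 := congrArg (fun x => x / τ) h1
  simp only [add_div, ite_div, zero_div, mul_div_assoc] at h2
  exact h2

lemma om_psd (X : ℕ → ℕ → Op) {τ : ℝ} (hτ : 0 < τ) :
    Psd (fun m n m' n' => om Q K u (X m n) (X m' n') / τ) := by
  intro r s
  have h := div_nonneg (om_nonneg Q K u (∑ m ∈ range (s + 1), r ^ m • X m (s - m))) hτ.le
  rw [om_sum_left, sum_div] at h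
  refine h.trans_eq (sum_congr rfl fun m _ => ?_)
  rw [om_sum_right, sum_div]
  refine sum_congr rfl fun m' _ => ?_
  rw [om_smul_left, om_smul_right]; ring

end

lemma wt_succ_sq {Q : ℕ} (hQ : 0 < Q) (a : ℕ) :
    ((a : ℝ) + 1) * wt Q (a + 1) ^ 2 = (1 - (a : ℝ) / Q) * wt Q a ^ 2 := by
  have h := choose_succ_real Q a
  have : (Q : ℝ) ≠ 0 := by positivity
  rw [wt_sq, wt_sq, pow_succ]
  field_simp
  linear_combination h

lemma wt_succ_le {Q : ℕ} (hQ : 0 < Q) (a : ℕ) : wt Q (a + 1) ^ 2 ≤ wt Q a ^ 2 := by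
  have h := wt_succ_sq hQ a
  have h1 : (0 : ℝ) ≤ (a : ℝ) / Q := by positivity
  have h2 : (0 : ℝ) ≤ a := by positivity
  nlinarith [sq_nonneg (wt Q (a + 1)), sq_nonneg (wt Q a)]

lemma wt_le_one {Q : ℕ} (hQ : 0 < Q) (a : ℕ) : wt Q a ^ 2 ≤ 1 := by
  induction a with
  | zero => simp [wt_zero]
  | succ a ih => exact (wt_succ_le hQ a).trans ih

lemma ip_hc_le (Q a : ℕ) (x : Fock) :
    ip Q (hc Q a x) (hc Q a x) ≤ wt Q a ^ 2 * ip Q x x := by
  by_cases h : a ≤ Q
  · rw [hc, LinearMap.smul_apply, ip_smul_left, ip_smul_right, ← mul_assoc, ← sq]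
    exact mul_le_mul_of_nonneg_left (ip_ann_le h x) (sq_nonneg _)
  · rw [hc, wt_gt (by omega)]; simp [ip_zero_left]

lemma ip_hc_le' {Q : ℕ} (hQ : 0 < Q) (a : ℕ) (x : Fock) :
    ip Q (hc Q a x) (hc Q a x) ≤ ip Q x x :=
  (ip_hc_le Q a x).trans (mul_le_of_le_one_left (ip_nonneg _ _) (wt_le_one hQ a))

lemma ip_sum_le {σ : Type*} (Q : ℕ) (s : Finset σ) (y : σ → Fock) :
    ip Q (∑ i ∈ s, y i) (∑ i ∈ s, y i) ≤ s.card * ∑ i ∈ s, ip Q (y i) (y i) := by
  unfold ip
  rw [sum_comm, mul_sum]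
  apply sum_le_sum
  intro S _
  rw [Finset.sum_apply, ← sq]
  simpa only [sq] using sq_sum_le_card_mul_sum_sq (s := s) (f := fun i => y i S)

lemma ip_hA_le {Q : ℕ} (hQ : 0 < Q) (M : ℕ) (x : Fock) :
    ip Q (hA Q M x) (hA Q M x) ≤ ((M : ℝ) + 2) ^ 4 * ip Q x x := by
  rw [hA, LinearMap.sum_apply]
  refine (ip_sum_le _ _ _).trans ?_
  have hx := ip_nonneg Q x
  have h : ∀ p ∈ antidiagonal (M + 1), ip Q (((((p.2 : ℝ) - p.1) / 2) • (hc Q p.2 * hc Q p.1)) x)
      (((((p.2 : ℝ) - p.1) / 2) • (hc Q p.2 * hc Q p.1)) x) ≤ ((M : ℝ) + 2) ^ 2 * ip Q x x := by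
    intro p hp
    have hp' : (p.1 : ℝ) + p.2 = M + 1 := by
      exact_mod_cast HasAntidiagonal.mem_antidiagonal.1 hp
    rw [LinearMap.smul_apply, ip_smul_left, ip_smul_right, ← mul_assoc, Module.End.mul_apply]
    have h1 := (ip_hc_le' hQ p.2 (hc Q p.1 x)).trans (ip_hc_le' hQ p.1 x)
    have h2 : (0 : ℝ) ≤ p.1 := by positivity
    have h3 : (0 : ℝ) ≤ p.2 := by positivity
    apply mul_le_mul _ h1 (ip_nonneg _ _) (by positivity)
    nlinarith
  have h2 := sum_le_card_nsmul _ _ _ h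
  rw [Nat.card_antidiagonal] at h2 ⊢
  rw [nsmul_eq_mul] at h2
  push_cast at h2 ⊢
  calc ((M : ℝ) + 1 + 1) * _ ≤ ((M : ℝ) + 1 + 1) * (((M : ℝ) + 1 + 1) *
        (((M : ℝ) + 2) ^ 2 * ip Q x x)) := mul_le_mul_of_nonneg_left h2 (by positivity)
    _ = _ := by ring

lemma nu_le {Q : ℕ} (hQ : 0 < Q) (m : ℕ) : nu Q m ≤ 2 ^ m := by
  induction m with
  | zero => simp [nu_zero]
  | succ m ih =>
    have h := nu_succ hQ m
    have h1 : (0 : ℝ) ≤ ((m : ℝ) + 2) / Q := by positivity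
    have h2 : (0 : ℝ) ≤ m := by positivity
    have h3 := nu_nonneg Q m
    have h4 := nu_nonneg Q (m + 1)
    rw [pow_succ]
    nlinarith

end Vale.Agent.P359
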