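import Vale.Agent.P359.Mom1

namespace Vale.Agent.P359

open Finset

lemma choose_ratio {Q : ℕ} (hQ : 9 ≤ Q) (M : ℕ) (hM : 2 ≤ M) :
    5 * 2 ^ M * (Q.choose M : ℝ) ≤ 6 * ((2 * Q - 2).choose M : ℝ) := by
  induction M, hM using Nat.le_induction with
  | base =>
    rw [Nat.cast_choose_two, Nat.cast_choose_two, Nat.cast_sub (by omega)]
    have : (9 : ℝ) ≤ Q := by exact_mod_cast hQ
    push_cast
    nlinarith
  | succ M hM ih =>
    by_cases h : Q ≤ M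
    · rw [Nat.choose_eq_zero_of_lt (by omega : Q < M + 1)]
      simp
    · have h1 := choose_succ_real Q M
      have h2 := choose_succ_real (2 * Q - 2) M
      rw [Nat.cast_sub (by omega)] at h2
      push_cast at h2
      have h3 : (M : ℝ) < Q := by exact_mod_cast (not_le.1 h)
      have h4 : (2 : ℝ) ≤ M := by exact_mod_cast hM
      have h5 : (0 : ℝ) < (M : ℝ) + 1 := by positivity
      apply le_of_mul_le_mul_right _ h5
      rw [mul_assoc, h1, mul_assoc 6, h2, pow_succ]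
      have h6 : (0 : ℝ) ≤ ((2 * Q - 2).choose M : ℝ) := by positivity
      calc 5 * (2 ^ M * 2) * ((Q.choose M : ℝ) * ((Q : ℝ) - M))
          = (5 * 2 ^ M * (Q.choose M : ℝ)) * (2 * ((Q : ℝ) - M)) := by ring
        _ ≤ (6 * ((2 * Q - 2).choose M : ℝ)) * (2 * ((Q : ℝ) - M)) :=
          mul_le_mul_of_nonneg_right ih (by linarith)
        _ ≤ (6 * ((2 * Q - 2).choose M : ℝ)) * (2 * (Q : ℝ) - 2 - M) :=
          mul_le_mul_of_nonneg_left (by linarith) (by positivity)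
        _ = _ := by ring

lemma wt_nu {Q : ℕ} (hQ : 9 ≤ Q) (M : ℕ) (hM : 2 ≤ M) :
    wt Q M ^ 2 ≤ (6 / 5) / 2 ^ M * nu Q M := by
  have h := choose_ratio hQ M hM
  have hQ' : (0 : ℝ) < (Q : ℝ) ^ M := by have : 0 < Q := by omega
                                         positivity
  rw [wt_sq, nu, ← mul_div_assoc, div_le_div_iff_of_pos_right hQ', div_mul_eq_mul_div,
    le_div_iff₀ (by positivity)]
  linarith

noncomputable def tl (M : ℕ) : ℝ := 9 * M * (5 / 7) ^ M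

lemma tl_step (M : ℕ) (hM : 32 ≤ M) : (11 / 5) * M * (5 / 7 : ℝ) ^ M ≤ tl M - tl (M + 1) := by
  unfold tl
  have h : (32 : ℝ) ≤ M := by exact_mod_cast hM
  have hp : (0 : ℝ) < (5 / 7) ^ M := by positivity
  rw [pow_succ]; push_cast
  nlinarith

lemma tl_sum (f : ℕ → ℝ) (hf : ∀ M, 32 ≤ M → -((11 / 5) * M * (5 / 7 : ℝ) ^ M) ≤ f M) (n : ℕ)
    (hn : 32 ≤ n) : tl n - tl 32 ≤ ∑ M ∈ Ico 32 n, f M := by
  induction n, hn using Nat.le_induction with
  | base => simp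
  | succ n hn ih =>
    rw [sum_Ico_succ_top hn]
    have := tl_step n hn
    have := hf n hn
    linarith

lemma tail_arith {ν w a b M : ℝ} {n : ℕ} (hν : 0 < ν) (hM : 1 ≤ M)
    (hw : w ≤ (6 / 5) / 2 ^ n * ν)
    (ha : |a| ≤ ((7 / 5) ^ n * w + ν / (7 / 5) ^ n) / 2)
    (hb : |b| ≤ ((7 / 5) ^ n * w + ν / (7 / 5) ^ n) / 2) :
    -((11 / 5) * M * (5 / 7 : ℝ) ^ n) ≤ ν⁻¹ * (-(M + 1) * a + (M - 1) * b) := by
  have e1 : ν / (7 / 5 : ℝ) ^ n = (5 / 7) ^ n * ν := by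
    rw [div_eq_mul_inv, ← inv_pow, mul_comm]; norm_num
  have e2 : (7 / 5 : ℝ) ^ n * w ≤ (6 / 5) * ((5 / 7) ^ n * ν) := by
    have h1 : (7 / 5 : ℝ) ^ n / 2 ^ n ≤ (5 / 7) ^ n := by
      rw [← div_pow]; exact pow_le_pow_left₀ (by norm_num) (by norm_num) n
    calc (7 / 5 : ℝ) ^ n * w ≤ (7 / 5 : ℝ) ^ n * ((6 / 5) / 2 ^ n * ν) :=
          mul_le_mul_of_nonneg_left hw (by positivity)
      _ = (6 / 5) * ((7 / 5 : ℝ) ^ n / 2 ^ n * ν) := by ring
      _ ≤ _ := by gcongr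
  rw [e1] at ha hb
  set c := (5 / 7 : ℝ) ^ n * ν with hc
  have ha' := (abs_le.1 ha).2
  have hb' := (abs_le.1 hb).1
  have h1 : (M + 1) * a ≤ (M + 1) * (11 / 10 * c) :=
    mul_le_mul_of_nonneg_left (by linarith) (by linarith)
  have h2 : (M - 1) * (-(11 / 10 * c)) ≤ (M - 1) * b :=
    mul_le_mul_of_nonneg_left (by linarith) (by linarith)
  rw [inv_mul_eq_div, le_div_iff₀ hν]
  have e3 : -((11 / 5) * M * (5 / 7 : ℝ) ^ n) * ν = -((11 / 5) * M * c) := by rw [hc]; ring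
  rw [e3]
  linarith

section
variable {ι : Type*} (Q : ℕ) (K : Finset ι) (u : ι → Fock)

noncomputable def tau : ℝ := om Q K u (hA Q 0) (hA Q 0)

noncomputable def G3 (m n m' n' : ℕ) : ℝ :=
  om Q K u (hc Q n * hA Q m) (hc Q n' * hA Q m') / tau Q K u

noncomputable def G4 (m n m' n' : ℕ) : ℝ :=
  om Q K u (hA Q n * hA Q m) (hA Q n' * hA Q m') / tau Q K u

def Eig (E : ℝ) : Prop := ∀ k ∈ K, ∀ x, Bf Q x (u k) = E * ip Q x (u k)

variable {Q K u}

lemma om_eig {E : ℝ} (he : Eig Q K u E) (X : Op) :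
    E * om Q K u X 1 = ∑ M ∈ range (2 * Q - 1), om Q K u (hA Q M * X) (hA Q M) / nu Q M := by
  simp only [om, sum_div, mul_sum]
  rw [sum_comm]
  apply sum_congr rfl
  intro k hk
  exact (he k hk (X (u k))).symm

lemma tau_pos (hQ : 0 < Q) (h : Inv Q K u) {E : ℝ} (he : Eig Q K u E) (hE : 0 < E)
    (hp : 0 < om Q K u 1 1) : 0 < tau Q K u := by
  have h1 := om_eig he 1
  have h2 : ∀ M ∈ range (2 * Q - 1), om Q K u (hA Q M * 1) (hA Q M) / nu Q M = tau Q K u := by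
    intro M hM
    rw [mul_one, om_hA hQ h, mul_div_cancel_left₀ _ (nu_pos hQ (mem_range.1 hM)).ne', tau]
  rw [sum_congr rfl h2, sum_const, nsmul_eq_mul] at h1
  by_contra hc
  have := mul_nonpos_of_nonneg_of_nonpos (Nat.cast_nonneg (α := ℝ) (range (2 * Q - 1)).card)
    (not_lt.1 hc)
  have := mul_pos hE hp
  linarith

lemma G3_diag (hQ : 0 < Q) (h : Inv Q K u) (hτ : 0 < tau Q K u) (m n : ℕ) :
    G3 Q K u m n m n ≤ wt Q n ^ 2 * nu Q m := by
  rw [G3, div_le_iff₀ hτ, mul_assoc, tau, ← om_hA hQ h]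
  exact om_mono _ _ _ _ _ _ (ip_hc_le Q n)

lemma G4_diag (hQ : 0 < Q) (h : Inv Q K u) (hτ : 0 < tau Q K u) (m n : ℕ) :
    G4 Q K u m n m n ≤ ((n : ℝ) + 2) ^ 4 * nu Q m := by
  rw [G4, div_le_iff₀ hτ, mul_assoc, tau, ← om_hA hQ h]
  exact om_mono _ _ _ _ _ _ (ip_hA_le hQ n)

lemma G3_abs (hτ : 0 < tau Q K u) (m n m' n' : ℕ) {t : ℝ} (ht : 0 < t) :
    |G3 Q K u m n m' n'| ≤ (t * G3 Q K u m n m n + G3 Q K u m' n' m' n' / t) / 2 := by
  unfold G3
  rw [abs_div, abs_of_pos hτ]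
  refine (div_le_div_of_nonneg_right (om_abs Q K u _ _ ht) hτ.le).trans_eq ?_
  ring

lemma G4_abs (hτ : 0 < tau Q K u) (m n m' n' : ℕ) :
    |G4 Q K u m n m' n'| ≤ (G4 Q K u m n m n + G4 Q K u m' n' m' n') / 2 := by
  unfold G4
  rw [abs_div, abs_of_pos hτ]
  refine (div_le_div_of_nonneg_right (om_abs Q K u _ _ one_pos) hτ.le).trans_eq ?_
  ring

lemma energy_id (hQ : 0 < Q) {E : ℝ} (he : Eig Q K u E) (hτ : 0 < tau Q K u) :
    E = 1 + ∑ M ∈ range (2 * Q - 1), (nu Q M)⁻¹ *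
      (-((M : ℝ) + 1) * G3 Q K u 0 (M + 1) M 1 + ((M : ℝ) - 1) * G3 Q K u 0 M M 0) +
      ∑ M ∈ range (2 * Q - 1), (nu Q M)⁻¹ * G4 Q K u 0 M 0 M := by
  have h0 : hc Q 0 = ann 0 := by rw [hc, wt_zero, one_smul]
  have h1 : hc Q 1 = ann 1 := by rw [hc, wt_one hQ, one_smul]
  have a : ∀ X Y : Op, om Q K u (cre 0 * cre 1 * X) Y = om Q K u X (hA Q 0 * Y) := by
    intro X Y
    rw [mul_assoc, om_cre _ _ _ (Nat.zero_le _), om_cre _ _ _ hQ, ← mul_assoc, ← hA_zero hQ]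
  have e := om_eig he (cre 0 * cre 1 * hA Q 0)
  rw [a, mul_one] at e
  have t : ∀ M, om Q K u (hA Q M * (cre 0 * cre 1 * hA Q 0)) (hA Q M) / nu Q M =
      tau Q K u * ((if M = 0 then 1 else 0) + (nu Q M)⁻¹ *
      (-((M : ℝ) + 1) * G3 Q K u 0 (M + 1) M 1 + ((M : ℝ) - 1) * G3 Q K u 0 M M 0) +
      (nu Q M)⁻¹ * G4 Q K u 0 M 0 M) := by
    intro M
    rw [← mul_assoc, hA_cre hQ, add_mul, sub_mul, add_mul, smul_mul_assoc, smul_mul_assoc,
      om_add_left, om_sub_left, om_add_left, om_smul_left, om_smul_left, mul_assoc (cre 0 * cre 1),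
      a, mul_assoc (cre 1), mul_assoc (cre 0), om_cre _ _ _ hQ, om_cre _ _ _ (Nat.zero_le _),
      hA_hA Q 0 M, ← h0, ← h1, G3, G3, G4]
    split_ifs with hM
    · subst hM
      rw [one_mul, nu_zero, ← tau]
      field_simp
      ring
    · rw [zero_mul, om_zero_left]
      field_simp
      ring
  rw [sum_congr rfl fun M _ => t M, ← mul_sum, ← tau, mul_comm] at e
  rw [mul_left_cancel₀ hτ.ne' e, sum_add_distrib, sum_add_distrib, sum_ite_eq',
    if_pos (mem_range.2 (by omega))]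

lemma energy_ge (hQ : 21 ≤ Q) (h : Inv Q K u) {E : ℝ} (he : Eig Q K u E) (hτ : 0 < tau Q K u) :
    objF (nu Q) (G3 Q K u) (G4 Q K u) - 1 / 100 ≤ E := by
  have hQ0 : 0 < Q := by omega
  rw [energy_id hQ0 he hτ, objF, ← sum_range_add_sum_Ico _ (by omega : 32 ≤ 2 * Q - 1),
    ← sum_range_add_sum_Ico _ (by omega : 41 ≤ 2 * Q - 1)]
  have h4 : 0 ≤ ∑ M ∈ Ico 41 (2 * Q - 1), (nu Q M)⁻¹ * G4 Q K u 0 M 0 M :=
    sum_nonneg fun M _ => mul_nonneg (inv_nonneg.2 (nu_nonneg _ _))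
      (div_nonneg (om_nonneg _ _ _ _) hτ.le)
  have h3 := tl_sum (fun M => (nu Q M)⁻¹ *
      (-((M : ℝ) + 1) * G3 Q K u 0 (M + 1) M 1 + ((M : ℝ) - 1) * G3 Q K u 0 M M 0)) (by
    intro M hM
    by_cases hM2 : M < 2 * Q - 1
    · have ht : (0 : ℝ) < (7 / 5) ^ M := by positivity
      have key : ∀ n n', wt Q n ^ 2 ≤ wt Q M ^ 2 → |G3 Q K u 0 n M n'| ≤
          ((7 / 5) ^ M * wt Q M ^ 2 + nu Q M / (7 / 5) ^ M) / 2 := by
        intro n n' hn
        refine (G3_abs hτ _ _ _ _ ht).trans ?_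
        have d1 := G3_diag hQ0 h hτ 0 n
        have d2 := (G3_diag hQ0 h hτ M n').trans
          (mul_le_of_le_one_left (nu_nonneg _ _) (wt_le_one hQ0 n'))
        rw [nu_zero, mul_one] at d1
        have d3 := d1.trans hn
        gcongr
      exact tail_arith (nu_pos hQ0 hM2) (by exact_mod_cast (by omega : 1 ≤ M))
        (wt_nu (by omega) M (by omega)) (key _ _ (wt_succ_le hQ0 M)) (key _ _ le_rfl)
    · have : nu Q M = 0 := by
        rw [nu, Nat.choose_eq_zero_of_lt (by omega)]; simp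
      simp only [this, inv_zero, zero_mul]
      have : (0 : ℝ) ≤ 11 / 5 * M * (5 / 7) ^ M := by positivity
      linarith) (2 * Q - 1) (by omega)
  have h5 : 0 ≤ tl (2 * Q - 1) := by unfold tl; positivity
  have h6 : tl 32 ≤ 1 / 100 := by unfold tl; norm_num
  linarith

end

end Vale.Agent.P359
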