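import Vale.Agent.P359.Mom2
import Vale.Agent.P359.Cert

namespace Vale.Agent.P359

open Finset

noncomputable def Loc (Q : ℕ) (O : Finset ℕ) : Op where
  toFun x := fun T => if T ⊆ range 9 then (∏ i ∈ T, wt Q i) * x (T ∪ O) else 0
  map_add' x y := by
    funext S; by_cases h : S ⊆ range 9 <;> simp [h, mul_add]
  map_smul' c x := by
    funext S; by_cases h : S ⊆ range 9 <;> simp [h]; ring

lemma Loc_apply (Q : ℕ) (O : Finset ℕ) (x : Fock) (T : Finset ℕ) :
    Loc Q O x T = if T ⊆ range 9 then (∏ i ∈ T, wt Q i) * x (T ∪ O) else 0 := rfl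

lemma Loc_hc (Q : ℕ) {O : Finset ℕ} (hO : ∀ i ∈ O, 9 ≤ i) {a : ℕ} (ha : a < 9) :
    Loc Q O * hc Q a = ann a * Loc Q O := by
  apply LinearMap.ext; intro x; funext T
  have haO : a ∉ O := fun h => by have := hO a h; omega
  simp only [Module.End.mul_apply, Loc_apply, ann_app, hc, LinearMap.smul_apply, Pi.smul_apply,
    smul_eq_mul, mem_union, haO, or_false]
  by_cases hT : T ⊆ range 9
  · rw [if_pos hT]
    by_cases haT : a ∈ T
    · simp [haT]
    · have e : sg a (T ∪ O) = sg a T := by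
        unfold sg
        rw [filter_union, filter_eq_empty_iff (s := O).2, union_empty]
        intro i hi; have := hO i hi; omega
      rw [if_neg haT, if_neg haT, if_pos (insert_subset (mem_range.2 ha) hT), prod_insert haT, e,
        insert_union]
      ring
  · rw [if_neg hT, if_neg (fun h => hT ((subset_insert a T).trans h))]
    simp

lemma half_sum (n : ℕ) (f : ℕ → ℕ → Op) (hf : ∀ i j, f i j = f j i) (h0 : ∀ i, f i i = 0) :
    ∑ p ∈ antidiagonal n, f p.1 p.2 = (2 : ℝ) • ∑ i ∈ range ((n + 1) / 2), f i (n - i) := by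
  have e1 : ∀ p : ℕ × ℕ, f p.1 p.2 = (if p.1 < p.2 then f p.1 p.2 else 0) +
      (if p.2 < p.1 then f p.2 p.1 else 0) := by
    intro p
    rcases lt_trichotomy p.1 p.2 with h | h | h
    · rw [if_pos h, if_neg (by omega), add_zero]
    · rw [if_neg (by omega), if_neg (by omega), h, h0, add_zero]
    · rw [if_neg (by omega), if_pos h, zero_add, hf]
  have e2 : ∑ p ∈ antidiagonal n, (if p.2 < p.1 then f p.2 p.1 else 0) =
      ∑ p ∈ antidiagonal n, (if p.1 < p.2 then f p.1 p.2 else 0) :=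
    Nat.sum_antidiagonal_swap (f := fun p => if p.1 < p.2 then f p.1 p.2 else 0)
  rw [sum_congr rfl fun p _ => e1 p, sum_add_distrib, e2, two_smul,
    Nat.sum_antidiagonal_eq_sum_range_succ_mk, ← sum_filter]
  have : filter (fun i => i < n - i) (range n.succ) = range ((n + 1) / 2) := by
    ext i; simp only [mem_filter, mem_range]; omega
  rw [this]

lemma opOf_append : ∀ (l l' : Words), opOf (l ++ l') = opOf l + opOf l'
  | [], l' => by simp [opOf]
  | p :: l, l' => by simp only [List.cons_append, opOf, opOf_append l l', add_assoc]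

lemma opOf_range (g : ℕ → ℤ × List ℕ) (k : ℕ) :
    opOf ((List.range k).map g) = ∑ i ∈ range k, ((g i).1 : ℝ) • wordOp (g i).2 := by
  induction k with
  | zero => simp [opOf]
  | succ k ih => rw [List.range_succ, List.map_append, opOf_append, ih, sum_range_succ]; simp [opOf]

lemma opOf_wA (m : ℕ) : opOf (wA m) =
    ∑ p ∈ antidiagonal (m + 1), (((p.2 : ℝ) - (p.1 : ℝ)) / 2) • (ann p.2 * ann p.1) := by
  rw [half_sum (m + 1) (fun i j => (((j : ℝ) - (i : ℝ)) / 2) • (ann j * ann i)), wA, opOf_range,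
    smul_sum]
  · apply sum_congr rfl
    intro i hi
    have := mem_range.1 hi
    simp only [wordOp, mul_one, smul_smul, Int.cast_natCast]
    rw [Nat.cast_sub (by omega), Nat.cast_sub (by omega)]
    congr 1; push_cast; ring
  · intro i j
    rw [ann_ann j i, smul_neg, ← neg_smul]; congr 1; ring
  · intro i; simp

lemma Loc_hA (Q : ℕ) {O : Finset ℕ} (hO : ∀ i ∈ O, 9 ≤ i) {m : ℕ} (hm : m < 8) :
    Loc Q O * hA Q m = opOf (wA m) * Loc Q O := by
  rw [opOf_wA, hA, mul_sum, sum_mul]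
  apply sum_congr rfl
  intro p hp
  have := HasAntidiagonal.mem_antidiagonal.1 hp
  rw [mul_smul_comm, smul_mul_assoc, ← mul_assoc, Loc_hc Q hO (by omega), mul_assoc,
    Loc_hc Q hO (by omega), mul_assoc]

lemma opOf_cons_word (a : ℕ) : ∀ ws : Words,
    opOf (ws.map fun p => (p.1, a :: p.2)) = ann a * opOf ws
  | [] => by simp [opOf]
  | p :: ws => by
      simp only [List.map_cons, opOf, wordOp, opOf_cons_word a ws, mul_add, mul_smul_comm]

lemma wordOp_append : ∀ (v w : List ℕ), wordOp (v ++ w) = wordOp v * wordOp w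
  | [], w => by simp [wordOp]
  | a :: v, w => by simp only [List.cons_append, wordOp, wordOp_append v w, mul_assoc]

lemma opOf_left (q : ℤ × List ℕ) : ∀ ws : Words,
    opOf (ws.map fun p => (q.1 * p.1, q.2 ++ p.2)) = ((q.1 : ℝ) • wordOp q.2) * opOf ws
  | [] => by simp [opOf]
  | p :: ws => by
      simp only [List.map_cons, opOf, opOf_left q ws, mul_add, mul_smul_comm, wordOp_append,
        smul_mul_assoc, smul_smul, Int.cast_mul, mul_comm]

lemma opOf_flat (ws : Words) : ∀ ws' : Words,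
    opOf (ws'.flatMap fun q => ws.map fun p => (q.1 * p.1, q.2 ++ p.2)) = opOf ws' * opOf ws
  | [] => by simp [opOf]
  | q :: ws' => by
      rw [List.flatMap_cons, opOf_append, opOf_left, opOf_flat ws ws', opOf, add_mul]

lemma list_sum_range (f : ℕ → ℝ) (k : ℕ) : ((List.range k).map f).sum = ∑ i ∈ range k, f i := by
  induction k with
  | zero => simp
  | succ k ih => rw [List.range_succ, List.map_append, List.sum_append, ih, sum_range_succ]; simp

lemma grps_point (Q : ℕ) {O : Finset ℕ} (hO : ∀ i ∈ O, 9 ≤ i) (x : Fock) (R : Finset ℕ) :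
    (grps.map fun g => gForm g (Loc Q O x) R).sum =
      WF R * locF (fun m => Loc Q O (hA Q m x) R * Loc Q O (hA Q m x) R)
        (fun m n m' n' => Loc Q O ((hc Q n * hA Q m) x) R * Loc Q O ((hc Q n' * hA Q m') x) R)
        (fun m n m' n' => Loc Q O ((hA Q n * hA Q m) x) R * Loc Q O ((hA Q n' * hA Q m') x) R) := by
  simp only [grps, List.map_append, List.sum_append, List.map_map, list_sum_range, locF, mul_add,
    mul_sum, Function.comp]
  congr 1
  · apply sum_congr rfl
    intro m hm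
    have e : opOf (wA m) (Loc Q O x) = Loc Q O (hA Q m x) :=
      (LinearMap.congr_fun (Loc_hA Q hO (mem_range.1 hm)) x).symm
    simp only [gForm, g2, List.map_cons, List.map_nil, bil_cons, dot_cons, e]
    simp; ring_nf; simp
  congr 1
  · apply sum_congr rfl
    intro s _
    simp only [gForm, g3, List.map_map]
    rw [bil_eq_entF]
    congr 1
    have e : ∀ m ∈ lab3 s, opOf (w3 m (s - m)) (Loc Q O x) =
        Loc Q O ((hc Q (s - m) * hA Q m) x) := by
      intro m hm
      obtain ⟨_, h2, h3⟩ := lab3_le s m hm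
      rw [w3, opOf_cons_word, ← Module.End.mul_apply, ← Module.End.mul_apply (Loc Q O), ← mul_assoc,
        Loc_hc Q hO (by omega), mul_assoc, mul_assoc, Loc_hA Q hO h2]
    apply entF_congr
    intro m hm m' hm'
    simp only [Function.comp, e m hm, e m' hm']
  · apply sum_congr rfl
    intro s _
    simp only [gForm, g4, List.map_map]
    rw [bil_eq_entF]
    congr 1
    have e : ∀ m ∈ lab4 s, opOf (w4 m (s - m)) (Loc Q O x) =
        Loc Q O ((hA Q (s - m) * hA Q m) x) := by
      intro m hm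
      obtain ⟨_, h2, h3⟩ := lab4_le s m hm
      rw [w4, opOf_flat, ← Module.End.mul_apply, ← Module.End.mul_apply (Loc Q O), ← mul_assoc,
        Loc_hA Q hO (by omega), mul_assoc, mul_assoc, Loc_hA Q hO h2]
    apply entF_congr
    intro m hm m' hm'
    simp only [Function.comp, e m hm, e m' hm']

lemma locF_sum {σ : Type*} (s : Finset σ) (a : σ → ℕ → ℝ) (b c : σ → ℕ → ℕ → ℕ → ℕ → ℝ) :
    locF (fun m => ∑ i ∈ s, a i m) (fun m n m' n' => ∑ i ∈ s, b i m n m' n')
      (fun m n m' n' => ∑ i ∈ s, c i m n m' n') = ∑ i ∈ s, locF (a i) (b i) (c i) := by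
  simp only [locF, entF_sum, sum_add_distrib, mul_sum]
  rw [sum_comm, sum_comm (s := range 16), sum_comm (s := range 15)]

lemma locF_mul (t : ℝ) (a : ℕ → ℝ) (b c : ℕ → ℕ → ℕ → ℕ → ℝ) :
    locF (fun m => t * a m) (fun m n m' n' => t * b m n m' n')
      (fun m n m' n' => t * c m n m' n') = t * locF a b c := by
  simp only [locF, entF_mul, mul_add, mul_sum, mul_left_comm t]

lemma list_sum_comm' {ι σ : Type*} (s : Finset σ) (F : ι → σ → ℝ) : ∀ l : List ι,
    (l.map fun g => ∑ N ∈ s, F g N).sum = ∑ N ∈ s, (l.map fun g => F g N).sum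
  | [] => by simp
  | g :: l => by simp [list_sum_comm' s F l, sum_add_distrib]

noncomputable def ipD (Q : ℕ) (x y : Fock) : ℝ :=
  ∑ O ∈ (Ico 9 (Q + 1)).powerset, ∑ R ∈ (range 9).powerset,
    WF R * (Loc Q O x R * Loc Q O y R)

lemma local_vec (Q : ℕ) (x : Fock) :
    0 ≤ locF (fun m => ipD Q (hA Q m x) (hA Q m x))
      (fun m n m' n' => ipD Q ((hc Q n * hA Q m) x) ((hc Q n' * hA Q m') x))
      (fun m n m' n' => ipD Q ((hA Q n * hA Q m) x) ((hA Q n' * hA Q m') x)) := by
  unfold ipD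
  rw [locF_sum]
  apply sum_nonneg
  intro O hO
  have hO' : ∀ i ∈ O, 9 ≤ i := fun i hi => (mem_Ico.1 (mem_powerset.1 hO hi)).1
  have := grps_nonneg (Loc Q O x)
  rw [list_sum_comm'] at this
  rw [locF_sum]
  refine this.trans_eq (sum_congr rfl fun R _ => ?_)
  rw [grps_point Q hO', locF_mul]

lemma sum_split {Q : ℕ} (hQ : 8 ≤ Q) (f : Finset ℕ → ℝ) :
    ∑ S ∈ (range (Q + 1)).powerset, f S =
      ∑ O ∈ (Ico 9 (Q + 1)).powerset, ∑ R ∈ (range 9).powerset, f (R ∪ O) := by
  rw [← sum_product']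
  symm
  apply sum_nbij' (fun p => p.2 ∪ p.1)
    (fun S => (S.filter (fun i => 9 ≤ i), S.filter (fun i => i < 9)))
  · rintro ⟨O, R⟩ h
    simp only [mem_product, mem_powerset] at h ⊢
    intro i hi
    rcases mem_union.1 hi with h1 | h1
    · have := mem_range.1 (h.2 h1); exact mem_range.2 (by omega)
    · exact mem_range.2 (mem_Ico.1 (h.1 h1)).2
  · intro S h
    simp only [mem_product, mem_powerset] at h ⊢
    constructor
    · intro i hi
      have := mem_filter.1 hi
      exact mem_Ico.2 ⟨this.2, mem_range.1 (h this.1)⟩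
    · intro i hi
      exact mem_range.2 (mem_filter.1 hi).2
  · rintro ⟨O, R⟩ h
    simp only [mem_product, mem_powerset] at h
    have a1 : ∀ i ∈ O, 9 ≤ i := fun i hi => (mem_Ico.1 (h.1 hi)).1
    have a2 : ∀ i ∈ R, i < 9 := fun i hi => mem_range.1 (h.2 hi)
    refine Prod.ext ?_ ?_ <;> ext i <;> simp only [mem_filter, mem_union]
    · exact ⟨fun h => h.1.resolve_left fun h' => by have := a2 i h'; omega,
        fun h => ⟨Or.inr h, a1 i h⟩⟩
    · exact ⟨fun h => h.1.resolve_right fun h' => by have := a1 i h'; omega,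
        fun h => ⟨Or.inl h, a2 i h⟩⟩
  · intro S _
    ext i; simp only [mem_filter, mem_union]
    constructor
    · rintro (h | h) <;> exact h.1
    · intro h; rcases lt_or_ge i 9 with h1 | h1
      · exact Or.inl ⟨h, h1⟩
      · exact Or.inr ⟨h, h1⟩
  · intro _ _; rfl

noncomputable def eps (Q : ℕ) : ℝ :=
  ∑ R ∈ (range 9).powerset, |WF R * (∏ i ∈ R, wt Q i) ^ 2 - 1|

lemma ipD_close {Q : ℕ} (hQ : 8 ≤ Q) (x y : Fock) :
    |ipD Q x y - ip Q x y| ≤ eps Q * ((ip Q x x + ip Q y y) / 2) := by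
  simp only [ip, ipD, sum_split hQ]
  rw [← sum_sub_distrib, ← sum_add_distrib, sum_div, mul_sum]
  refine (abs_sum_le_sum_abs _ _).trans (sum_le_sum fun O _ => ?_)
  rw [← sum_sub_distrib, ← sum_add_distrib, sum_div, mul_sum]
  refine (abs_sum_le_sum_abs _ _).trans (sum_le_sum fun R hR => ?_)
  rw [Loc_apply, Loc_apply, if_pos (mem_powerset.1 hR), if_pos (mem_powerset.1 hR)]
  have h1 : |WF R * (∏ i ∈ R, wt Q i) ^ 2 - 1| ≤ eps Q :=
    single_le_sum (f := fun R => |WF R * (∏ i ∈ R, wt Q i) ^ 2 - 1|) (fun _ _ => abs_nonneg _) hR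
  have h2 : |x (R ∪ O) * y (R ∪ O)| ≤ (x (R ∪ O) * x (R ∪ O) + y (R ∪ O) * y (R ∪ O)) / 2 := by
    rw [abs_le]
    constructor <;> nlinarith [sq_nonneg (x (R ∪ O) + y (R ∪ O)), sq_nonneg (x (R ∪ O) - y (R ∪ O))]
  have e : WF R * ((∏ i ∈ R, wt Q i) * x (R ∪ O) * ((∏ i ∈ R, wt Q i) * y (R ∪ O))) -
      x (R ∪ O) * y (R ∪ O) = (WF R * (∏ i ∈ R, wt Q i) ^ 2 - 1) * (x (R ∪ O) * y (R ∪ O)) := by
    ring
  rw [e, abs_mul]
  exact mul_le_mul h1 h2 (abs_nonneg _) ((abs_nonneg _).trans h1)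

end Vale.Agent.P359
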