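import Vale.Agent.P359.Chk

namespace Vale.Agent.P359

noncomputable def dot : List ℤ → List ℝ → ℝ
  | a :: u, x :: xs => (a : ℝ) * x + dot u xs
  | _, _ => 0

noncomputable def bil : List (List ℤ) → List ℝ → List ℝ → ℝ
  | r :: M, x :: xs, y => x * dot r y + bil M xs y
  | _, _, _ => 0

@[simp] lemma dot_nil_left (x : List ℝ) : dot [] x = 0 := by cases x <;> rfl
@[simp] lemma dot_nil_right (u : List ℤ) : dot u [] = 0 := by cases u <;> rfl
@[simp] lemma dot_cons (a : ℤ) (u : List ℤ) (x : ℝ) (xs : List ℝ) :
    dot (a :: u) (x :: xs) = (a : ℝ) * x + dot u xs := rfl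
@[simp] lemma bil_nil_left (x y : List ℝ) : bil [] x y = 0 := by cases x <;> rfl
@[simp] lemma bil_nil_mid (M : List (List ℤ)) (y : List ℝ) : bil M [] y = 0 := by cases M <;> rfl
@[simp] lemma bil_cons (r : List ℤ) (M : List (List ℤ)) (x : ℝ) (xs y : List ℝ) :
    bil (r :: M) (x :: xs) y = x * dot r y + bil M xs y := rfl

lemma isZ_iff (a : ℤ) : isZ a = true ↔ a = 0 := by
  cases a with
  | ofNat n => simp [isZ]
  | negSucc n => simp [isZ]

lemma isPos_pos (a : ℤ) (h : isPos a = true) : 0 < a := by
  cases a with
  | ofNat n => simpa [isPos, Nat.blt_eq] using h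
  | negSucc n => simp [isPos] at h

lemma dot_addL : ∀ (u v : List ℤ) (x : List ℝ), dot (addL u v) x = dot u x + dot v x
  | [], v, x => by simp [addL]
  | a :: u, [], x => by simp [addL]
  | a :: u, b :: v, [] => by simp [addL]
  | a :: u, b :: v, x :: xs => by
      simp only [addL, dot_cons, dot_addL u v xs]; push_cast; ring

lemma dot_smulL (c : ℤ) : ∀ (u : List ℤ) (x : List ℝ), dot (smulL c u) x = c * dot u x
  | [], x => by simp [smulL]
  | a :: u, [] => by simp [smulL]
  | a :: u, x :: xs => by
      simp only [smulL, dot_cons, dot_smulL c u xs]; push_cast; ring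

lemma bil_addM : ∀ (A B : List (List ℤ)) (x y : List ℝ),
    bil (addM A B) x y = bil A x y + bil B x y
  | [], B, x, y => by simp [addM]
  | a :: A, [], x, y => by simp [addM]
  | a :: A, b :: B, [], y => by simp [addM]
  | a :: A, b :: B, x :: xs, y => by
      simp only [addM, bil_cons, bil_addM A B xs y, dot_addL]; ring

lemma bil_outer : ∀ (v U : List ℤ) (x y : List ℝ), bil (outer v U) x y = dot v x * dot U y
  | [], U, x, y => by simp [outer]
  | a :: v, U, [], y => by simp [outer]
  | a :: v, U, x :: xs, y => by
      simp only [outer, bil_cons, bil_outer v U xs y, dot_cons]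
      cases h : isZ a with
      | true => have := (isZ_iff a).1 h; subst this; simp
      | false => simp only [cond_false, dot_smulL]; ring

lemma dot_lin : ∀ (c : List ℤ) (vs : List (List ℤ)) (x : List ℝ),
    dot (lin c vs) x = dot c (vs.map fun v => dot v x)
  | [], vs, x => by simp [lin]
  | c :: cs, [], x => by simp [lin]
  | c :: cs, v :: vs, x => by
      simp only [lin, dot_addL, dot_smulL, dot_lin cs vs x, List.map_cons, dot_cons]

lemma bil_contrib (w : ℤ) (vs : List (List ℤ)) (x : List ℝ) :
    ∀ (vs' M : List (List ℤ)), bil (contrib w vs vs' M) x x =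
      w * bil M (vs'.map fun v => dot v x) (vs.map fun v => dot v x)
  | [], M => by simp [contrib]
  | v :: vs', [] => by simp [contrib]
  | v :: vs', r :: M => by
      simp only [contrib, bil_addM, bil_outer, dot_smulL, dot_lin, bil_contrib w vs x vs' M,
        List.map_cons, bil_cons]
      ring

lemma dot_hd (r : List ℤ) (x : ℝ) (xs : List ℝ) :
    dot r (x :: xs) = (hd r : ℝ) * x + dot r.tail xs := by
  cases r <;> simp [hd]

lemma bil_tail (x : ℝ) (ys : List ℝ) : ∀ (M : List (List ℤ)) (xs : List ℝ),
    bil M xs (x :: ys) = x * dot (M.map hd) xs + bil (M.map List.tail) xs ys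
  | [], xs => by simp
  | r :: M, [] => by simp
  | r :: M, a :: xs => by
      rw [bil_cons, List.map_cons, List.map_cons, dot_cons, bil_cons, bil_tail x ys M xs, dot_hd]
      ring

lemma bil_smul (c : ℤ) (ys : List ℝ) : ∀ (M : List (List ℤ)) (xs : List ℝ),
    bil (M.map fun t => smulL c t.tail) xs ys = c * bil (M.map List.tail) xs ys
  | [], xs => by simp
  | r :: M, [] => by simp
  | r :: M, a :: xs => by
      simp only [bil_cons, List.map_cons, bil_smul c ys M xs, dot_smulL]; ring

lemma dot_zeroL : ∀ (u : List ℤ) (x : List ℝ), zeroL u = true → dot u x = 0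
  | [], x, _ => by simp
  | a :: u, [], _ => by simp
  | a :: u, x :: xs, h => by
      simp only [zeroL, Bool.and_eq_true] at h
      have := (isZ_iff a).1 h.1
      subst this
      simp [dot_zeroL u xs h.2]

lemma psd_arith {a x s b : ℝ} (ha : 0 < a) (h : 0 ≤ 4 * a * b - s * s) :
    0 ≤ a * x * x + x * s + b := by
  have h1 : 0 ≤ 4 * a * (a * x * x + x * s + b) := by nlinarith [sq_nonneg (2 * a * x + s)]
  by_contra hc
  push Not at hc
  nlinarith

lemma psd_sound : ∀ (f : ℕ) (M : List (List ℤ)), psd f M = true → ∀ x, 0 ≤ bil M x x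
  | f, [], _, x => by simp
  | 0, r :: M, h, x => by simp [psd] at h
  | f + 1, r :: M, h, [] => by simp
  | f + 1, r :: M, h, x :: xs => by
      have e : bil (r :: M) (x :: xs) (x :: xs) = (hd r : ℝ) * x * x +
          x * dot (addL r.tail (M.map hd)) xs + bil (M.map List.tail) xs xs := by
        rw [bil_cons, dot_hd, bil_tail, dot_addL]; ring
      rw [e]
      simp only [psd] at h
      cases hz : isZ (hd r) with
      | true =>
        rw [hz] at h
        simp only [cond_true, Bool.and_eq_true] at h
        rw [(isZ_iff _).1 hz, dot_zeroL _ _ h.1]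
        have := psd_sound f _ h.2 xs
        simpa using this
      | false =>
        rw [hz] at h
        simp only [cond_false, Bool.and_eq_true] at h
        have h2 := psd_sound f _ h.2 xs
        rw [bil_addM, bil_smul, bil_outer, dot_smulL] at h2
        have ha : (0 : ℝ) < (hd r : ℝ) := by exact_mod_cast isPos_pos _ h.1
        apply psd_arith ha
        push_cast at h2
        linarith

end Vale.Agent.P359
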