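import Vale.Agent.P359.Struct
import Vale.Agent.P359.Sound1
import Vale.Agent.P359.Data

namespace Vale.Agent.P359

open Finset Polynomial Filter Topology

noncomputable def entF (labs : List ℕ) (G : ℕ → ℕ → ℝ) : List (List ℤ) → List ℕ → ℝ
  | r :: M, m :: ls => dot r (labs.map (G m)) + entF labs G M ls
  | _, _ => 0

lemma dot_map_mul (c : ℝ) (f : ℕ → ℝ) : ∀ (r : List ℤ) (labs : List ℕ),
    dot r (labs.map fun m => c * f m) = c * dot r (labs.map f)
  | [], labs => by simp
  | a :: r, [] => by simp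
  | a :: r, m :: labs => by simp only [List.map_cons, dot_cons, dot_map_mul c f r labs]; ring

lemma dot_map_add (f g : ℕ → ℝ) : ∀ (r : List ℤ) (labs : List ℕ),
    dot r (labs.map fun m => f m + g m) = dot r (labs.map f) + dot r (labs.map g)
  | [], labs => by simp
  | a :: r, [] => by simp
  | a :: r, m :: labs => by simp only [List.map_cons, dot_cons, dot_map_add f g r labs]; ring

lemma bil_eq_entF (f : ℕ → ℝ) (labs : List ℕ) : ∀ (M : List (List ℤ)) (ls : List ℕ),
    bil M (ls.map f) (labs.map f) = entF labs (fun m m' => f m * f m') M ls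
  | [], ls => by simp [entF]
  | r :: M, [] => by simp [entF]
  | r :: M, m :: ls => by
      simp only [List.map_cons, bil_cons, entF, bil_eq_entF f labs M ls, dot_map_mul]

lemma entF_mul (c : ℝ) (labs : List ℕ) (G : ℕ → ℕ → ℝ) : ∀ (M : List (List ℤ)) (ls : List ℕ),
    entF labs (fun m m' => c * G m m') M ls = c * entF labs G M ls
  | [], ls => by simp [entF]
  | r :: M, [] => by simp [entF]
  | r :: M, m :: ls => by
      simp only [entF, entF_mul c labs G M ls, dot_map_mul]; ring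

lemma entF_add (labs : List ℕ) (G G' : ℕ → ℕ → ℝ) : ∀ (M : List (List ℤ)) (ls : List ℕ),
    entF labs (fun m m' => G m m' + G' m m') M ls = entF labs G M ls + entF labs G' M ls
  | [], ls => by simp [entF]
  | r :: M, [] => by simp [entF]
  | r :: M, m :: ls => by
      simp only [entF, entF_add labs G G' M ls, dot_map_add]; ring

lemma entF_sum {ι : Type*} (labs : List ℕ) (M : List (List ℤ)) (ls : List ℕ) (s : Finset ι)
    (G : ι → ℕ → ℕ → ℝ) :
    entF labs (fun m m' => ∑ i ∈ s, G i m m') M ls = ∑ i ∈ s, entF labs (G i) M ls := by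
  classical
  induction s using Finset.induction_on with
  | empty =>
    have := entF_mul 0 labs (fun _ _ => 0) M ls
    simpa using this
  | insert a s ha ih =>
    simp only [sum_insert ha]
    rw [entF_add, ih]

lemma entF_congr (labs : List ℕ) (G G' : ℕ → ℕ → ℝ) : ∀ (M : List (List ℤ)) (ls : List ℕ),
    (∀ m ∈ ls, ∀ m' ∈ labs, G m m' = G' m m') → entF labs G M ls = entF labs G' M ls
  | [], ls, _ => by simp [entF]
  | r :: M, [], _ => by simp [entF]
  | r :: M, m :: ls, h => by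
      simp only [entF]
      rw [entF_congr labs G G' M ls (fun a ha => h a (List.mem_cons_of_mem _ ha)),
        List.map_congr_left (h m (by simp))]

lemma dot_tendsto {ι : Type*} {F : Filter ι} (f : ι → ℕ → ℝ) (g : ℕ → ℝ) :
    ∀ (r : List ℤ) (labs : List ℕ), (∀ m ∈ labs, Tendsto (fun i => f i m) F (𝓝 (g m))) →
    Tendsto (fun i => dot r (labs.map (f i))) F (𝓝 (dot r (labs.map g)))
  | [], labs, _ => by simpa using tendsto_const_nhds
  | a :: r, [], _ => by simpa using tendsto_const_nhds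
  | a :: r, m :: labs, h => by
      simp only [List.map_cons, dot_cons]
      exact ((h m (by simp)).const_mul _).add
        (dot_tendsto f g r labs fun m' hm' => h m' (List.mem_cons_of_mem _ hm'))

lemma entF_tendsto {ι : Type*} {F : Filter ι} (labs : List ℕ) (G : ι → ℕ → ℕ → ℝ)
    (G' : ℕ → ℕ → ℝ) : ∀ (M : List (List ℤ)) (ls : List ℕ),
    (∀ m ∈ ls, ∀ m' ∈ labs, Tendsto (fun i => G i m m') F (𝓝 (G' m m'))) →
    Tendsto (fun i => entF labs (G i) M ls) F (𝓝 (entF labs G' M ls))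
  | [], ls, _ => by simpa [entF] using tendsto_const_nhds
  | r :: M, [], _ => by simpa [entF] using tendsto_const_nhds
  | r :: M, m :: ls, h => by
      simp only [entF]
      exact (dot_tendsto (fun i => G i m) (G' m) r labs (h m (by simp))).add
        (entF_tendsto labs G G' M ls fun a ha => h a (List.mem_cons_of_mem _ ha))

def dotZ (P : List ℤ) : List ℤ → List ℕ → ℤ
  | a :: r, m :: labs => a * P.getD m 0 + dotZ P r labs
  | _, _ => 0

def entZ (labs : List ℕ) (P : List ℤ) : List (List ℤ) → List ℕ → ℤ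
  | r :: M, m :: ls => P.getD m 0 * dotZ P r labs + entZ labs P M ls
  | _, _ => 0

lemma dotZ_cast (P : List ℤ) : ∀ (r : List ℤ) (labs : List ℕ),
    (dotZ P r labs : ℝ) = dot r (labs.map fun m => (P.getD m 0 : ℝ))
  | [], labs => by simp [dotZ]
  | a :: r, [] => by simp [dotZ]
  | a :: r, m :: labs => by
      simp only [dotZ, List.map_cons, dot_cons, ← dotZ_cast P r labs]; push_cast; ring

lemma entZ_cast (labs : List ℕ) (P : List ℤ) : ∀ (M : List (List ℤ)) (ls : List ℕ),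
    (entZ labs P M ls : ℝ) =
      entF labs (fun m m' => (P.getD m 0 : ℝ) * (P.getD m' 0 : ℝ)) M ls
  | [], ls => by simp [entZ, entF]
  | r :: M, [] => by simp [entZ, entF]
  | r :: M, m :: ls => by
      simp only [entZ, entF, ← entZ_cast labs P M ls, dot_map_mul, ← dotZ_cast]; push_cast; ring

def mulLin (a b : ℤ) (p : List ℤ) : List ℤ := addL (smulL b p) (0 :: smulL a p)

def plA : ℕ → List ℤ
  | 0 => [1]
  | l + 1 => mulLin 1 (-1) (plA l)

def pl (a b : ℤ) (l : ℕ) : ℕ → List ℤ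
  | 0 => plA l
  | k + 1 => mulLin a b (pl a b l k)

lemma getD_addL : ∀ (u v : List ℤ) (m : ℕ), (addL u v).getD m 0 = u.getD m 0 + v.getD m 0
  | [], v, m => by simp [addL]
  | a :: u, [], m => by simp [addL]
  | a :: u, b :: v, 0 => by simp [addL]
  | a :: u, b :: v, m + 1 => by
      simp only [addL, List.getD_cons_succ, getD_addL u v m]

lemma getD_smulL (c : ℤ) : ∀ (u : List ℤ) (m : ℕ), (smulL c u).getD m 0 = c * u.getD m 0
  | [], m => by simp [smulL]
  | a :: u, 0 => by simp [smulL]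
  | a :: u, m + 1 => by simp only [smulL, List.getD_cons_succ, getD_smulL c u m]

lemma mulLin_coeff (a b : ℤ) (p : List ℤ) (q : ℝ[X]) (h : ∀ m, (p.getD m 0 : ℝ) = q.coeff m)
    (m : ℕ) : ((mulLin a b p).getD m 0 : ℝ) = ((C (a : ℝ) * X + C (b : ℝ)) * q).coeff m := by
  rw [mulLin, getD_addL, getD_smulL, add_mul, coeff_add, mul_assoc, coeff_C_mul, coeff_C_mul]
  cases m with
  | zero => push_cast; rw [h]; simp
  | succ m =>
    rw [List.getD_cons_succ, getD_smulL, coeff_X_mul]; push_cast; rw [h, h]; ring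

lemma plA_coeff : ∀ (l m : ℕ), ((plA l).getD m 0 : ℝ) = ((X - 1 : ℝ[X]) ^ l).coeff m
  | 0, m => by
      cases m with
      | zero => simp [plA]
      | succ m => simp [plA, coeff_one]
  | l + 1, m => by
      rw [plA, mulLin_coeff _ _ _ _ (plA_coeff l), pow_succ']
      congr 2
      simp [sub_eq_add_neg]

lemma pl_coeff (a b : ℤ) (l : ℕ) : ∀ (k m : ℕ),
    ((pl a b l k).getD m 0 : ℝ) = (Pp a b l k).coeff m
  | 0, m => by rw [pl, plA_coeff]; simp [Pp]
  | k + 1, m => by
      rw [pl, mulLin_coeff _ _ _ _ (pl_coeff a b l k)]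
      congr 1
      unfold Pp; ring

def cfQ (c k : ℕ) : ℚ := 1 / ((c ^ k * fac k : ℕ) : ℚ)

def muN (s : ℕ) : ℕ :=
  [0, 0, 0, 0, 0, 0, 0, 0, 0, 0, 0, 0, 0, 0, 0, 0, 0, 0, 25, 0, 70, 78, 115, 0, 0, 0, 197,
    0, 0, 0, 0, 0, 1].getD s 0

def lv3 (s : ℕ) (P : List ℤ) : ℚ :=
  (if 1 ≤ s then -((100000 * (s * fac (s - 1)) : ℕ) : ℚ) / ((2 ^ (s - 1) : ℕ) : ℚ) *
      ((P.getD 0 0 * P.getD (s - 1) 0 : ℤ) : ℚ) else 0) +
  (if s ≤ 31 then (((100000 * fac s : ℕ) * ((s : ℤ) - 1) : ℤ) : ℚ) / ((2 ^ s : ℕ) : ℚ) *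
      ((P.getD 0 0 * P.getD s 0 : ℤ) : ℚ) else 0) +
  (((muN s * fac s : ℕ) * (P.getD 0 0 * P.getD 0 0) -
    (if s < 16 then entZ (lab3 s) P (datY.getD s []) (lab3 s) else 0) : ℤ) : ℚ)

def lv4 (s : ℕ) (P : List ℤ) : ℚ :=
  ((100000 * fac s : ℕ) : ℚ) / ((2 ^ s : ℕ) : ℚ) * ((P.getD 0 0 * P.getD 0 0 : ℤ) : ℚ) -
  ((if s < 15 then entZ (lab4 s) P (datQ.getD s []) (lab4 s) else 0 : ℤ) : ℚ)

def lp3 (l : ℕ) : ℚ :=
  ∑ s ∈ range 33, if l ≤ s then cfQ 3 (s - l) * lv3 s (pl 2 1 l (s - l)) else 0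

def lp4 (l : ℕ) : ℚ :=
  ∑ s ∈ range 41, if l ≤ s then cfQ 4 (s - l) * lv4 s (pl 2 2 l (s - l)) else 0

end Vale.Agent.P359
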