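import Vale.Agent.P359.Plane1

namespace Vale.Agent.P359

theorem lp3_nonneg : ∀ l < 33, 0 ≤ lp3 l := by decide +kernel

theorem lp4_nonneg : ∀ l < 21, 0 ≤ lp4 (2 * l) := by decide +kernel

end Vale.Agent.P359
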