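import Vale.Agent.P359.Sound1
import Vale.Agent.P359.FockDefs

namespace Vale.Agent.P359

open Finset

lemma ann_app (a : ℕ) (x : Fock) (S : Finset ℕ) :
    ann a x S = if a ∈ S then 0 else sg a S * x (insert a S) := rfl

noncomputable def wordOp : List ℕ → Module.End ℝ Fock
  | [] => 1
  | a :: w => ann a * wordOp w

noncomputable def opOf : Words → Module.End ℝ Fock
  | [] => 0
  | p :: ws => (p.1 : ℝ) • wordOp p.2 + opOf ws

abbrev Srt (l : List ℕ) : Prop := l.Pairwise (· < ·)

lemma ins_mem (a : ℕ) : ∀ (l : List ℕ) (x : ℕ), x ∈ (ins a l).2 → x = a ∨ x ∈ l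
  | [], x, h => by simpa [ins] using h
  | b :: l, x, h => by
      simp only [ins] at h
      cases h1 : Nat.blt a b with
      | true => rw [h1] at h; simpa using h
      | false =>
        rw [h1] at h
        cases h2 : Nat.beq a b with
        | true => rw [h2] at h; simp at h
        | false =>
          rw [h2] at h
          simp only [cond_false, List.mem_cons] at h ⊢
          rcases h with h | h
          · exact Or.inr (Or.inl h)
          · rcases ins_mem a l x h with h | h
            · exact Or.inl h
            · exact Or.inr (Or.inr h)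

lemma sg_insert_lt {a b : ℕ} {S : Finset ℕ} (hb : b ∉ S) (h : b < a) :
    sg a (insert b S) = - sg a S := by
  unfold sg
  rw [filter_insert, if_pos h, card_insert_of_notMem (by simp [hb]), pow_succ]; ring

lemma sg_insert_ge {a b : ℕ} {S : Finset ℕ} (h : ¬ b < a) :
    sg a (insert b S) = sg a S := by
  unfold sg
  rw [filter_insert, if_neg h]

lemma ins_spec (a : ℕ) : ∀ (l : List ℕ), Srt l →
    Srt (ins a l).2 ∧ (if a ∈ l then (ins a l).1 = 0 else
      ((ins a l).1 : ℝ) = sg a l.toFinset ∧ (ins a l).2.toFinset = insert a l.toFinset)
  | [], _ => by simp [ins, sg]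
  | b :: l, hl => by
      have hl' := List.pairwise_cons.1 hl
      have hb : b ∉ l := fun h => lt_irrefl _ (hl'.1 b h)
      simp only [ins]
      cases h1 : Nat.blt a b with
      | true =>
        have hab : a < b := by simpa [Nat.blt_eq] using h1
        have hal : ∀ x ∈ l, a < x := fun x hx => hab.trans (hl'.1 x hx)
        have hn : a ∉ b :: l := by
          simp only [List.mem_cons, not_or]
          exact ⟨hab.ne, fun h => lt_irrefl _ (hal a h)⟩
        simp only [cond_true, if_neg hn]
        refine ⟨List.pairwise_cons.2 ⟨?_, hl⟩, ?_, by simp⟩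
        · intro x hx
          rcases List.mem_cons.1 hx with h | h
          · exact h ▸ hab
          · exact hal x h
        · unfold sg
          rw [filter_eq_empty_iff.2]
          · simp
          · intro x hx
            simp only [List.toFinset_cons, mem_insert, List.mem_toFinset] at hx
            rcases hx with h | h
            · omega
            · have := hal x h; omega
      | false =>
        have hab : ¬ a < b := by
          intro h; rw [← Nat.blt_eq, h1] at h; exact absurd h (by simp)
        cases h2 : Nat.beq a b with
        | true =>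
          have : a = b := Nat.eq_of_beq_eq_true h2
          subst this
          simp
        | false =>
          have hne : a ≠ b := Nat.ne_of_beq_eq_false h2
          have hba : b < a := by omega
          obtain ⟨i1, i2⟩ := ins_spec a l hl'.2
          simp only [cond_false]
          refine ⟨List.pairwise_cons.2 ⟨?_, i1⟩, ?_⟩
          · intro x hx
            rcases ins_mem a l x hx with h | h
            · exact h ▸ hba
            · exact hl'.1 x h
          · by_cases hal : a ∈ l
            · rw [if_pos hal] at i2
              rw [if_pos (List.mem_cons_of_mem _ hal), i2]; simp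
            · rw [if_neg hal] at i2
              rw [if_neg (by simp [hne, hal])]
              refine ⟨?_, ?_⟩
              · rw [List.toFinset_cons, sg_insert_lt (by simpa using hb) hba, ← i2.1]; simp
              · rw [List.toFinset_cons, i2.2, List.toFinset_cons, insert_comm]

lemma app_spec (z : Fock) : ∀ (w : List ℕ) (c : ℤ) (R : List ℕ), Srt R →
    (c : ℝ) * wordOp w z R.toFinset = ((app w c R).1 : ℝ) * z (app w c R).2.toFinset
  | [], c, R, _ => by simp [app, wordOp]
  | a :: w, c, R, hR => by
      obtain ⟨i1, i2⟩ := ins_spec a R hR
      simp only [app, wordOp, Module.End.mul_apply, ann_app, List.mem_toFinset]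
      by_cases ha : a ∈ R
      · rw [if_pos ha] at i2
        rw [if_pos ha, (isZ_iff _).2 i2]; simp
      · rw [if_neg ha] at i2
        have hz : isZ (ins a R).1 = false := by
          cases h : isZ (ins a R).1 with
          | false => rfl
          | true =>
            have h0 := (isZ_iff _).1 h
            rw [h0] at i2
            have : sg a R.toFinset ≠ 0 := by unfold sg; positivity
            exact absurd i2.1.symm (by simpa using this)
        rw [if_neg ha, hz, cond_false, ← app_spec z w _ _ i1, i2.2, ← i2.1]
        push_cast; ring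

lemma res_spec (z : Fock) (R : List ℕ) (hR : Srt R) : ∀ ws : Words,
    opOf ws z R.toFinset = ((res ws R).map fun p => (p.1 : ℝ) * z p.2.toFinset).sum
  | [] => by simp [opOf, res]
  | p :: ws => by
      have h1 := app_spec z p.2 p.1 R hR
      simp only [opOf, res, LinearMap.add_apply, LinearMap.smul_apply, Pi.add_apply,
        Pi.smul_apply, smul_eq_mul, res_spec z R hR ws, h1]
      cases h : isZ (app p.2 p.1 R).1 with
      | true => rw [(isZ_iff _).1 h]; simp
      | false => simp

lemma eqL_eq : ∀ (l m : List ℕ), eqL l m = true → l = m
  | [], [], _ => rfl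
  | [], _ :: _, h => by simp [eqL] at h
  | _ :: _, [], h => by simp [eqL] at h
  | a :: l, b :: m, h => by
      simp only [eqL, Bool.and_eq_true] at h
      rw [Nat.eq_of_beq_eq_true h.1, eqL_eq l m h.2]

lemma dot_unitAt (f : List ℕ → ℝ) (s : List ℕ) (c : ℤ) : ∀ σ : List (List ℕ),
    elemL σ s = true → dot (unitAt σ s c) (σ.map f) = c * f s
  | [], h => by simp [elemL] at h
  | t :: σ, h => by
      simp only [elemL, unitAt, List.map_cons] at h ⊢
      cases h1 : eqL t s with
      | true => rw [eqL_eq _ _ h1]; simp
      | false =>
        rw [h1] at h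
        simp [dot_unitAt f s c σ (by simpa using h)]

lemma dot_vecOf (f : List ℕ → ℝ) (σ : List (List ℕ)) : ∀ l : List (ℤ × List ℕ),
    okOf σ l = true → dot (vecOf σ l) (σ.map f) = (l.map fun p => (p.1 : ℝ) * f p.2).sum
  | [], _ => by simp [vecOf]
  | p :: l, h => by
      simp only [okOf, Bool.and_eq_true] at h
      simp only [vecOf, dot_addL, dot_unitAt f _ _ σ h.1, dot_vecOf f σ l h.2, List.map_cons,
        List.sum_cons]

noncomputable def WF (R : Finset ℕ) : ℝ := ∏ i ∈ R, (i.factorial : ℝ)

lemma fac_eq : ∀ n, fac n = n.factorial
  | 0 => rfl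
  | n + 1 => by rw [fac, fac_eq n, Nat.factorial_succ]

lemma wR_eq : ∀ l : List ℕ, Srt l → (wR l : ℝ) = WF l.toFinset
  | [], _ => by simp [wR, WF]
  | a :: l, h => by
      have hl' := List.pairwise_cons.1 h
      have hb : a ∉ l.toFinset := fun h => lt_irrefl _ (hl'.1 a (List.mem_toFinset.1 h))
      have := wR_eq l hl'.2
      unfold WF at this ⊢
      rw [List.toFinset_cons, prod_insert hb, wR, fac_eq, Nat.cast_mul, this]

noncomputable def gForm (g : Grp) (z : Fock) (R : Finset ℕ) : ℝ :=
  WF R * bil g.mat (g.labs.map fun ws => opOf ws z R) (g.labs.map fun ws => opOf ws z R)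

lemma grpM_spec (σ : List (List ℕ)) (g : Grp) (z : Fock) : ∀ Rs : List (List ℕ),
    (∀ R ∈ Rs, Srt R) → grpOk σ g Rs = true →
    bil (grpM σ g Rs) (σ.map fun s => z s.toFinset) (σ.map fun s => z s.toFinset) =
      (Rs.map fun R => gForm g z R.toFinset).sum
  | [], _, _ => by simp [grpM]
  | R :: Rs, hs, h => by
      simp only [grpOk, Bool.and_eq_true, List.all_eq_true] at h
      have hR := hs R (by simp)
      have e : ((g.labs.map fun ws => vecOf σ (res ws R)).map fun v =>
          dot v (σ.map fun s => z s.toFinset)) = g.labs.map fun ws => opOf ws z R.toFinset := by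
        rw [List.map_map]
        apply List.map_congr_left
        intro ws hws
        simp only [Function.comp]
        rw [dot_vecOf (fun s => z s.toFinset) σ _ (h.1 ws hws), res_spec z R hR]
      rw [grpM, bil_addM, bil_contrib, e,
        grpM_spec σ g z Rs (fun R' hR' => hs R' (List.mem_cons_of_mem _ hR')) h.2,
        List.map_cons, List.sum_cons, gForm, ← wR_eq R hR]
      simp

end Vale.Agent.P359
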