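import Vale.Agent.P359.Sound2

namespace Vale.Agent.P359

open Finset

lemma gen_srt : ∀ (n lo k d : ℕ) (l : List ℕ), l ∈ gen n lo k d → Srt l ∧ ∀ x ∈ l, lo ≤ x
  | 0, lo, k, d, l, h => by
      simp only [gen] at h
      cases hc : (Nat.beq k 0 && Nat.beq d 0) <;> rw [hc] at h <;> simp at h
      subst h; simp
  | n + 1, lo, k, d, l, h => by
      simp only [gen] at h
      cases h1 : Nat.beq k 0 with
      | true =>
        rw [h1] at h
        cases h2 : Nat.beq d 0 <;> rw [h2] at h <;> simp at h
        subst h; simp
      | false =>
        rw [h1] at h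
        cases h2 : (Nat.blt (n + 1) k || Nat.blt d (k * lo) || Nat.blt (k * (lo + n)) d) with
        | true => rw [h2] at h; simp at h
        | false =>
          rw [h2] at h
          simp only [cond_false, List.mem_append, List.mem_map] at h
          rcases h with ⟨l', hl', rfl⟩ | h
          · obtain ⟨a1, a2⟩ := gen_srt n (lo + 1) _ _ l' hl'
            refine ⟨List.pairwise_cons.2 ⟨fun x hx => a2 x hx, a1⟩, ?_⟩
            intro x hx
            rcases List.mem_cons.1 hx with h | h
            · omega
            · have := a2 x h; omega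
          · obtain ⟨a1, a2⟩ := gen_srt n (lo + 1) _ _ l h
            exact ⟨a1, fun x hx => by have := a2 x hx; omega⟩

lemma card_zero_sum (s : Finset ℕ) (d : ℕ) (f : Finset ℕ → ℝ) :
    ∑ R ∈ s.powerset, (if R.card = 0 ∧ ∑ i ∈ R, i = d then f R else 0) =
      if d = 0 then f ∅ else 0 := by
  rw [sum_eq_single ∅]
  · by_cases h : d = 0
    · simp [h]
    · simp [h, Ne.symm h]
  · intro R _ hR
    rw [if_neg]
    rintro ⟨h, -⟩
    exact hR (card_eq_zero.1 h)
  · intro h; simp at h

lemma gen_sum : ∀ (n lo k d : ℕ) (f : Finset ℕ → ℝ),
    ∑ R ∈ (Ico lo (lo + n)).powerset, (if R.card = k ∧ ∑ i ∈ R, i = d then f R else 0) =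
      ((gen n lo k d).map fun l => f l.toFinset).sum
  | 0, lo, k, d, f => by
      simp only [gen, add_zero, Ico_self, powerset_empty, sum_singleton, card_empty, sum_empty]
      cases hc : (Nat.beq k 0 && Nat.beq d 0) with
      | true =>
        simp only [Bool.and_eq_true, Nat.beq_eq] at hc
        simp [hc.1, hc.2]
      | false =>
        have : ¬ (0 = k ∧ 0 = d) := by
          rintro ⟨h1, h2⟩
          subst h1; subst h2
          simp at hc
        simp only [cond_false, List.map_nil, List.sum_nil]
        exact if_neg this
  | n + 1, lo, k, d, f => by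
      simp only [gen]
      cases h1 : Nat.beq k 0 with
      | true =>
        have : k = 0 := Nat.eq_of_beq_eq_true h1
        subst this
        rw [card_zero_sum]
        cases h2 : Nat.beq d 0 with
        | true => simp [Nat.eq_of_beq_eq_true h2]
        | false => simp [Nat.ne_of_beq_eq_false h2]
      | false =>
        have hk : k ≠ 0 := Nat.ne_of_beq_eq_false h1
        cases h2 : (Nat.blt (n + 1) k || Nat.blt d (k * lo) || Nat.blt (k * (lo + n)) d) with
        | true =>
          simp only [cond_true, cond_false, List.map_nil, List.sum_nil]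
          apply sum_eq_zero
          intro R hR
          rw [if_neg]
          rintro ⟨c1, c2⟩
          have hsub := mem_powerset.1 hR
          have b1 : R.card ≤ n + 1 := by
            have := card_le_card hsub
            simpa using this
          have b2 : R.card * lo ≤ ∑ i ∈ R, i := by
            have := card_nsmul_le_sum R (fun i => i) lo
              (fun x hx => (mem_Ico.1 (hsub hx)).1)
            simpa using this
          have b3 : ∑ i ∈ R, i ≤ R.card * (lo + n) := by
            have := sum_le_card_nsmul R (fun i => i) (lo + n)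
              (fun x hx => by have := (mem_Ico.1 (hsub hx)).2; omega)
            simpa using this
          rw [c1, c2] at *
          simp only [Bool.or_eq_true, Nat.blt_eq] at h2
          omega
        | false =>
          simp only [Bool.or_eq_false_iff] at h2
          have hd : k * lo ≤ d := by
            by_contra hc
            have : Nat.blt d (k * lo) = true := by rw [Nat.blt_eq]; omega
            rw [this] at h2; simp at h2
          have hlo : lo ≤ d := le_trans (Nat.le_mul_of_pos_left lo (Nat.pos_of_ne_zero hk)) hd
          have e : Ico lo (lo + (n + 1)) = insert lo (Ico (lo + 1) (lo + 1 + n)) := by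
            ext x; simp only [mem_Ico, mem_insert]; omega
          have hn : lo ∉ Ico (lo + 1) (lo + 1 + n) := by simp
          rw [e, sum_powerset_insert hn, gen_sum n (lo + 1) k d f]
          simp only [cond_false, List.map_append, List.sum_append, List.map_map]
          rw [add_comm]
          congr 1
          have := gen_sum n (lo + 1) (k - 1) (d - lo) (fun R => f (insert lo R))
          have e2 : ((fun l : List ℕ => f l.toFinset) ∘ fun l => lo :: l) =
              fun l : List ℕ => f (insert lo l.toFinset) := by
            funext l; simp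
          rw [e2, ← this]
          apply sum_congr rfl
          intro R hR
          have hR' : lo ∉ R := fun h => hn (mem_powerset.1 hR h)
          rw [card_insert_of_notMem hR', sum_insert hR']
          apply if_congr _ rfl rfl
          constructor
          · rintro ⟨a, b⟩; constructor <;> omega
          · rintro ⟨a, b⟩; constructor <;> omega

lemma rsOf_sum (N D : ℕ) (g : Grp) (f : Finset ℕ → ℝ) :
    ((rsOf N D g).map fun l => f l.toFinset).sum =
      ∑ R ∈ (range 9).powerset,
        (if R.card + g.k = N ∧ ∑ i ∈ R, i + g.d = D then f R else 0) := by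
  unfold rsOf
  cases h : (Nat.ble g.k N && Nat.ble g.d D) with
  | true =>
    simp only [Bool.and_eq_true, Nat.ble_eq] at h
    rw [cond_true, ← gen_sum, zero_add, ← range_eq_Ico]
    apply sum_congr rfl
    intro R _
    apply if_congr _ rfl rfl
    constructor
    · rintro ⟨a, b⟩; constructor <;> omega
    · rintro ⟨a, b⟩; constructor <;> omega
  | false =>
    simp only [cond_false, List.map_nil, List.sum_nil]
    symm
    apply sum_eq_zero
    intro R _
    rw [if_neg]
    rintro ⟨a, b⟩
    have : (Nat.ble g.k N && Nat.ble g.d D) = true := by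
      simp only [Bool.and_eq_true, Nat.ble_eq]; omega
    rw [this] at h; simp at h

lemma rsOf_srt (N D : ℕ) (g : Grp) : ∀ R ∈ rsOf N D g, Srt R := by
  intro R hR
  unfold rsOf at hR
  cases h : (Nat.ble g.k N && Nat.ble g.d D) <;> rw [h] at hR
  · simp at hR
  · exact (gen_srt _ _ _ _ _ hR).1

lemma blockM_spec (N D : ℕ) (σ : List (List ℕ)) (z : Fock) : ∀ gs : List Grp,
    blockOk N D σ gs = true →
    bil (blockM N D σ gs) (σ.map fun s => z s.toFinset) (σ.map fun s => z s.toFinset) =
      (gs.map fun g => ∑ R ∈ (range 9).powerset,
        (if R.card + g.k = N ∧ ∑ i ∈ R, i + g.d = D then gForm g z R else 0)).sum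
  | [], _ => by simp [blockM]
  | g :: gs, h => by
      simp only [blockOk, Bool.and_eq_true] at h
      rw [blockM, bil_addM, grpM_spec σ g z _ (rsOf_srt N D g) h.1, blockM_spec N D σ z gs h.2,
        rsOf_sum N D g (gForm g z), List.map_cons, List.sum_cons]

lemma grp_split (g : Grp) (hk : g.k ≤ 4) (hd : g.d ≤ 16) (f : Finset ℕ → ℝ) :
    ∑ R ∈ (range 9).powerset, f R = ∑ N ∈ range 14, ∑ D ∈ range 64, ∑ R ∈ (range 9).powerset,
      (if R.card + g.k = N ∧ ∑ i ∈ R, i + g.d = D then f R else 0) := by
  have e : ∀ R ∈ (range 9).powerset, f R = ∑ N ∈ range 14, ∑ D ∈ range 64,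
      (if R.card + g.k = N ∧ ∑ i ∈ R, i + g.d = D then f R else 0) := by
    intro R hR
    have hsub := mem_powerset.1 hR
    have b1 : R.card ≤ 9 := by simpa using card_le_card hsub
    have b2 : ∑ i ∈ R, i ≤ 36 := le_trans (sum_le_sum_of_subset hsub) (by decide)
    rw [sum_eq_single (R.card + g.k), sum_eq_single (∑ i ∈ R, i + g.d)]
    · simp
    · intro D _ hD; rw [if_neg (fun h => hD h.2.symm)]
    · intro h; exact absurd (mem_range.2 (by omega)) h
    · intro N _ hN
      exact sum_eq_zero fun D _ => if_neg (fun h => hN h.1.symm)
    · intro h; exact absurd (mem_range.2 (by omega)) h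
  rw [sum_congr rfl e, sum_comm]
  exact sum_congr rfl fun N _ => sum_comm

lemma list_sum_comm {ι : Type*} (s : Finset ℕ) (F : ι → ℕ → ℝ) : ∀ l : List ι,
    (l.map fun g => ∑ N ∈ s, F g N).sum = ∑ N ∈ s, (l.map fun g => F g N).sum
  | [] => by simp
  | g :: l => by simp [list_sum_comm s F l, sum_add_distrib]

theorem local_sound (gs : List Grp) (hg : ∀ g ∈ gs, g.k ≤ 4 ∧ g.d ≤ 16)
    (h : ∀ N < 14, ∀ D < 64, chk gs N D = true) (z : Fock) :
    0 ≤ (gs.map fun g => ∑ R ∈ (range 9).powerset, gForm g z R).sum := by
  rw [List.map_congr_left (fun g hg' => grp_split g (hg g hg').1 (hg g hg').2 (gForm g z)),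
    list_sum_comm]
  apply sum_nonneg
  intro N hN
  rw [list_sum_comm]
  apply sum_nonneg
  intro D hD
  have := h N (mem_range.1 hN) D (mem_range.1 hD)
  simp only [chk, Bool.and_eq_true] at this
  rw [← blockM_spec N D _ z gs this.1]
  exact psd_sound _ _ this.2 _

end Vale.Agent.P359
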