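import Vale.Agent.P359.Limit

namespace Vale.Agent.P359

open Finset Filter

abbrev Idx (Q : ℕ) := ↥((range (Q + 1)).powerset)

abbrev Vs (Q : ℕ) := EuclideanSpace ℝ (Idx Q)

noncomputable def extV (Q : ℕ) : Vs Q →ₗ[ℝ] Fock where
  toFun v := fun S => if h : S ∈ (range (Q + 1)).powerset then v ⟨S, h⟩ else 0
  map_add' x y := by
    funext S; by_cases h : S ⊆ range (Q + 1) <;> simp [h]
  map_smul' c x := by
    funext S; by_cases h : S ⊆ range (Q + 1) <;> simp [h]

noncomputable def resV (Q : ℕ) : Fock →ₗ[ℝ] Vs Q where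
  toFun x := WithLp.toLp 2 fun S => x S.1
  map_add' x y := by ext S; simp
  map_smul' c x := by ext S; simp

lemma res_ext (Q : ℕ) (v : Vs Q) : resV Q (extV Q v) = v := by
  ext S
  show (if h : S.1 ∈ (range (Q + 1)).powerset then v ⟨S.1, h⟩ else 0) = v S
  rw [dif_pos S.2]

lemma ext_res {Q : ℕ} {x : Fock} (hx : Supp Q x) : extV Q (resV Q x) = x := by
  funext S
  show (if h : S ∈ (range (Q + 1)).powerset then x S else 0) = x S
  split_ifs with h
  · rfl
  · exact (hx S (fun h' => h (mem_powerset.2 h'))).symm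

lemma supp_ext (Q : ℕ) (v : Vs Q) : Supp Q (extV Q v) := fun _ hS =>
  dif_neg (fun h => hS (mem_powerset.1 h))

lemma ip_res (Q : ℕ) (x y : Fock) : ip Q x y = inner ℝ (resV Q x) (resV Q y) := by
  rw [ip, PiLp.inner_apply, ← sum_coe_sort]
  apply sum_congr rfl
  intro S _
  show x S.1 * y S.1 = inner ℝ (x S.1) (y S.1)
  simp [mul_comm]

noncomputable def hcd (Q a : ℕ) : Op := wt Q a • cre a

noncomputable def hAd (Q m : ℕ) : Op :=
  ∑ p ∈ antidiagonal (m + 1), (((p.2 : ℝ) - (p.1 : ℝ)) / 2) • (hcd Q p.1 * hcd Q p.2)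

noncomputable def Hop (Q : ℕ) : Op := ∑ M ∈ range (2 * Q - 1), (nu Q M)⁻¹ • (hAd Q M * hA Q M)

lemma ip_hcd (Q a : ℕ) (x y : Fock) : ip Q x (hcd Q a y) = ip Q (hc Q a x) y := by
  by_cases h : a ≤ Q
  · rw [hcd, hc, LinearMap.smul_apply, LinearMap.smul_apply, ip_smul_left, ip_smul_right,
      ip_comm Q x, ip_cre h, ip_comm]
  · rw [hcd, hc, wt_gt (by omega)]; simp [ip_zero_left, ip_zero_right]

lemma ip_hAd (Q m : ℕ) (x y : Fock) : ip Q x (hAd Q m y) = ip Q (hA Q m x) y := by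
  simp only [hAd, hA, LinearMap.sum_apply, LinearMap.smul_apply, ip_sum_left, ip_sum_right,
    ip_smul_left, ip_smul_right, Module.End.mul_apply, ip_hcd]

lemma ip_Hop (Q : ℕ) (x y : Fock) : ip Q x (Hop Q y) = Bf Q x y := by
  simp only [Hop, Bf, LinearMap.sum_apply, LinearMap.smul_apply, ip_sum_right, ip_smul_right,
    Module.End.mul_apply, ip_hAd, inv_mul_eq_div]

lemma Bf_comm (Q : ℕ) (x y : Fock) : Bf Q x y = Bf Q y x :=
  sum_congr rfl fun _ _ => by rw [ip_comm]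

noncomputable def Tv (Q : ℕ) : Vs Q →ₗ[ℝ] Vs Q := resV Q ∘ₗ Hop Q ∘ₗ extV Q

lemma inner_Tv (Q : ℕ) (x : Fock) (v : Vs Q) :
    inner ℝ (resV Q x) (Tv Q v) = Bf Q x (extV Q v) := by
  rw [← ip_Hop, ip_res]; rfl

lemma Tv_symm (Q : ℕ) : (Tv Q).IsSymmetric := by
  intro v w
  rw [real_inner_comm, ← res_ext Q w, inner_Tv, res_ext, ← res_ext Q v, inner_Tv, res_ext, Bf_comm]

lemma supp_jp {Q : ℕ} {x : Fock} (hx : Supp Q x) : Supp Q (jp Q x) := by
  rw [jp, LinearMap.sum_apply]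
  exact supp_sum _ _ fun a ha => supp_smul _
    (supp_cre (by have := mem_range.1 ha; omega) (supp_ann _ hx))

lemma supp_jm {Q : ℕ} {x : Fock} (hx : Supp Q x) : Supp Q (jm Q x) := by
  rw [jm, LinearMap.sum_apply]
  exact supp_sum _ _ fun a ha => supp_smul _
    (supp_cre (by have := mem_range.1 ha; omega) (supp_ann _ hx))

lemma supp_hA {Q : ℕ} (m : ℕ) {x : Fock} (hx : Supp Q x) : Supp Q (hA Q m x) := by
  rw [hA, LinearMap.sum_apply]
  exact supp_sum _ _ fun p _ => supp_smul _ (supp_smul _ (supp_ann _ (supp_smul _ (supp_ann _ hx))))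

lemma eq_zero_of_ip {Q : ℕ} {x : Fock} (hx : Supp Q x) (h : ip Q x x = 0) : x = 0 := by
  rw [ip_res, inner_self_eq_zero] at h
  rw [← ext_res hx, h, map_zero]

theorem eig_basis (Q : ℕ) : ∃ (n : ℕ) (u : Fin n → Fock) (lv : Fin n → ℝ),
    (∀ i, Supp Q (u i)) ∧ (∀ i x, Bf Q x (u i) = lv i * ip Q x (u i)) ∧
    (∀ x, Supp Q x → x = ∑ i, ip Q (u i) x • u i) ∧ (∀ i, ip Q (u i) (u i) = 1) := by
  have hn : Module.finrank ℝ (Vs Q) = Module.finrank ℝ (Vs Q) := rfl
  let b := (Tv_symm Q).eigenvectorBasis hn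
  refine ⟨_, fun i => extV Q (b i), fun i => (Tv_symm Q).eigenvalues hn i,
    fun i => supp_ext Q _, ?_, ?_, ?_⟩
  · intro i x
    rw [← inner_Tv, (Tv_symm Q).apply_eigenvectorBasis hn i, inner_smul_right, ip_res, res_ext]
    rfl
  · intro x hx
    conv_lhs => rw [← ext_res hx, ← b.sum_repr' (resV Q x), map_sum]
    apply sum_congr rfl
    intro i _
    rw [map_smul, ip_res, res_ext]
  · intro i
    rw [ip_res, res_ext, real_inner_self_eq_norm_sq, b.orthonormal.1 i]; norm_num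

lemma eig_inv {Q n : ℕ} (hQ : 0 < Q) {u : Fin n → Fock} {lv : Fin n → ℝ}
    (h1 : ∀ i, Supp Q (u i)) (h2 : ∀ i x, Bf Q x (u i) = lv i * ip Q x (u i))
    (h3 : ∀ x, Supp Q x → x = ∑ i, ip Q (u i) x • u i) (E : ℝ) :
    Inv Q (univ.filter fun k => lv k = E) u := by
  have z : ∀ k l, lv k ≠ lv l → ip Q (u l) (jp Q (u k)) = 0 := by
    intro k l hkl
    have e := Bf_inv hQ (u l) (u k)
    rw [h2, Bf_comm, h2, ip_jm, ip_comm Q (jp Q (u k))] at e
    have : (lv k - lv l) * ip Q (u l) (jp Q (u k)) = 0 := by linarith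
    exact (mul_eq_zero.1 this).resolve_left (sub_ne_zero.2 hkl)
  have p : ∀ k ∈ univ.filter (fun k => lv k = E), jp Q (u k) =
      ∑ l ∈ univ.filter (fun k => lv k = E), ip Q (u l) (jp Q (u k)) • u l := by
    intro k hk
    conv_lhs => rw [h3 _ (supp_jp (h1 k))]
    symm
    apply sum_subset (filter_subset _ _)
    intro l _ hl
    rw [z k l, zero_smul]
    intro h
    exact hl (mem_filter.2 ⟨mem_univ _, h ▸ (mem_filter.1 hk).2⟩)
  have q : ∀ l ∈ univ.filter (fun k => lv k = E), jm Q (u l) =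
      ∑ k ∈ univ.filter (fun k => lv k = E), ip Q (u l) (jp Q (u k)) • u k := by
    intro l hl
    conv_lhs => rw [h3 _ (supp_jm (h1 l))]
    simp only [ip_comm Q _ (jm Q (u l)), ip_jm]
    symm
    apply sum_subset (filter_subset _ _)
    intro k _ hk
    rw [z k l, zero_smul]
    intro h
    exact hk (mem_filter.2 ⟨mem_univ _, h.trans (mem_filter.1 hl).2⟩)
  intro X Y
  unfold om
  simp only [Module.End.mul_apply]
  rw [sum_congr rfl fun k hk => by rw [p k hk], sum_congr rfl (s₂ := univ.filter _)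
    (f := fun l => ip Q (X (jm Q (u l))) (Y (u l))) fun l hl => by rw [q l hl]]
  simp only [map_sum, map_smul, ip_sum_left, ip_sum_right, ip_smul_left, ip_smul_right]
  exact sum_comm

theorem fock_gap : FockGap := by
  obtain ⟨Q1, hQ1⟩ := eventually_atTop.1 mom_gap
  refine ⟨1 / 100, by norm_num, max Q1 21, fun Q hQ x hx hker => ?_⟩
  have hQa : Q1 ≤ Q := le_of_max_le_left hQ
  have hQb : 21 ≤ Q := le_of_max_le_right hQ
  have hQ0 : 0 < Q := by omega
  obtain ⟨n, u, lv, h1, h2, h3, h4⟩ := eig_basis Q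
  have hl : ∀ i, lv i = Bf Q (u i) (u i) := fun i => by rw [h2, h4, mul_one]
  have hterm : ∀ i, ∀ M ∈ range (2 * Q - 1), 0 ≤ ip Q (hA Q M (u i)) (hA Q M (u i)) / nu Q M :=
    fun i M _ => div_nonneg (ip_nonneg _ _) (nu_nonneg _ _)
  have key : ∀ i, 1 / 100 * (ip Q (u i) x * ip Q (u i) x) ≤ lv i * (ip Q (u i) x * ip Q (u i) x) := by
    intro i
    have h0 : 0 ≤ lv i := by rw [hl]; exact sum_nonneg (hterm i)
    rcases h0.eq_or_lt with h0 | h0
    · have hz : ∀ m, hA Q m (u i) = 0 := by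
        intro m
        by_cases hm : m < 2 * Q - 1
        · have := (sum_eq_zero_iff_of_nonneg (hterm i)).1 ((hl i).symm.trans h0.symm) m
            (mem_range.2 hm)
          exact eq_zero_of_ip (supp_hA m (h1 i))
            ((div_eq_zero_iff.1 this).resolve_right (nu_pos hQ0 hm).ne')
        · rw [hA_big (not_lt.1 hm)]; rfl
      rw [ip_comm Q (u i), hker (u i) (h1 i) hz]; simp
    · obtain ⟨d, hd1, hd2⟩ := exists_mom hQb (eig_inv hQ0 h1 h2 h3 (lv i))
        (E := lv i) (fun k hk y => by rw [h2, (mem_filter.1 hk).2]) h0 (by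
          unfold om
          simp only [Module.End.one_apply, h4]
          rw [sum_const, nsmul_eq_mul, mul_one]
          exact_mod_cast card_pos.2 ⟨i, by simp⟩)
      have := hQ1 Q hQa d hd2 (hd1 ▸ h0)
      rw [hd1] at this
      exact mul_le_mul_of_nonneg_right this (mul_self_nonneg _)
  have e1 : ip Q x x = ∑ i, ip Q (u i) x * ip Q (u i) x := by
    conv_lhs => rw [show ip Q x x = ip Q (∑ i, ip Q (u i) x • u i) x by rw [← h3 x hx]]
    simp only [ip_sum_left, ip_smul_left]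
  have e2 : form Q x = ∑ i, lv i * (ip Q (u i) x * ip Q (u i) x) := by
    have : form Q x = ip Q (∑ i, ip Q (u i) x • u i) (Hop Q x) := by
      rw [← h3 x hx, ip_Hop]; rfl
    rw [this, ip_sum_left]
    apply sum_congr rfl
    intro i _
    rw [ip_smul_left, ip_Hop, Bf_comm, h2, ip_comm Q x]; ring
  rw [e1, e2, mul_sum]
  exact sum_le_sum fun i _ => key i

end Vale.Agent.P359
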