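import Mathlib

namespace Vale.Agent.P359

open Finset Polynomial

noncomputable def Pp (α β : ℝ) (l k : ℕ) : ℝ[X] := (X - 1) ^ l * (C α * X + C β) ^ k

lemma Pp_succ (α β : ℝ) (l k m : ℕ) : (Pp α β l (k + 1)).coeff m =
    (if m = 0 then 0 else α * (Pp α β l k).coeff (m - 1)) + β * (Pp α β l k).coeff m := by
  have : Pp α β l (k + 1) = C α * (X * Pp α β l k) + C β * Pp α β l k := by
    unfold Pp; ring
  rw [this, coeff_add, coeff_C_mul, coeff_C_mul]
  cases m with
  | zero => simp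
  | succ m => simp [coeff_X_mul]

lemma Pp_deriv_poly (α β : ℝ) (l k : ℕ) :
    derivative (Pp α β l k) + C ((l : ℝ) + k) * Pp α β l k - X * derivative (Pp α β l k) =
      C ((k : ℝ) * (α + β)) * Pp α β l (k - 1) := by
  unfold Pp
  rcases l with _ | l <;> rcases k with _ | k <;>
    simp only [derivative_mul, derivative_pow, derivative_sub, derivative_X,
      derivative_one, derivative_C, Nat.add_sub_cancel, map_add, map_mul, map_natCast,
      Nat.cast_add, Nat.cast_one, Nat.cast_zero, map_one, map_zero, Nat.zero_sub] <;> ring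

lemma Pp_deriv (α β : ℝ) (l k m : ℕ) :
    ((m : ℝ) + 1) * (Pp α β l k).coeff (m + 1) + ((l : ℝ) + k - m) * (Pp α β l k).coeff m =
      (k : ℝ) * (α + β) * (Pp α β l (k - 1)).coeff m := by
  have h := congrArg (fun p => p.coeff m) (Pp_deriv_poly α β l k)
  simp only [coeff_sub, coeff_add, coeff_C_mul, coeff_derivative] at h
  rw [← h]
  cases m with
  | zero => simp
  | succ m => rw [coeff_X_mul, coeff_derivative]; push_cast; ring

lemma Pp_natDegree (α β : ℝ) (l k : ℕ) : (Pp α β l k).natDegree ≤ l + k := by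
  unfold Pp
  refine natDegree_mul_le.trans (add_le_add ?_ ?_)
  · refine natDegree_pow_le.trans ?_
    have : (X - 1 : ℝ[X]).natDegree ≤ 1 := by compute_degree
    simpa using Nat.mul_le_mul_left l this
  · refine natDegree_pow_le.trans ?_
    have : (C α * X + C β : ℝ[X]).natDegree ≤ 1 := by compute_degree
    simpa using Nat.mul_le_mul_left k this

lemma Pp_eval (α β : ℝ) (hα : α ≠ 0) (l k : ℕ) :
    ∑ m ∈ range (l + k + 1), (-β / α) ^ m * (Pp α β l k).coeff m =
      (-β / α - 1) ^ l * 0 ^ k := by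
  have h := eval_eq_sum_range' (Nat.lt_succ_of_le (Pp_natDegree α β l k)) (-β / α)
  have e : α * (-β / α) + β = 0 := by field_simp; ring
  rw [sum_congr rfl (fun m _ => mul_comm _ _), ← h]
  simp [Pp, e]

lemma rec_solve (S : ℕ) (u : ℕ → ℝ)
    (h : ∀ m < S, ((m : ℝ) + 1) * u (m + 1) + ((S : ℝ) - m) * u m = 0) :
    ∀ m ≤ S, u m = (-1) ^ m * (S.choose m : ℝ) * u 0 := by
  intro m
  induction m with
  | zero => simp
  | succ m ih =>
    intro hm
    have h1 := h m hm
    rw [ih (by omega)] at h1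
    have h2 : (S.choose (m + 1) : ℝ) * (m + 1) = S.choose m * ((S : ℝ) - m) := by
      have := congrArg (Nat.cast : ℕ → ℝ) (Nat.choose_succ_right_eq S m)
      push_cast [Nat.cast_sub (by omega : m ≤ S)] at this
      exact this
    have h3 : ((m : ℝ) + 1) ≠ 0 := by positivity
    apply mul_left_cancel₀ h3
    rw [pow_succ]
    linear_combination h1 + (-1) ^ m * u 0 * h2

lemma pin (S : ℕ) (r : ℝ) (hr : r < 0) (Δ : ℕ → ℕ → ℝ) (sym : ∀ m m', Δ m m' = Δ m' m)
    (h : ∀ m ≤ S, ∀ m' < S, ((m' : ℝ) + 1) * Δ m (m' + 1) + ((S : ℝ) - m') * Δ m m' = 0)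
    (h0 : ∑ m ∈ range (S + 1), ∑ m' ∈ range (S + 1), r ^ m * r ^ m' * Δ m m' = 0) :
    ∀ m ≤ S, ∀ m' ≤ S, Δ m m' = 0 := by
  have e : ∀ m ≤ S, ∀ m' ≤ S, Δ m m' =
      ((-1) ^ m * (S.choose m : ℝ)) * ((-1) ^ m' * (S.choose m' : ℝ)) * Δ 0 0 := by
    intro m hm m' hm'
    rw [rec_solve S (Δ m) (h m hm) m' hm', sym m 0, rec_solve S (Δ 0) (h 0 (by omega)) m hm]
    ring
  have b : ∑ m ∈ range (S + 1), r ^ m * ((-1) ^ m * (S.choose m : ℝ)) = (-r + 1) ^ S := by
    rw [add_pow]
    apply sum_congr rfl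
    intro m _
    rw [neg_pow r]; ring
  have h1 : (-r + 1) ^ S * (-r + 1) ^ S * Δ 0 0 = 0 := by
    rw [← h0, ← b, sum_mul_sum, sum_mul]
    apply sum_congr rfl
    intro m hm
    rw [sum_mul]
    apply sum_congr rfl
    intro m' hm'
    rw [e m (by simpa [Nat.lt_succ_iff] using hm) m' (by simpa [Nat.lt_succ_iff] using hm')]
    ring
  have h2 : Δ 0 0 = 0 := by
    have : (-r + 1) ^ S ≠ 0 := by have : 0 < -r + 1 := by linarith
                                  positivity
    simpa [this] using h1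
  intro m hm m' hm'
  rw [e m hm m' hm', h2, mul_zero]

noncomputable def gco (α β : ℝ) (G : ℕ → ℕ → ℕ → ℕ → ℝ) (l : ℕ) : ℝ :=
  (∑ m ∈ range (l + 1), ∑ m' ∈ range (l + 1),
    (-β / α) ^ m * (-β / α) ^ m' * G m (l - m) m' (l - m')) / ((-β / α - 1) ^ l) ^ 2

noncomputable def cf (α β : ℝ) (k : ℕ) : ℝ := (1 / (α + β)) ^ k / k.factorial

noncomputable def Tm (α β : ℝ) (g : ℕ → ℝ) (s m m' : ℕ) : ℝ :=
  ∑ l ∈ range (s + 1), g l * cf α β (s - l) *
    ((Pp α β l (s - l)).coeff m * (Pp α β l (s - l)).coeff m')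

lemma cf_succ (α β : ℝ) (h : α + β ≠ 0) (k : ℕ) :
    cf α β (k + 1) * (((k + 1 : ℕ) : ℝ) * (α + β)) = cf α β k := by
  unfold cf
  rw [Nat.factorial_succ, pow_succ]
  have : (k.factorial : ℝ) ≠ 0 := by positivity
  push_cast
  field_simp

lemma Tm_rel (α β : ℝ) (h : α + β ≠ 0) (g : ℕ → ℝ) (s m m' : ℕ) :
    ((m' : ℝ) + 1) * Tm α β g (s + 1) m (m' + 1) + (((s + 1 : ℕ) : ℝ) - m') * Tm α β g (s + 1) m m' =
      (if m = 0 then 0 else α * Tm α β g s (m - 1) m') + β * Tm α β g s m m' := by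
  have e : ((m' : ℝ) + 1) * Tm α β g (s + 1) m (m' + 1) +
      (((s + 1 : ℕ) : ℝ) - m') * Tm α β g (s + 1) m m' =
      ∑ l ∈ range (s + 1 + 1), g l * cf α β (s + 1 - l) * ((Pp α β l (s + 1 - l)).coeff m *
        (((s + 1 - l : ℕ) : ℝ) * (α + β) * (Pp α β l (s + 1 - l - 1)).coeff m')) := by
    unfold Tm
    rw [mul_sum, mul_sum, ← sum_add_distrib]
    apply sum_congr rfl
    intro l hl
    have hl' : l ≤ s + 1 := by simpa [Nat.lt_succ_iff] using hl
    rw [← Pp_deriv, Nat.cast_sub hl']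
    ring
  rw [e, sum_range_succ]
  simp only [Nat.sub_self, Nat.cast_zero, zero_mul, mul_zero, add_zero]
  have e2 : ∀ l ∈ range (s + 1), g l * cf α β (s + 1 - l) * ((Pp α β l (s + 1 - l)).coeff m *
        (((s + 1 - l : ℕ) : ℝ) * (α + β) * (Pp α β l (s + 1 - l - 1)).coeff m')) =
      (if m = 0 then 0 else α * (g l * cf α β (s - l) *
        ((Pp α β l (s - l)).coeff (m - 1) * (Pp α β l (s - l)).coeff m'))) +
      β * (g l * cf α β (s - l) * ((Pp α β l (s - l)).coeff m * (Pp α β l (s - l)).coeff m')) := by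
    intro l hl
    have hl' : l ≤ s := by simpa [Nat.lt_succ_iff] using hl
    have : s + 1 - l = (s - l) + 1 := by omega
    rw [this, Nat.add_sub_cancel, Pp_succ, ← cf_succ α β h (s - l)]
    split_ifs <;> ring
  rw [sum_congr rfl e2, sum_add_distrib]
  unfold Tm
  split_ifs
  · simp [mul_sum]
  · simp [mul_sum]

lemma Tm_top (α β : ℝ) (g : ℕ → ℝ) (s m' : ℕ) : Tm α β g s (s + 1) m' = 0 := by
  unfold Tm
  apply sum_eq_zero
  intro l hl
  have hl' : l ≤ s := by simpa [Nat.lt_succ_iff] using hl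
  rw [coeff_eq_zero_of_natDegree_lt (lt_of_le_of_lt (Pp_natDegree _ _ _ _) (by omega))]
  simp

lemma Tm_eval (α β : ℝ) (hα : α ≠ 0) (g : ℕ → ℝ) (s : ℕ) :
    ∑ m ∈ range (s + 1), ∑ m' ∈ range (s + 1), (-β / α) ^ m * (-β / α) ^ m' * Tm α β g s m m' =
      g s * ((-β / α - 1) ^ s) ^ 2 := by
  have e : ∑ m ∈ range (s + 1), ∑ m' ∈ range (s + 1),
      (-β / α) ^ m * (-β / α) ^ m' * Tm α β g s m m' =
      ∑ l ∈ range (s + 1), g l * cf α β (s - l) *
        (∑ m ∈ range (s + 1), (-β / α) ^ m * (Pp α β l (s - l)).coeff m) ^ 2 := by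
    unfold Tm
    simp only [mul_sum, sq, sum_mul]
    rw [sum_congr rfl fun m _ => sum_comm, sum_comm]
    apply sum_congr rfl
    intro l _
    rw [sum_comm]
    refine sum_congr rfl fun m _ => sum_congr rfl fun m' _ => by ring
  rw [e, sum_eq_single s]
  · have := Pp_eval α β hα s (s - s)
    rw [show s + (s - s) + 1 = s + 1 by omega] at this
    rw [this]
    simp [cf]
  · intro l hl hne
    have hl' : l ≤ s := by simpa [Nat.lt_succ_iff] using hl
    have := Pp_eval α β hα l (s - l)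
    rw [show l + (s - l) + 1 = s + 1 by omega] at this
    rw [this, zero_pow (by omega)]
    simp
  · intro h; simp at h

theorem structure_thm (α β : ℝ) (hα : 0 < α) (hβ : 0 < β) (G : ℕ → ℕ → ℕ → ℕ → ℝ)
    (sym : ∀ m n m' n', G m n m' n' = G m' n' m n)
    (rel : ∀ m n m' n' : ℕ, ((m' : ℝ) + 1) * G m n (m' + 1) n' + ((n' : ℝ) + 1) * G m n m' (n' + 1) =
      (if m = 0 then 0 else α * G (m - 1) n m' n') + (if n = 0 then 0 else β * G m (n - 1) m' n')) :
    ∀ s, ∀ m ≤ s, ∀ m' ≤ s, G m (s - m) m' (s - m') = Tm α β (gco α β G) s m m' := by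
  have hr : -β / α < 0 := div_neg_of_neg_of_pos (by linarith) hα
  have key : ∀ S : ℕ, (∀ m ≤ S, ∀ m' < S, ((m' : ℝ) + 1) *
      (G m (S - m) (m' + 1) (S - (m' + 1)) - Tm α β (gco α β G) S m (m' + 1)) +
      ((S : ℝ) - m') * (G m (S - m) m' (S - m') - Tm α β (gco α β G) S m m') = 0) →
      ∀ m ≤ S, ∀ m' ≤ S, G m (S - m) m' (S - m') = Tm α β (gco α β G) S m m' := by
    intro S h m hm m' hm'
    have := pin S (-β / α) hr (fun m m' => G m (S - m) m' (S - m') - Tm α β (gco α β G) S m m')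
      (fun m m' => by
        simp only [sym m (S - m) m' (S - m'), Tm, mul_comm ((Pp α β _ _).coeff m)]) h (by
        simp only [mul_sub, sum_sub_distrib]
        rw [Tm_eval α β hα.ne', gco, div_mul_cancel₀, sub_self]
        have : -β / α - 1 ≠ 0 := by linarith
        positivity) m hm m' hm'
    linarith
  intro s
  induction s with
  | zero => exact key 0 (fun m _ m' hm' => absurd hm' (by omega))
  | succ s ih =>
    apply key
    intro m hm m' hm'
    have hm'' : m' ≤ s := by omega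
    have h1 := rel m (s + 1 - m) m' (s - m')
    have h2 := Tm_rel α β (by positivity) (gco α β G) s m m'
    rw [show s + 1 - (m' + 1) = s - m' by omega, show s + 1 - m' = s - m' + 1 by omega]
    rw [Nat.cast_sub hm''] at h1
    have h3 : (if m = 0 then 0 else α * G (m - 1) (s + 1 - m) m' (s - m')) =
        (if m = 0 then 0 else α * Tm α β (gco α β G) s (m - 1) m') := by
      split_ifs with h
      · rfl
      · rw [← ih (m - 1) (by omega) m' hm'', show s - (m - 1) = s + 1 - m by omega]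
    have h4 : (if s + 1 - m = 0 then 0 else β * G m (s + 1 - m - 1) m' (s - m')) =
        β * Tm α β (gco α β G) s m m' := by
      split_ifs with h
      · rw [show m = s + 1 by omega, Tm_top, mul_zero]
      · rw [← ih m (by omega) m' hm'', show s + 1 - m - 1 = s - m by omega]
    rw [h3, h4] at h1
    push_cast at h2 ⊢
    linear_combination h1 - h2

end Vale.Agent.P359
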